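import Crest.Agent.R77.Defs
set_option autoImplicit false
set_option linter.unusedSectionVars false

noncomputable section

namespace Crest.Agent.R77

open MeasureTheory Set Filter Topology
open scoped ENNReal

namespace CellsAux

theorem lef_isGreatest {F : ℝ → ℝ} (hF : Continuous F) {h t : ℝ} (hl : ∃ t', t' ≤ t ∧ F t' ≤ h) :
    IsGreatest {t' | t' ≤ t ∧ F t' ≤ h} (lef F h t) := by
  have hb : BddAbove {t' | t' ≤ t ∧ F t' ≤ h} := ⟨t, fun x hx => hx.1⟩
  have hc : IsClosed {t' | t' ≤ t ∧ F t' ≤ h} :=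
    (isClosed_le continuous_id continuous_const).inter (isClosed_le hF continuous_const)
  exact ⟨hc.csSup_mem hl hb, fun x hx => le_csSup hb hx⟩

theorem rig_isLeast {F : ℝ → ℝ} (hF : Continuous F) (h T t : ℝ) :
    IsLeast {t' | t ≤ t' ∧ (F t' ≤ h ∨ T + 10 ≤ t')} (rig F h T t) := by
  have hb : BddBelow {t' | t ≤ t' ∧ (F t' ≤ h ∨ T + 10 ≤ t')} := ⟨t, fun x hx => hx.1⟩
  have hc : IsClosed {t' | t ≤ t' ∧ (F t' ≤ h ∨ T + 10 ≤ t')} :=
    (isClosed_le continuous_const continuous_id).inter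
      ((isClosed_le hF continuous_const).union (isClosed_le continuous_const continuous_id))
  exact ⟨hc.csInf_mem ⟨max t (T + 10), le_max_left _ _, Or.inr (le_max_right _ _)⟩ hb, fun x hx => csInf_le hb hx⟩

theorem lft_isGreatest {F : ℝ → ℝ} (hF : Continuous F) (h T t : ℝ) :
    IsGreatest {t' | t' ≤ t ∧ (F t' ≤ h ∨ t' ≤ T)} (sSup {t' | t' ≤ t ∧ (F t' ≤ h ∨ t' ≤ T)}) := by
  have hb : BddAbove {t' | t' ≤ t ∧ (F t' ≤ h ∨ t' ≤ T)} := ⟨t, fun x hx => hx.1⟩
  have hc : IsClosed {t' | t' ≤ t ∧ (F t' ≤ h ∨ t' ≤ T)} :=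
    (isClosed_le continuous_id continuous_const).inter
      ((isClosed_le hF continuous_const).union (isClosed_le continuous_id continuous_const))
  exact ⟨hc.csSup_mem ⟨min t T, min_le_left _ _, Or.inr (min_le_right _ _)⟩ hb, fun x hx => le_csSup hb hx⟩

theorem isClosed_exists {X : Type*} [TopologicalSpace X] {a b : X → ℝ} (ha : Continuous a) (hb : Continuous b)
    {P : X → ℝ → Prop} (hP : IsClosed {z : X × ℝ | P z.1 z.2}) :
    IsClosed {x | ∃ s, a x ≤ s ∧ s ≤ b x ∧ P x s} := by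
  have hc : Continuous fun z : X × Icc (0 : ℝ) 1 => (z.1, a z.1 + z.2.1 * (b z.1 - a z.1)) := by fun_prop
  have h1 : IsClosed {z : X × Icc (0 : ℝ) 1 | a z.1 ≤ b z.1 ∧ P z.1 (a z.1 + z.2.1 * (b z.1 - a z.1))} :=
    (isClosed_le (ha.comp continuous_fst) (hb.comp continuous_fst)).inter (hP.preimage hc)
  convert isClosedMap_fst_of_compactSpace _ h1 using 1
  ext x
  constructor
  · rintro ⟨s, h2, h3, h4⟩
    rcases (h2.trans h3).eq_or_lt with h5 | h5
    · refine ⟨(x, ⟨0, by simp⟩), ⟨h5.le, ?_⟩, rfl⟩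
      have : s = a x := le_antisymm (h5 ▸ h3) h2
      simpa [this] using h4
    · have h6 : 0 < b x - a x := sub_pos.2 h5
      refine ⟨(x, ⟨(s - a x) / (b x - a x), div_nonneg (sub_nonneg.2 h2) h6.le,
        (div_le_one h6).2 (by linarith)⟩), ⟨h5.le, ?_⟩, rfl⟩
      dsimp only
      rwa [div_mul_cancel₀ _ h6.ne', add_sub_cancel]
  · rintro ⟨⟨x', θ⟩, ⟨h2, h3⟩, rfl⟩
    refine ⟨_, ?_, ?_, h3⟩
    · exact le_add_of_nonneg_right (mul_nonneg θ.2.1 (sub_nonneg.2 h2))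
    · have := mul_le_mul_of_nonneg_right θ.2.2 (sub_nonneg.2 h2)
      dsimp only at this ⊢
      linarith

end CellsAux

open CellsAux

/-- the component through `t` -/
theorem cell {F : ℝ → ℝ} (hF : Continuous F) {h T t : ℝ} (hl : ∀ t, ∃ t', t' ≤ t ∧ F t' ≤ h) (ht : t < T + 10)
    (hh : h < F t) :
    lef F h t < t ∧ t < rig F h T t ∧ rig F h T t ≤ T + 10 ∧ F (lef F h t) = h ∧
      (rig F h T t < T + 10 → F (rig F h T t) = h) ∧
      ∀ t' ∈ Ioo (lef F h t) (rig F h T t), h < F t' ∧ lef F h t' = lef F h t ∧ rig F h T t' = rig F h T t ∧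
        pos F h T t' = mid T (lef F h t) (rig F h T t) := by
  obtain ⟨⟨l1, l2⟩, l3⟩ := lef_isGreatest hF (hl t)
  obtain ⟨⟨r1, r2⟩, r3⟩ := rig_isLeast hF h T t
  generalize lef F h t = t₁ at *
  generalize rig F h T t = t₂ at *
  have c1 : t₁ < t := lt_of_le_of_ne l1 fun e => by rw [e] at l2; linarith
  have c2 : t < t₂ := lt_of_le_of_ne r1 fun e => by
    rw [← e] at r2
    rcases r2 with r2 | r2 <;> linarith
  have c3 : t₂ ≤ T + 10 := r3 ⟨ht.le, Or.inr le_rfl⟩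
  have c4 : ∀ x ∈ Ioo t₁ t₂, h < F x := fun x hx => by
    by_contra hc
    rcases le_total x t with h1 | h1
    · exact absurd (l3 ⟨h1, not_lt.1 hc⟩) (not_le.2 hx.1)
    · exact absurd (r3 ⟨h1, Or.inl (not_lt.1 hc)⟩) (not_le.2 hx.2)
  refine ⟨c1, c2, c3, ?_, fun h1 => ?_, fun t' ht' => ?_⟩
  · by_contra hc
    obtain ⟨x, hx, e⟩ := intermediate_value_Ioo c1.le hF.continuousOn ⟨lt_of_le_of_ne l2 hc, hh⟩
    exact absurd (c4 x ⟨hx.1, hx.2.trans c2⟩) (by rw [e]; exact lt_irrefl _)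
  · by_contra hc
    have h2 : F t₂ ≤ h := r2.resolve_right (not_le.2 h1)
    obtain ⟨x, hx, e⟩ := intermediate_value_Ioo' c2.le hF.continuousOn ⟨lt_of_le_of_ne h2 hc, hh⟩
    exact absurd (c4 x ⟨c1.trans hx.1, hx.2⟩) (by rw [e]; exact lt_irrefl _)
  have c5 : ∀ x, x ≤ t' → F x ≤ h → x ≤ t₁ := fun x h1 h2 => by
    by_contra hc
    exact absurd (c4 x ⟨not_le.1 hc, h1.trans_lt ht'.2⟩) (not_lt.2 h2)
  have c6 : rig F h T t' = t₂ := by
    refine IsLeast.csInf_eq ⟨⟨ht'.2.le, r2⟩, fun x hx => ?_⟩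
    by_contra hc
    rcases hx.2 with h2 | h2
    · exact absurd (c4 x ⟨ht'.1.trans_le hx.1, not_le.1 hc⟩) (not_lt.2 h2)
    · exact hc (c3.trans h2)
  refine ⟨c4 t' ht', IsGreatest.csSup_eq ⟨⟨ht'.1.le, l2⟩, fun x hx => c5 x hx.1 hx.2⟩, c6, ?_⟩
  unfold pos mid lft
  rw [c6, min_eq_left c3]
  congr 2
  obtain ⟨⟨m1, m2⟩, m3⟩ := lft_isGreatest hF h T t'
  refine le_antisymm (max_le ?_ (le_max_right _ _)) (max_le_max (m3 ⟨ht'.1.le, Or.inl l2⟩) le_rfl)
  rcases m2 with m2 | m2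
  · exact le_max_of_le_left (c5 _ m1 m2)
  · exact le_max_of_le_right m2

theorem CellsAux.le_rig (F : ℝ → ℝ) (h T t : ℝ) : t ≤ rig F h T t :=
  le_csInf ⟨max t (T + 10), le_max_left _ _, Or.inr (le_max_right _ _)⟩ fun _ hx => hx.1

theorem pos_ge (F : ℝ → ℝ) (h : ℝ) {T t : ℝ} (ht : T + 10 ≤ t) : T + 5 ≤ pos F h T t := by
  have h1 : T ≤ lft F h T t := le_max_right _ _
  have h2 := le_max_left (T + 10) T
  unfold pos
  rw [min_eq_right (ht.trans (le_rig F h T t))]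
  linarith

theorem pos_le {F : ℝ → ℝ} {h T t t' : ℝ} (h1 : t ≤ t') (h2 : t' ≤ T) (h3 : F t' ≤ h) : pos F h T t ≤ T := by
  have h4 : rig F h T t ≤ t' := csInf_le ⟨t, fun x hx => hx.1⟩ ⟨h1, Or.inl h3⟩
  have h5 : lft F h T t ≤ T :=
    max_le (csSup_le ⟨t, le_rfl, Or.inr (h1.trans h2)⟩ fun x hx => hx.1.trans (h1.trans h2)) le_rfl
  unfold pos
  rw [max_eq_right ((min_le_left _ _).trans (h4.trans h2))]
  linarith

/-- `t ≤ rig` and `T ≤ lft` -/
theorem lt_of_pos_lt (F : ℝ → ℝ) (h : ℝ) {T t r : ℝ} (hr : r ≤ 5) (hp : pos F h T t < T + r) : t < T + 2 * r := by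
  have h1 : T ≤ lft F h T t := le_max_right _ _
  have h2 := le_max_left (min (rig F h T t) (T + 10)) T
  have h3 := le_rig F h T t
  unfold pos at hp
  rcases le_total (rig F h T t) (T + 10) with h4 | h4
  · rw [min_eq_left h4] at h2 hp
    linarith
  · rw [min_eq_right h4] at h2 hp
    linarith

/-- the cells are pairwise disjoint non-empty open sets, hence countably many -/
theorem setIntegral_nonneg_of_cells {X : Type*} [TopologicalSpace X] [SecondCountableTopology X] [MeasurableSpace X]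
    [OpensMeasurableSpace X] (m : Measure X) (O : Set X) (c : X → Set X) (F : X → ℝ) (ho : ∀ x ∈ O, IsOpen (c x))
    (hm : ∀ x ∈ O, x ∈ c x) (hs : ∀ x ∈ O, c x ⊆ O) (he : ∀ x ∈ O, ∀ y ∈ c x, c y = c x)
    (hF : IntegrableOn F O m) (h0 : ∀ x ∈ O, 0 ≤ ∫ y in c x, F y ∂m) : 0 ≤ ∫ y in O, F y ∂m := by
  have hd : (c '' O).PairwiseDisjoint id := by
    rintro _ ⟨x, hx, rfl⟩ _ ⟨y, hy, rfl⟩ hne
    refine Set.disjoint_left.2 fun z h1 h2 => hne ?_
    rw [← he x hx z h1, he y hy z h2]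
  have hc : (c '' O).Countable :=
    hd.countable_of_isOpen (by rintro _ ⟨x, hx, rfl⟩; exact ho x hx) (by rintro _ ⟨x, hx, rfl⟩; exact ⟨x, hm x hx⟩)
  have := hc.to_subtype
  have e : O = ⋃ i : c '' O, (i : Set X) := by
    ext x
    simp only [mem_iUnion]
    constructor
    · exact fun hx => ⟨⟨c x, x, hx, rfl⟩, hm x hx⟩
    · rintro ⟨⟨_, y, hy, rfl⟩, h1⟩
      exact hs y hy h1
  have h1 := hasSum_integral_iUnion (μ := m) (f := F) (s := fun i : c '' O => (i : Set X))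
    (by rintro ⟨_, x, hx, rfl⟩; exact (ho x hx).measurableSet)
    (fun i j hij => hd i.2 j.2 fun h => hij (Subtype.ext h)) (e ▸ hF)
  rw [← e] at h1
  refine h1.nonneg ?_
  rintro ⟨_, x, hx, rfl⟩
  exact h0 x hx

variable {S : Type} [MetricSpace S] [CompactSpace S] [MeasurableSpace S] [BorelSpace S]

theorem measurable_pt : Measurable (pt : Xs S → ℝ × S) :=
  measurable_snd.prodMk (measurable_fst.comp measurable_fst)

theorem measurableSet_sub {F : ℝ × S → ℝ} (hF : Continuous F) : MeasurableSet (sub F) :=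
  (measurableSet_lt measurable_const (measurable_snd.comp measurable_fst)).inter
    (measurableSet_lt (measurable_snd.comp measurable_fst) (hF.measurable.comp measurable_pt))

theorem measurable_Pos {F : ℝ × S → ℝ} (hF : Continuous F) (T : ℝ) : Measurable (Pos F T) := by
  have hc : ∀ ω : S, Continuous fun t => F (t, ω) := fun ω => hF.comp (continuous_id.prodMk continuous_const)
  have hP : IsClosed {z : Xs S × ℝ | F (z.2, z.1.1.1) ≤ z.1.1.2} := isClosed_le (by fun_prop) (by fun_prop)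
  have h1 : Measurable fun ξ : Xs S => rig (fun t => F (t, ξ.1.1)) ξ.1.2 T ξ.2 := by
    refine measurable_of_Iic fun c => ?_
    have h2 := isClosed_exists (X := Xs S) (a := fun ξ => ξ.2) (b := fun _ => c) continuous_snd continuous_const
      (P := fun ξ s => F (s, ξ.1.1) ≤ ξ.1.2 ∨ T + 10 ≤ s) (hP.union (isClosed_le continuous_const continuous_snd))
    convert h2.measurableSet using 1
    ext ξ
    obtain ⟨r1, r2⟩ := rig_isLeast (hc ξ.1.1) ξ.1.2 T ξ.2
    exact ⟨fun h => ⟨_, r1.1, h, r1.2⟩, fun ⟨s, a1, a2, a3⟩ => (r2 ⟨a1, a3⟩).trans a2⟩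
  have h2 : Measurable fun ξ : Xs S => sSup {t' | t' ≤ ξ.2 ∧ (F (t', ξ.1.1) ≤ ξ.1.2 ∨ t' ≤ T)} := by
    refine measurable_of_Ici fun c => ?_
    have h2 := isClosed_exists (X := Xs S) (a := fun _ => c) (b := fun ξ => ξ.2) continuous_const continuous_snd
      (P := fun ξ s => F (s, ξ.1.1) ≤ ξ.1.2 ∨ s ≤ T) (hP.union (isClosed_le continuous_snd continuous_const))
    convert h2.measurableSet using 1
    ext ξ
    obtain ⟨r1, r2⟩ := lft_isGreatest (hc ξ.1.1) ξ.1.2 T ξ.2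
    exact ⟨fun h => ⟨_, h, r1.1, r1.2⟩, fun ⟨s, a1, a2, a3⟩ => a1.trans (r2 ⟨a2, a3⟩)⟩
  exact ((h2.max measurable_const).add ((h1.min measurable_const).max measurable_const)).div_const 2

end Crest.Agent.R77
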