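import Crest.Agent.R77.Zero
set_option autoImplicit false
set_option linter.unusedSectionVars false

noncomputable section

namespace Crest.Agent.R77

open MeasureTheory Set Filter Topology
open scoped ENNReal

theorem cell_integrableOn {G : ℝ × ℝ → ℝ} (hG : Continuous G) (t₁ t₂ s₁ s₂ : ℝ) :
    IntegrableOn G (Ioo t₁ t₂ ×ˢ Ioo s₁ s₂) :=
  (hG.continuousOn.integrableOn_compact (isCompact_Icc.prod isCompact_Icc)).mono_set
    (prod_mono Ioo_subset_Icc_self Ioo_subset_Icc_self)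

/-- the estimate on a pair of rays -/
theorem fibre_nonneg {μ a b lam C₁ C₂ C₃ T τ ρ η l m E : ℝ} {F G : ℝ → ℝ} (hF : Continuous F) (hG : Continuous G)
    (hl : ∀ t, ∃ t', t' ≤ t ∧ F t' ≤ l) (hm : ∀ t, ∃ t', t' ≤ t ∧ G t' ≤ m) (hlam : lam < 1)
    (h₁ : 0 ≤ C₁) (h₂ : 0 ≤ C₂) (h₃ : 0 ≤ C₃) (hE : 1 ≤ E) (hτ : T + 2 ≤ τ) (hτ' : τ + 2 * ρ ≤ T + 3) (hη : 0 < η)
    (hηρ : η ≤ ρ)
    (hpair : ∀ t₁ t₂ s₁ s₂ : ℝ, t₁ < t₂ → s₁ < s₂ → mid T t₁ t₂ < mid T s₁ s₂ → T + 2 ≤ mid T s₁ s₂ →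
      0 ≤ ∫ z in Ioo t₁ t₂ ×ˢ Ioo s₁ s₂, (KD μ a b lam z.1 z.2 +
        (if mid T s₁ s₂ - mid T t₁ t₂ < η then C₁ else 0) * KK μ a b lam z.1 z.2 +
        C₂ * E * (if T ≤ max z.1 z.2 then Kb μ a b z.1 z.2 else 0)))
    (hfar : ∀ t s : ℝ, 1 ≤ |t - s| → |KD μ a b lam t s| ≤ C₃ * Kb μ a b t s)
    {H : ℝ × ℝ → ℝ}
    (hH : ∀ z, H z = max (cut τ ρ (pos F l T z.1) - cut τ ρ (pos G m T z.2)) 0 * KD μ a b lam z.1 z.2 +
      C₁ * (η / ρ) * (if pos F l T z.1 ≤ τ + 2 * ρ ∧ pos G m T z.2 ≤ τ + 2 * ρ then KK μ a b lam z.1 z.2 else 0) +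
      (C₂ + C₃) * E * (if T ≤ max z.1 z.2 then Kb μ a b z.1 z.2 else 0))
    (hi : IntegrableOn H ({t | l < F t} ×ˢ {s | m < G s})) :
    0 ≤ ∫ z in {t | l < F t} ×ˢ {s | m < G s}, H z := by
  have hρ : 0 < ρ := hη.trans_le hηρ
  have hA : MeasurableSet {t | l < F t} := (isOpen_lt continuous_const hF).measurableSet
  have hB : MeasurableSet {s | m < G s} := (isOpen_lt continuous_const hG).measurableSet
  have hk : ∀ (z : ℝ × ℝ) (P : Prop) [Decidable P], 0 ≤ C₁ * (η / ρ) * (if P then KK μ a b lam z.1 z.2 else 0) :=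
    fun z P _ => mul_nonneg (mul_nonneg h₁ (div_pos hη hρ).le) (by
      split_ifs
      exacts [KK_nonneg _ _ _ hlam.le _ _, le_rfl])
  have hkb : ∀ z : ℝ × ℝ, 0 ≤ (if T ≤ max z.1 z.2 then Kb μ a b z.1 z.2 else 0) := fun z => by
    split_ifs
    exacts [(Kb_pos _ _ _ _ _).le, le_rfl]
  have hCE : 0 ≤ (C₂ + C₃) * E := mul_nonneg (add_nonneg h₂ h₃) (zero_le_one.trans hE)
  have hw0 : ∀ z : ℝ × ℝ, cut τ ρ (pos F l T z.1) ≤ cut τ ρ (pos G m T z.2) → 0 ≤ H z := fun z hz => by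
    rw [hH, max_eq_right (sub_nonpos.2 hz), zero_mul, zero_add]
    exact add_nonneg (hk _ _) (mul_nonneg hCE (hkb z))
  have hsub : ({t | l < F t} ∩ Iio (T + 10)) ×ˢ ({s | m < G s} ∩ Iio (T + 10)) ⊆ {t | l < F t} ×ˢ {s | m < G s} :=
    prod_mono inter_subset_left inter_subset_left
  have hO : MeasurableSet (({t | l < F t} ∩ Iio (T + 10)) ×ˢ ({s | m < G s} ∩ Iio (T + 10))) :=
    (hA.inter measurableSet_Iio).prod (hB.inter measurableSet_Iio)
  rw [← integral_inter_add_sdiff hO hi, inter_eq_right.2 hsub]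
  refine add_nonneg ?_ (setIntegral_nonneg ((hA.prod hB).diff hO) fun z hz => ?_)
  · refine setIntegral_nonneg_of_cells volume _
      (fun z => Ioo (lef F l z.1) (rig F l T z.1) ×ˢ Ioo (lef G m z.2) (rig G m T z.2)) H
      (fun _ _ => isOpen_Ioo.prod isOpen_Ioo) (fun z hz => ?_) (fun z hz y hy => ?_) (fun z hz y hy => ?_)
      (hi.mono_set hsub) (fun z hz => ?_)
    · obtain ⟨c1, c2, -⟩ := cell hF (T := T) hl hz.1.2 hz.1.1
      obtain ⟨d1, d2, -⟩ := cell hG (T := T) hm hz.2.2 hz.2.1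
      exact ⟨⟨c1, c2⟩, d1, d2⟩
    · obtain ⟨-, -, c3, -, -, c6⟩ := cell hF (T := T) hl hz.1.2 hz.1.1
      obtain ⟨-, -, d3, -, -, d6⟩ := cell hG (T := T) hm hz.2.2 hz.2.1
      exact ⟨⟨(c6 _ hy.1).1, lt_of_lt_of_le hy.1.2 c3⟩, (d6 _ hy.2).1, lt_of_lt_of_le hy.2.2 d3⟩
    · obtain ⟨-, -, -, -, -, c6⟩ := cell hF (T := T) hl hz.1.2 hz.1.1
      obtain ⟨-, -, -, -, -, d6⟩ := cell hG (T := T) hm hz.2.2 hz.2.1
      rw [(c6 _ hy.1).2.1, (c6 _ hy.1).2.2.1, (d6 _ hy.2).2.1, (d6 _ hy.2).2.2.1]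
    obtain ⟨c1, c2, c3, -, -, c6⟩ := cell hF (T := T) hl hz.1.2 hz.1.1
    obtain ⟨d1, d2, d3, -, -, d6⟩ := cell hG (T := T) hm hz.2.2 hz.2.1
    generalize lef F l z.1 = t₁ at *
    generalize rig F l T z.1 = t₂ at *
    generalize lef G m z.2 = s₁ at *
    generalize rig G m T z.2 = s₂ at *
    have hc : MeasurableSet (Ioo t₁ t₂ ×ˢ Ioo s₁ s₂) := measurableSet_Ioo.prod measurableSet_Ioo
    by_cases hw : cut τ ρ (mid T t₁ t₂) ≤ cut τ ρ (mid T s₁ s₂)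
    · refine setIntegral_nonneg hc fun y hy => hw0 y ?_
      rwa [(c6 _ hy.1).2.2.2, (d6 _ hy.2).2.2.2]
    push Not at hw
    have e1 : mid T t₁ t₂ < mid T s₁ s₂ := by
      by_contra hc
      exact absurd (cut_anti (τ := τ) hρ (not_lt.1 hc)) (not_le.2 hw)
    have e2 : τ < mid T s₁ s₂ := by
      by_contra hc
      rw [cut_eq_one hρ (not_lt.1 hc)] at hw
      exact absurd (cut_le_one _ _ _) (not_le.2 hw)
    have e3 : mid T t₁ t₂ < τ + ρ := by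
      by_contra hc
      rw [cut_eq_zero hρ (not_lt.1 hc)] at hw
      exact absurd (cut_nonneg _ _ _) (not_le.2 hw)
    have e4 := cut_sub_le (τ := τ) hρ e1.le
    have e5 : cut τ ρ (mid T t₁ t₂) - cut τ ρ (mid T s₁ s₂) ≤ 1 := by
      have := cut_le_one τ ρ (mid T t₁ t₂)
      have := cut_nonneg τ ρ (mid T s₁ s₂)
      linarith
    obtain ⟨w, hw'⟩ : ∃ w, w = cut τ ρ (mid T t₁ t₂) - cut τ ρ (mid T s₁ s₂) := ⟨_, rfl⟩
    have e6 : 0 ≤ w := by rw [hw']; linarith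
    rw [← hw'] at e4 e5
    have hp := mul_nonneg e6 (hpair t₁ t₂ s₁ s₂ (c1.trans c2) (d1.trans d2) e1 (by linarith))
    rw [← integral_const_mul] at hp
    refine hp.trans (setIntegral_mono_on ?_ (hi.mono_set fun y hy => ⟨(c6 _ hy.1).1, (d6 _ hy.2).1⟩) hc
      fun y hy => ?_)
    · refine Integrable.const_mul (Integrable.add (Integrable.add ?_ (Integrable.const_mul ?_ _))
        (Integrable.const_mul ?_ _)) _
      · exact cell_integrableOn (continuous_KD μ a b hlam) _ _ _ _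
      · exact cell_integrableOn (continuous_KK μ a b hlam) _ _ _ _
      · have hKb : Continuous fun z : ℝ × ℝ => Kb μ a b z.1 z.2 := by unfold Kb; fun_prop
        have hs : MeasurableSet {z : ℝ × ℝ | T ≤ max z.1 z.2} :=
          (isClosed_le continuous_const (by fun_prop)).measurableSet
        exact Integrable.indicator (cell_integrableOn hKb t₁ t₂ s₁ s₂) hs
    · rw [hH, (c6 _ hy.1).2.2.2, (d6 _ hy.2).2.2.2, ← hw', max_eq_left e6, mul_add, mul_add]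
      refine add_le_add (add_le_add le_rfl ?_) ?_
      · by_cases hg : mid T s₁ s₂ - mid T t₁ t₂ < η
        · rw [if_pos hg, if_pos ⟨by linarith, by linarith⟩, ← mul_assoc, mul_comm w]
          refine mul_le_mul_of_nonneg_right (mul_le_mul_of_nonneg_left (e4.trans ?_) h₁)
            (KK_nonneg _ _ _ hlam.le _ _)
          exact div_le_div_of_nonneg_right hg.le hρ.le
        · rw [if_neg hg, zero_mul, mul_zero]
          exact hk _ _
      · rw [← mul_assoc]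
        refine mul_le_mul_of_nonneg_right ?_ (hkb y)
        have h0 : 0 ≤ E := zero_le_one.trans hE
        nlinarith [mul_nonneg h₂ h0, mul_nonneg h₃ h0]
  · by_cases hw : cut τ ρ (pos F l T z.1) ≤ cut τ ρ (pos G m T z.2)
    · exact hw0 z hw
    push Not at hw
    have e3 : pos F l T z.1 < τ + ρ := by
      by_contra hc
      rw [cut_eq_zero hρ (not_lt.1 hc)] at hw
      exact absurd (cut_nonneg _ _ _) (not_le.2 hw)
    have e4 : z.1 < T + 2 * 3 := lt_of_pos_lt F l (by norm_num) (by linarith)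
    have e5 : T + 10 ≤ z.2 := by
      by_contra hc
      exact hz.2 ⟨⟨hz.1.1, by simp only [mem_Iio]; linarith⟩, hz.1.2, not_le.1 hc⟩
    have e6 := hfar z.1 z.2 (by rw [abs_sub_comm]; exact le_trans (by linarith) (le_abs_self _))
    have e7 : cut τ ρ (pos F l T z.1) - cut τ ρ (pos G m T z.2) ≤ 1 := by
      have := cut_le_one τ ρ (pos F l T z.1)
      have := cut_nonneg τ ρ (pos G m T z.2)
      linarith
    rw [hH, max_eq_left (sub_nonneg.2 hw.le), if_pos (le_max_of_le_right (by linarith)), add_right_comm]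
    refine add_nonneg ?_ (hk _ _)
    have e8 : 0 ≤ cut τ ρ (pos F l T z.1) - cut τ ρ (pos G m T z.2) := sub_nonneg.2 hw.le
    generalize cut τ ρ (pos F l T z.1) - cut τ ρ (pos G m T z.2) = w at e7 e8
    have e9 := Kb_pos μ a b z.1 z.2
    have e10 := neg_abs_le (KD μ a b lam z.1 z.2)
    have e11 : w * |KD μ a b lam z.1 z.2| ≤ C₃ * Kb μ a b z.1 z.2 :=
      (mul_le_of_le_one_left (abs_nonneg _) e7).trans e6
    have e12 : C₃ ≤ (C₂ + C₃) * E := by nlinarith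
    nlinarith [mul_le_mul_of_nonneg_left e10 e8, mul_le_mul_of_nonneg_right e12 e9.le]

variable {S : Type} [MetricSpace S] [CompactSpace S] [MeasurableSpace S] [BorelSpace S] [Nonempty S]
  {ν : Measure S} [IsFiniteMeasure ν] [ν.IsOpenPosMeasure] {d : Dat S}

theorem Ok.measurable_Phi (h : Ok d ν) (T τ ρ : ℝ) : Measurable fun z : Xs S × Xs S => cut τ ρ (Pos d.f T z.1) :=
  (continuous_cut τ ρ).measurable.comp ((measurable_Pos h.hV.cont_f T).comp measurable_fst)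

theorem Ok.measurable_Psi (h : Ok d ν) (T τ ρ : ℝ) : Measurable fun z : Xs S × Xs S => cut τ ρ (Pos d.g T z.2) :=
  (continuous_cut τ ρ).measurable.comp ((measurable_Pos h.z_cont_g T).comp measurable_snd)

theorem Ok.integrable_cross (h : Ok d ν) {T τ ρ : ℝ} (hρ : 0 < ρ) (hτ : τ + ρ ≤ T + 3) :
    Integrable (fun z : Xs S × Xs S =>
      max (cut τ ρ (Pos d.f T z.1) - cut τ ρ (Pos d.g T z.2)) 0 * d.kd (pt z.1) (pt z.2)) (MM d ν) :=
  h.integrable_cut hρ hτ (((h.measurable_Phi T τ ρ).sub (h.measurable_Psi T τ ρ)).max measurable_const)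
    (fun _ => le_max_right _ _) fun _ => max_le (sub_le_self _ (cut_nonneg _ _ _)) (cut_nonneg _ _ _)

theorem Ok.cross (h : Ok d ν) : ∃ C₁ C₂ : ℝ, 0 ≤ C₁ ∧ 0 ≤ C₂ ∧ ∀ T τ ρ η : ℝ, T + 2 ≤ τ → τ + 2 * ρ ≤ T + 3 →
    0 < η → η ≤ ρ →
    -(C₁ * (η / ρ) * Qr d ν T (τ + 2 * ρ) + C₂ * η ^ (-(2 * d.μ + 2)) * Tl d ν T) ≤
      ∫ z, max (cut τ ρ (Pos d.f T z.1) - cut τ ρ (Pos d.g T z.2)) 0 * d.kd (pt z.1) (pt z.2) ∂(MM d ν) := by
  obtain ⟨C₁, C₂, h₁, h₂, hp⟩ := pair d.μ d.a d.b h.com.μpos h.com.δpos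
  obtain ⟨C₃, h₃, hf⟩ := kd_far d.μ d.a d.b h.com.μpos
  refine ⟨C₁, C₂ + C₃, h₁, add_nonneg h₂ h₃, fun T τ ρ η hτ hτ' hη hηρ => ?_⟩
  have hρ : 0 < ρ := hη.trans_le hηρ
  have hη1 : η ≤ 1 := by linarith
  have hE : 1 ≤ η ^ (-(2 * d.μ + 2)) :=
    Real.one_le_rpow_of_pos_of_le_one_of_nonpos hη hη1 (by have := h.com.μpos; linarith)
  have i1 := h.integrable_cross (T := T) (τ := τ) hρ (by linarith)
  have i2 := (h.integrable_Q (T := T) (τ := τ + 2 * ρ) (by linarith)).const_mul (C₁ * (η / ρ))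
  have i3 := (h.integrable_Tl T).const_mul ((C₂ + C₃) * η ^ (-(2 * d.μ + 2)))
  have key := integral_MM_nonneg h ((i1.add i2).add i3) fun α β hl hα hβ hi =>
    fibre_nonneg (F := fun t => d.f (t, α.1)) (G := fun s => d.g (s, β.1))
      (h.hV.cont_f.comp (continuous_id.prodMk continuous_const))
      (h.z_cont_g.comp (continuous_id.prodMk continuous_const)) (h.left_exit α.1 hα) (h.swap.left_exit β.1 hβ) hl
      h₁ h₂ h₃ hE hτ hτ' hη hηρ
      (fun t₁ t₂ s₁ s₂ => hp _ η T t₁ t₂ s₁ s₂ (h.com.lge _ _) hl hη hη1)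
      (fun t s hts => (hf _ t s hl.le hts).1) (fun _ => rfl) hi
  rw [integral_add' (i1.add i2) i3, integral_add' i1 i2, integral_const_mul, integral_const_mul] at key
  unfold Qr Tl
  linarith

theorem Ok.step (h : Ok d ν) (he : Eqn d ν) (he' : Eqn d.swap ν) : ∃ C₁ C₂ : ℝ, 0 ≤ C₁ ∧ 0 ≤ C₂ ∧
    ∀ T τ ρ η : ℝ, T + 2 ≤ τ → τ + 2 * ρ ≤ T + 3 → 0 < η → η ≤ ρ →
      (d.a + d.b) * Qr d ν T τ ≤
        C₁ * (η / ρ) * Qr d ν T (τ + 2 * ρ) + C₂ * η ^ (-(2 * d.μ + 2)) * Tl d ν T := by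
  obtain ⟨C₁, C₂, h₁, h₂, hc⟩ := h.cross
  obtain ⟨C₁', C₂', h₁', h₂', hc'⟩ := h.swap.cross
  refine ⟨C₁ + C₁', C₂ + C₂', add_nonneg h₁ h₁', add_nonneg h₂ h₂', fun T τ ρ η hτ hτ' hη hηρ => ?_⟩
  have hρ : 0 < ρ := hη.trans_le hηρ
  have hτ3 : τ + ρ ≤ T + 3 := by linarith
  have k1 := hc T τ ρ η hτ hτ' hη hηρ
  have k2 := hc' T τ ρ η hτ hτ' hη hηρ
  rw [integral_MM_swap, h.Qr_swap, Tl_swap] at k2
  have z1 := h.zero he hρ hτ3
  have z2 := h.swap.zero he' hρ hτ3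
  rw [integral_MM_swap] at z2
  have i1 := h.integrable_cut hρ hτ3 (h.measurable_Phi T τ ρ) (fun _ => cut_nonneg _ _ _) (fun _ => le_rfl)
  have i2 : Integrable (fun z : Xs S × Xs S => cut τ ρ (Pos d.g T z.2) * d.swap.kd (pt z.2) (pt z.1)) (MM d ν) :=
    (h.swap.integrable_cut hρ hτ3 (h.swap.measurable_Phi T τ ρ) (fun _ => cut_nonneg _ _ _) (fun _ => le_rfl)).swap
  have i3 := h.integrable_cross hρ hτ3
  have i4 : Integrable (fun z : Xs S × Xs S =>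
      max (cut τ ρ (Pos d.g T z.2) - cut τ ρ (Pos d.f T z.1)) 0 * d.swap.kd (pt z.2) (pt z.1)) (MM d ν) :=
    (h.swap.integrable_cross hρ hτ3).swap
  have i5 := (h.integrable_Q (T := T) (τ := τ) (by linarith)).const_mul (d.a + d.b)
  have key := integral_mono i5 ((i1.add i2).sub (i3.add i4)) fun z => by
    have e1 := h.com.kd_add (pt z.1) (pt z.2)
    have e2 := mul_nonneg h.com.δpos.le (h.com.z_k_nonneg (pt z.1) (pt z.2))
    have e3 := cut_nonneg τ ρ (Pos d.f T z.1)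
    have e4 := cut_nonneg τ ρ (Pos d.g T z.2)
    simp only [Pi.add_apply, Pi.sub_apply]
    split_ifs with hz
    · rw [cut_eq_one hρ hz.1, cut_eq_one hρ hz.2]
      simp [e1]
    · rw [← e1] at e2
      rcases le_total (cut τ ρ (Pos d.f T z.1)) (cut τ ρ (Pos d.g T z.2)) with h1 | h1
      · rw [max_eq_right (sub_nonpos.2 h1), max_eq_left (sub_nonneg.2 h1)]
        nlinarith [mul_nonneg e3 e2]
      · rw [max_eq_left (sub_nonneg.2 h1), max_eq_right (sub_nonpos.2 h1)]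
        nlinarith [mul_nonneg e4 e2]
  rw [integral_sub' (i1.add i2) (i3.add i4), integral_add' i1 i2, integral_add' i3 i4, integral_const_mul, z1] at key
  change ∫ z, cut τ ρ (Pos d.g T z.2) * d.swap.kd (pt z.2) (pt z.1) ∂(MM d ν) = 0 at z2
  change -(C₁' * (η / ρ) * Qr d ν T (τ + 2 * ρ) + C₂' * η ^ (-(2 * d.μ + 2)) * Tl d ν T) ≤
    ∫ z, max (cut τ ρ (Pos d.g T z.2) - cut τ ρ (Pos d.f T z.1)) 0 * d.swap.kd (pt z.2) (pt z.1) ∂(MM d ν) at k2
  rw [z2] at key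
  change (d.a + d.b) * Qr d ν T τ ≤ _ at key
  linarith

theorem Ok.cyl_false (h : Ok d ν) (he : Eqn d ν) (he' : Eqn d.swap ν) : False := by
  obtain ⟨C₁, C₂, h₁, h₂, hs⟩ := h.step he he'
  obtain ⟨C₃, hC⟩ := hole (N := 2 * d.μ + 2) h.com.δpos h₁ h₂ (by have := h.com.μpos; linarith)
  obtain ⟨T₁, κ, hκ, hl⟩ := h.Qr_lower
  have h1 : Tendsto (fun T => C₃ * Tl d ν T) atTop (𝓝 (C₃ * 0)) := h.Tl_tendsto.const_mul C₃
  rw [mul_zero] at h1
  obtain ⟨T, hT1, hT2⟩ := ((h1.eventually (gt_mem_nhds hκ)).and (eventually_ge_atTop T₁)).exists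
  have h2 := hC (Qr d ν T) (T + 2) (Tl d ν T) (Qr d ν T (T + 3)) (Tl_nonneg T)
    (fun τ hτ => ⟨h.Qr_nonneg T τ, h.Qr_mono (by linarith) (by linarith)⟩)
    (fun τ ρ η a1 a2 a3 a4 => hs T τ ρ η a1 (by linarith) a3 a4)
  have h3 := hl T hT2
  linarith

end Crest.Agent.R77
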