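import Mathlib
/-!
Row 77 (Hénon–Lane–Emden conjecture). Definitions.

Plan. For `n ≥ 3` the solutions are Newton potentials of the right-hand sides. In log-polar coordinates
`x = e^t ω`, `V = r^{a₁} v`, `U = r^{a₂} u` (`a₁ = (n+A)/(p+1)`, `a₂ = (n+B)/(q+1)`) one gets
`c V = ∫ 𝒦 U^q`, `c U = ∫ 𝒦 V^p`, `𝒦 = e^{a t + b s} (2 cosh (t-s) - 2⟨ω,ω'⟩)^{-μ}`, `μ = (n-2)/2`, `a + b > 0`.
On every ray, `V` takes equal values at the two ends of a component of a superlevel set, so moving every component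
rigidly with a velocity `φ(midpoint)` gives an identity without pressure term; the interaction of two components has a
good sign up to small errors (`pair`), and a hole-filling iteration gives a contradiction.
-/
set_option autoImplicit false

noncomputable section

namespace Crest.Agent.R77

open MeasureTheory Set Filter Topology
open scoped ENNReal

/-! ### kernels -/

def Dz (l z : ℝ) : ℝ := 2 * Real.cosh z - 2 * l

def Kz (μ l z : ℝ) : ℝ := Dz l z ^ (-μ)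

/-- the kernel -/
def KK (μ a b l t s : ℝ) : ℝ := Real.exp (a * t + b * s) * Kz μ l (t - s)

/-- its derivative in `t` -/
def KD (μ a b l t s : ℝ) : ℝ :=
  Real.exp (a * t + b * s) * (a * Kz μ l (t - s) - μ * (2 * Real.sinh (t - s)) * Dz l (t - s) ^ (-μ - 1))

/-- the non-singular comparison kernel -/
def Kb (μ a b t s : ℝ) : ℝ := Real.exp (a * t + b * s - μ * |t - s|)

theorem Dz_neg (l z : ℝ) : Dz l (-z) = Dz l z := by simp [Dz]

theorem Kz_neg (μ l z : ℝ) : Kz μ l (-z) = Kz μ l z := by simp [Kz, Dz_neg]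

theorem Dz_nonneg {l : ℝ} (hl : l ≤ 1) (z : ℝ) : 0 ≤ Dz l z := by
  have := Real.one_le_cosh z
  unfold Dz; linarith

theorem Dz_pos {l : ℝ} (hl : l < 1) (z : ℝ) : 0 < Dz l z := by
  have := Real.one_le_cosh z
  unfold Dz; linarith

theorem Kz_nonneg (μ : ℝ) {l : ℝ} (hl : l ≤ 1) (z : ℝ) : 0 ≤ Kz μ l z := Real.rpow_nonneg (Dz_nonneg hl z) _

theorem KK_nonneg (μ a b : ℝ) {l : ℝ} (hl : l ≤ 1) (t s : ℝ) : 0 ≤ KK μ a b l t s :=
  mul_nonneg (Real.exp_pos _).le (Kz_nonneg μ hl _)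

theorem KK_pos (μ a b : ℝ) {l : ℝ} (hl : l < 1) (t s : ℝ) : 0 < KK μ a b l t s :=
  mul_pos (Real.exp_pos _) (Real.rpow_pos_of_pos (Dz_pos hl _) _)

theorem Kb_pos (μ a b t s : ℝ) : 0 < Kb μ a b t s := Real.exp_pos _

theorem KK_swap (μ a b l t s : ℝ) : KK μ b a l s t = KK μ a b l t s := by
  unfold KK
  rw [← Kz_neg μ l (s - t), neg_sub, add_comm]

theorem Kb_swap (μ a b t s : ℝ) : Kb μ b a s t = Kb μ a b t s := by
  unfold Kb
  rw [abs_sub_comm, add_comm]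

theorem KD_add (μ a b l t s : ℝ) : KD μ a b l t s + KD μ b a l s t = (a + b) * KK μ a b l t s := by
  unfold KD KK
  rw [← Kz_neg μ l (s - t), ← Dz_neg l (s - t), neg_sub, ← neg_sub t s, Real.sinh_neg, add_comm (b * s)]
  ring

theorem hasDerivAt_KK (μ a b : ℝ) {l : ℝ} (hl : l < 1) (t s : ℝ) :
    HasDerivAt (fun t => KK μ a b l t s) (KD μ a b l t s) t := by
  have h1 : HasDerivAt (fun t => Real.exp (a * t + b * s)) (Real.exp (a * t + b * s) * a) t := by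
    simpa using (((hasDerivAt_id t).const_mul a).add_const (b * s)).exp
  have h2 : HasDerivAt (fun t => Dz l (t - s)) (2 * Real.sinh (t - s)) t := by
    simpa [Dz] using ((((hasDerivAt_id t).sub_const s).cosh).const_mul 2).sub_const (2 * l)
  have h3 := h2.rpow_const (p := -μ) (Or.inl (Dz_pos hl (t - s)).ne')
  refine HasDerivAt.congr_deriv (h1.mul h3) ?_
  unfold KD Kz
  ring

/-! ### the system on the cylinder -/

structure Dat (S : Type) where
  μ : ℝ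
  a : ℝ
  b : ℝ
  c : ℝ
  p : ℝ
  q : ℝ
  l : S → S → ℝ
  V : ℝ × S → ℝ
  U : ℝ × S → ℝ

variable {S : Type}

def Dat.swap (d : Dat S) : Dat S := ⟨d.μ, d.b, d.a, d.c, d.q, d.p, d.l, d.U, d.V⟩

def Dat.f (d : Dat S) (x : ℝ × S) : ℝ := d.V x ^ d.p

def Dat.g (d : Dat S) (y : ℝ × S) : ℝ := d.U y ^ d.q

def Dat.k (d : Dat S) (x y : ℝ × S) : ℝ := KK d.μ d.a d.b (d.l x.2 y.2) x.1 y.1

def Dat.kd (d : Dat S) (x y : ℝ × S) : ℝ := KD d.μ d.a d.b (d.l x.2 y.2) x.1 y.1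

def Dat.kb (d : Dat S) (x y : ℝ × S) : ℝ := Kb d.μ d.a d.b x.1 y.1

theorem Dat.swap_swap (d : Dat S) : d.swap.swap = d := rfl

theorem Dat.swap_f (d : Dat S) : d.swap.f = d.g := rfl

theorem Dat.swap_g (d : Dat S) : d.swap.g = d.f := rfl

theorem Dat.swap_kb (d : Dat S) (x y : ℝ × S) : d.swap.kb y x = d.kb x y := Kb_swap _ _ _ _ _

variable [MeasurableSpace S]

/-- the potential of `U^q` -/
def Dat.pot (d : Dat S) (ν : Measure S) (x : ℝ × S) : ℝ≥0∞ :=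
  ∫⁻ y, ENNReal.ofReal (d.k x y * d.g y) ∂(volume.prod ν)

variable [MetricSpace S]

/-- the symmetric hypotheses -/
structure Com (d : Dat S) (ν : Measure S) : Prop where
  μpos : 0 < d.μ
  δpos : 0 < d.a + d.b
  cpos : 0 < d.c
  lcont : Continuous fun z : S × S => d.l z.1 z.2
  lsymm : ∀ ω ω', d.l ω ω' = d.l ω' ω
  lge : ∀ ω ω', -1 ≤ d.l ω ω'
  lle : ∀ ω ω', d.l ω ω' ≤ 1
  llt : ∀ ω, ∀ᵐ ω' ∂ν, d.l ω ω' < 1
  sing : ∃ C : ℝ≥0∞, C < ⊤ ∧ ∀ ω, ∫⁻ ω', ENNReal.ofReal (Kz d.μ (d.l ω ω') 0) ∂ν ≤ C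

/-- the hypotheses on `V` -/
structure Half (d : Dat S) (ν : Measure S) : Prop where
  ppos : 0 < d.p
  cont : Continuous d.V
  pos : ∀ x, 0 < d.V x
  up : ∀ T : ℝ, ∃ C : ℝ, ∀ x : ℝ × S, x.1 ≤ T → d.V x ≤ C * Real.exp ((d.a + d.μ) * x.1)
  lo : ∃ κ : ℝ, 0 < κ ∧ ∀ x : ℝ × S, x.1 ≤ 0 → κ * Real.exp ((d.a + d.μ) * x.1) ≤ d.V x
  sup : ∀ x, d.pot ν x ≤ ENNReal.ofReal (d.c * d.V x)

structure Ok (d : Dat S) (ν : Measure S) : Prop where
  com : Com d ν
  hV : Half d ν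
  hU : Half d.swap ν

theorem Com.swap {d : Dat S} {ν : Measure S} (h : Com d ν) : Com d.swap ν :=
  ⟨h.μpos, by have := h.δpos; simp only [Dat.swap]; linarith, h.cpos, h.lcont, h.lsymm, h.lge, h.lle, h.llt, h.sing⟩

theorem Ok.swap {d : Dat S} {ν : Measure S} (h : Ok d ν) : Ok d.swap ν := ⟨h.com.swap, h.hU, h.hV⟩

theorem Com.swap_k {d : Dat S} {ν : Measure S} (h : Com d ν) (x y : ℝ × S) : d.swap.k y x = d.k x y := by
  simp only [Dat.k, Dat.swap]
  rw [KK_swap, h.lsymm]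

theorem Com.kd_add {d : Dat S} {ν : Measure S} (h : Com d ν) (x y : ℝ × S) :
    d.kd x y + d.swap.kd y x = (d.a + d.b) * d.k x y := by
  simp only [Dat.k, Dat.kd, Dat.swap]
  rw [h.lsymm y.2 x.2, KD_add]

/-- equality in the potential representation of `V` -/
def Eqn (d : Dat S) (ν : Measure S) : Prop := ∀ x, d.pot ν x = ENNReal.ofReal (d.c * d.V x)

/-! ### components of superlevel sets -/

/-- left end of the component of `{F > h}` through `t` -/
def lef (F : ℝ → ℝ) (h t : ℝ) : ℝ := sSup {t' | t' ≤ t ∧ F t' ≤ h}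

/-- left end, clipped at `T` -/
def lft (F : ℝ → ℝ) (h T t : ℝ) : ℝ := max (sSup {t' | t' ≤ t ∧ (F t' ≤ h ∨ t' ≤ T)}) T

/-- right end of the component of `{F > h} ∩ (-∞, T + 10)` through `t` -/
def rig (F : ℝ → ℝ) (h T t : ℝ) : ℝ := sInf {t' | t ≤ t' ∧ (F t' ≤ h ∨ T + 10 ≤ t')}

/-- position of the component: the midpoint of its part in `[T, T + 10]` -/
def pos (F : ℝ → ℝ) (h T t : ℝ) : ℝ := (lft F h T t + max (min (rig F h T t) (T + 10)) T) / 2

/-- clipped midpoint of an interval -/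
def mid (T t₁ t₂ : ℝ) : ℝ := (max t₁ T + max t₂ T) / 2

/-- points `((ω, h), t)` of the subgraph space -/
abbrev Xs (S : Type) := (S × ℝ) × ℝ

def pt (ξ : Xs S) : ℝ × S := (ξ.2, ξ.1.1)

/-- the subgraph -/
def sub (F : ℝ × S → ℝ) : Set (Xs S) := {ξ | 0 < ξ.1.2 ∧ ξ.1.2 < F (pt ξ)}

def mX (ν : Measure S) : Measure (Xs S) := (ν.prod volume).prod volume

def Pos (F : ℝ × S → ℝ) (T : ℝ) (ξ : Xs S) : ℝ := pos (fun t => F (t, ξ.1.1)) ξ.1.2 T ξ.2

/-- Lebesgue measure on the product of the two subgraphs -/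
def MM (d : Dat S) (ν : Measure S) : Measure (Xs S × Xs S) :=
  ((mX ν).restrict (sub d.f)).prod ((mX ν).restrict (sub d.g))

/-- interaction of the components with position at most `τ` -/
def Qr (d : Dat S) (ν : Measure S) (T τ : ℝ) : ℝ :=
  ∫ z, (if Pos d.f T z.1 ≤ τ ∧ Pos d.g T z.2 ≤ τ then d.k (pt z.1) (pt z.2) else 0) ∂(MM d ν)

/-- the tail of the non-singular interaction -/
def Tl (d : Dat S) (ν : Measure S) (T : ℝ) : ℝ :=
  ∫ z, (if T ≤ max z.1.2 z.2.2 then d.kb (pt z.1) (pt z.2) else 0) ∂(MM d ν)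

/-- the velocity cutoff -/
def cut (τ ρ m : ℝ) : ℝ := max 0 (min 1 ((τ + ρ - m) / ρ))

/-- one-dimensional potential of an interval -/
def PhiN (K : ℝ → ℝ) (a b s₁ s₂ t : ℝ) : ℝ := ∫ s in s₁..s₂, Real.exp (a * t + b * s) * K (t - s)

/-- an even, decreasing kernel supported in `[-η, η]` -/
structure NearK (K : ℝ → ℝ) (η : ℝ) : Prop where
  cont : Continuous K
  nonneg : ∀ z, 0 ≤ K z
  even : ∀ z, K (-z) = K z
  anti : AntitoneOn K (Ici 0)
  supp : ∀ z, η ≤ |z| → K z = 0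

/-- a `C¹` kernel with exponential bounds -/
structure FarK (G G' : ℝ → ℝ) (μ L : ℝ) : Prop where
  der : ∀ z, HasDerivAt G (G' z) z
  cont : Continuous G'
  nonneg : ∀ z, 0 ≤ G z
  le : ∀ z, G z ≤ L * Real.exp (-μ * |z|)
  le' : ∀ z, |G' z| ≤ L * Real.exp (-μ * |z|)

abbrev Eu (n : ℕ) := EuclideanSpace ℝ (Fin n)

abbrev Sp (n : ℕ) := Metric.sphere (0 : Eu n) 1

/-- the surface measure -/
def sg (n : ℕ) : Measure (Sp n) := (volume : Measure (Eu n)).toSphere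

end Crest.Agent.R77
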