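import Crest.Agent.R77.Defs
set_option autoImplicit false

noncomputable section

namespace Crest.Agent.R77

open MeasureTheory Set Filter Topology
open scoped ENNReal

namespace FarAux

theorem hasDerivAt_PhiN {G : ℝ → ℝ} (hG : Continuous G) (a b s₁ s₂ t : ℝ) :
    HasDerivAt (PhiN G a b s₁ s₂) ((a + b) * PhiN G a b s₁ s₂ t + Real.exp (a * t + b * s₁) * G (t - s₁) -
      Real.exp (a * t + b * s₂) * G (t - s₂)) t := by
  obtain ⟨k, hk⟩ : ∃ k : ℝ → ℝ, k = fun z => Real.exp (-b * z) * G z := ⟨_, rfl⟩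
  have hkc : Continuous k := by rw [hk]; fun_prop
  obtain ⟨P, hP⟩ : ∃ P : ℝ → ℝ, P = fun u => ∫ z in (0 : ℝ)..u, k z := ⟨_, rfl⟩
  have hPd : ∀ u, HasDerivAt P (k u) u := fun u => by
    rw [hP]; exact (hkc.integral_hasStrictDerivAt 0 u).hasDerivAt
  have e : PhiN G a b s₁ s₂ = fun t => Real.exp ((a + b) * t) * (P (t - s₁) - P (t - s₂)) := by
    funext t
    rw [hP]
    dsimp only
    rw [intervalIntegral.integral_interval_sub_left (hkc.intervalIntegrable _ _) (hkc.intervalIntegrable _ _),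
      ← intervalIntegral.integral_comp_sub_left k t, ← intervalIntegral.integral_const_mul]
    unfold PhiN
    refine intervalIntegral.integral_congr fun s _ => ?_
    rw [hk]
    dsimp only
    rw [← mul_assoc, ← Real.exp_add]
    congr 2
    ring
  have h1 : HasDerivAt (fun t => Real.exp ((a + b) * t)) (Real.exp ((a + b) * t) * (a + b)) t := by
    simpa using ((hasDerivAt_id t).const_mul (a + b)).exp
  have h2 := ((hPd (t - s₁)).comp_sub_const t s₁).sub ((hPd (t - s₂)).comp_sub_const t s₂)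
  have h3 := h1.mul h2
  rw [e]
  refine HasDerivAt.congr_deriv h3 ?_
  have e1 : ∀ s, Real.exp ((a + b) * t) * k (t - s) = Real.exp (a * t + b * s) * G (t - s) := fun s => by
    rw [hk]
    dsimp only
    rw [← mul_assoc, ← Real.exp_add]
    congr 2
    ring
  simp only [Pi.sub_apply]
  rw [← e1, ← e1]
  ring

theorem continuous_Kb (μ a b : ℝ) : Continuous fun z : ℝ × ℝ => Kb μ a b z.1 z.2 := by unfold Kb; fun_prop

theorem ite_nonneg (μ a b T t s : ℝ) : 0 ≤ (if T ≤ max t s then Kb μ a b t s else 0) := by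
  split_ifs
  exacts [(Kb_pos _ _ _ _ _).le, le_rfl]

theorem ite_intervalIntegrable (μ a b T t s₁ s₂ : ℝ) :
    IntervalIntegrable (fun s => if T ≤ max t s then Kb μ a b t s else 0) volume s₁ s₂ := by
  have hs : MeasurableSet {s : ℝ | T ≤ max t s} := (isClosed_le continuous_const (by fun_prop)).measurableSet
  have hc : Continuous fun s => Kb μ a b t s := (continuous_Kb μ a b).comp (continuous_const.prodMk continuous_id)
  exact ⟨Integrable.indicator (hc.intervalIntegrable s₁ s₂).1 hs, Integrable.indicator (hc.intervalIntegrable s₁ s₂).2 hs⟩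

theorem exp_mul_exp (μ a b t s : ℝ) : Real.exp (a * t + b * s) * Real.exp (-μ * |t - s|) = Kb μ a b t s := by
  unfold Kb
  rw [← Real.exp_add]
  congr 1
  ring

theorem ray {μ a b L T t s₁ s₂ : ℝ} {G G' : ℝ → ℝ} (hμ : 0 < μ) (hG : FarK G G' μ L) (hs : s₁ < s₂)
    (hT : T + 1 ≤ s₂) :
    Real.exp (a * t + b * s₂) * G (t - s₂) - Real.exp (a * t + b * s₁) * G (t - s₁) ≤
      (|b| + 1 + Real.exp (|b| + μ)) * L * ∫ s in s₁..s₂, (if T ≤ max t s then Kb μ a b t s else 0) := by
  have hL : 0 ≤ L := by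
    have h1 := (hG.nonneg 0).trans (hG.le 0)
    simpa using h1
  have hGc : Continuous G := continuous_iff_continuousAt.2 fun z => (hG.der z).continuousAt
  have hc : Continuous fun s => Kb μ a b t s := (continuous_Kb μ a b).comp (continuous_const.prodMk continuous_id)
  have hJ : 0 ≤ ∫ s in s₁..s₂, (if T ≤ max t s then Kb μ a b t s else 0) :=
    intervalIntegral.integral_nonneg hs.le fun s _ => ite_nonneg _ _ _ _ _ _
  by_cases h : T ≤ max t s₁
  · have hd : ∀ s, HasDerivAt (fun s => Real.exp (a * t + b * s) * G (t - s))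
        (Real.exp (a * t + b * s) * (b * G (t - s) - G' (t - s))) s := fun s => by
      have h1 : HasDerivAt (fun s => Real.exp (a * t + b * s)) (Real.exp (a * t + b * s) * b) s := by
        simpa using (((hasDerivAt_id s).const_mul b).const_add (a * t)).exp
      have h2 := (hG.der (t - s)).comp_const_sub t s
      refine HasDerivAt.congr_deriv (h1.mul h2) ?_
      ring
    have hcd : Continuous fun s => Real.exp (a * t + b * s) * (b * G (t - s) - G' (t - s)) := by
      have := hG.cont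
      fun_prop
    rw [← intervalIntegral.integral_eq_sub_of_hasDerivAt (fun s _ => hd s) (hcd.intervalIntegrable _ _)]
    refine le_trans ?_ (mul_le_mul_of_nonneg_right (mul_le_mul_of_nonneg_right
      (le_add_of_nonneg_right (Real.exp_pos _).le) hL) hJ)
    rw [← intervalIntegral.integral_const_mul]
    refine intervalIntegral.integral_mono_on hs.le (hcd.intervalIntegrable _ _)
      ((ite_intervalIntegrable _ _ _ _ _ _ _).const_mul _) fun s hs' => ?_
    rw [if_pos (h.trans (max_le_max le_rfl hs'.1)), ← exp_mul_exp, mul_left_comm]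
    refine mul_le_mul_of_nonneg_left ?_ (Real.exp_pos _).le
    have h1 := hG.le (t - s)
    have h2 := hG.le' (t - s)
    have h3 := hG.nonneg (t - s)
    have h4 := neg_abs_le (G' (t - s))
    have h5 := mul_le_mul (le_abs_self b) h1 h3 (abs_nonneg b)
    nlinarith
  · push Not at h
    have h1 : s₁ < T := (le_max_right _ _).trans_lt h
    have h2 : 0 ≤ Real.exp (a * t + b * s₁) * G (t - s₁) := mul_nonneg (Real.exp_pos _).le (hG.nonneg _)
    have h3 : Real.exp (a * t + b * s₂) * G (t - s₂) ≤ L * Kb μ a b t s₂ := by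
      rw [← exp_mul_exp, mul_left_comm]
      exact mul_le_mul_of_nonneg_left (hG.le _) (Real.exp_pos _).le
    have h4 : Kb μ a b t s₂ ≤ Real.exp (|b| + μ) * ∫ s in s₁..s₂, (if T ≤ max t s then Kb μ a b t s else 0) := by
      have h5 : ∫ s in (s₂ - 1)..s₂, (if T ≤ max t s then Kb μ a b t s else 0) ≤
          ∫ s in s₁..s₂, (if T ≤ max t s then Kb μ a b t s else 0) :=
        intervalIntegral.integral_mono_interval (by linarith) (by linarith) le_rfl
          (ae_of_all _ fun s => ite_nonneg _ _ _ _ _ _) (ite_intervalIntegrable _ _ _ _ _ _ _)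
      refine le_trans ?_ (mul_le_mul_of_nonneg_left h5 (Real.exp_pos _).le)
      rw [← intervalIntegral.integral_const_mul]
      have h6 : Kb μ a b t s₂ = ∫ _ in (s₂ - 1)..s₂, Kb μ a b t s₂ := by simp
      rw [h6]
      refine intervalIntegral.integral_mono_on (by linarith) intervalIntegrable_const
        ((ite_intervalIntegrable _ _ _ _ _ _ _).const_mul _) fun s hs' => ?_
      rw [if_pos (le_max_of_le_right (by linarith [hs'.1]))]
      unfold Kb
      rw [← Real.exp_add, Real.exp_le_exp]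
      have h7 : b * (s₂ - s) ≤ |b| * 1 :=
        mul_le_mul (le_abs_self b) (by linarith [hs'.1]) (by linarith [hs'.2]) (abs_nonneg b)
      have h8 : |t - s| ≤ |t - s₂| + 1 := by
        have h9 := abs_sub_le t s₂ s
        rw [abs_of_nonneg (sub_nonneg.2 hs'.2)] at h9
        linarith [hs'.1]
      nlinarith
    have h5 := mul_le_mul_of_nonneg_left h4 hL
    have h6 := mul_nonneg (mul_nonneg (add_nonneg (abs_nonneg b) zero_le_one) hL) hJ
    nlinarith

theorem exp_le_cosh (z : ℝ) : Real.exp |z| ≤ 2 * Real.cosh z := by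
  rw [← Real.cosh_abs, Real.cosh_eq]
  linarith [Real.exp_pos (-|z|)]

theorem sinh_le_exp (z : ℝ) : |2 * Real.sinh z| ≤ Real.exp |z| := by
  rw [abs_mul, Real.abs_sinh, Real.sinh_eq, abs_two]
  linarith [Real.exp_pos (-|z|)]

theorem sq_le_cosh (z : ℝ) : z ^ 2 ≤ 2 * Real.cosh z - 2 := by
  have h1 : Real.cosh z = Real.cosh (2 * (|z| / 2)) := by rw [← Real.cosh_abs]; congr 1; ring
  have h2 : |z| / 2 ≤ Real.sinh (|z| / 2) := Real.self_le_sinh_iff.2 (by positivity)
  rw [h1, Real.cosh_two_mul, Real.cosh_sq, ← sq_abs z]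
  nlinarith [abs_nonneg z]

/-- `x ^ (-μ)` continued by its tangent line below `e` -/
def psi (μ e x : ℝ) : ℝ := e ^ (-μ) + ∫ y in e..x, -μ * (max y e) ^ (-μ - 1)

theorem cont_max (μ : ℝ) {e : ℝ} (he : 0 < e) : Continuous fun y : ℝ => -μ * (max y e) ^ (-μ - 1) :=
  continuous_const.mul ((continuous_id.max continuous_const).rpow_const fun y =>
    Or.inl (he.trans_le (le_max_right _ _)).ne')

theorem hasDerivAt_psi (μ : ℝ) {e : ℝ} (he : 0 < e) (x : ℝ) : HasDerivAt (psi μ e) (-μ * (max x e) ^ (-μ - 1)) x :=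
  (((cont_max μ he).integral_hasStrictDerivAt e x).hasDerivAt).const_add _

theorem hasDerivAt_rpow (μ : ℝ) {x : ℝ} (hx : 0 < x) : HasDerivAt (fun x : ℝ => x ^ (-μ)) (-μ * x ^ (-μ - 1)) x :=
  Real.hasDerivAt_rpow_const (Or.inl hx.ne')

theorem psi_of_ge (μ : ℝ) {e x : ℝ} (he : 0 < e) (hx : e ≤ x) : psi μ e x = x ^ (-μ) := by
  unfold psi
  rw [intervalIntegral.integral_eq_sub_of_hasDerivAt (f := fun x : ℝ => x ^ (-μ)) ?_
    ((cont_max μ he).intervalIntegrable _ _)]
  · ring
  · intro y hy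
    rw [uIcc_of_le hx] at hy
    rw [max_eq_left hy.1]
    exact hasDerivAt_rpow μ (he.trans_le hy.1)

theorem psi_of_le (μ : ℝ) {e x : ℝ} (hx : x ≤ e) : psi μ e x = e ^ (-μ) + μ * e ^ (-μ - 1) * (e - x) := by
  unfold psi
  rw [intervalIntegral.integral_congr (g := fun _ => -μ * e ^ (-μ - 1)) ?_]
  · simp
    ring
  · intro y hy
    rw [uIcc_of_ge hx] at hy
    dsimp only
    rw [max_eq_right hy.2]

theorem psi_nonneg {μ e : ℝ} (hμ : 0 < μ) (he : 0 < e) (x : ℝ) : 0 ≤ psi μ e x := by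
  rcases le_total e x with h | h
  · rw [psi_of_ge μ he h]
    exact Real.rpow_nonneg (he.le.trans h) _
  · rw [psi_of_le μ h]
    have := sub_nonneg.2 h
    positivity

theorem psi_le {μ e x : ℝ} (hμ : 0 < μ) (he : 0 < e) (hx : 0 ≤ x) : psi μ e x ≤ (1 + μ) * (max x e) ^ (-μ) := by
  rcases le_total e x with h | h
  · rw [psi_of_ge μ he h, max_eq_left h]
    nlinarith [Real.rpow_nonneg hx (-μ)]
  · rw [psi_of_le μ h, max_eq_right h]
    have h1 : e ^ (-μ - 1) * e = e ^ (-μ) := by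
      rw [Real.rpow_sub_one he.ne']
      field_simp
    have h2 : 0 ≤ μ * e ^ (-μ - 1) * x := by positivity
    nlinarith

theorem phi_anti {μ e : ℝ} (hμ : 0 < μ) (he : 0 < e) : AntitoneOn (fun x => x ^ (-μ) - psi μ e x) (Ioi 0) := by
  have hd : ∀ x ∈ Ioi (0 : ℝ), HasDerivAt (fun x => x ^ (-μ) - psi μ e x)
      (-μ * x ^ (-μ - 1) - -μ * (max x e) ^ (-μ - 1)) x := fun x hx =>
    (hasDerivAt_rpow μ hx).sub (hasDerivAt_psi μ he x)
  refine antitoneOn_of_deriv_nonpos (convex_Ioi 0) (fun x hx => (hd x hx).continuousAt.continuousWithinAt)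
    (fun x hx => (hd x (interior_subset hx)).differentiableAt.differentiableWithinAt) fun x hx => ?_
  rw [interior_Ioi] at hx
  rw [(hd x hx).deriv]
  have h1 : (max x e) ^ (-μ - 1) ≤ x ^ (-μ - 1) :=
    Real.rpow_le_rpow_of_nonpos hx (le_max_left _ _) (by linarith)
  nlinarith

theorem max_ge {l η : ℝ} (hl : l ≤ 1) (hη : 0 < η) (hη1 : η ≤ 1) (z : ℝ) :
    η ^ 2 * Real.exp |z| / 8 ≤ max (Dz l z) (η ^ 2) := by
  have h0 : 0 < η ^ 2 := by positivity
  have h1 : η ^ 2 ≤ 1 := pow_le_one₀ hη.le hη1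
  rcases le_total (Real.exp |z|) 8 with h | h
  · refine le_max_of_le_right ?_
    nlinarith
  · refine le_max_of_le_left ?_
    have h2 := exp_le_cosh z
    unfold Dz
    nlinarith

theorem max_rpow_le {l η ν : ℝ} (hν : 0 ≤ ν) (hl : l ≤ 1) (hη : 0 < η) (hη1 : η ≤ 1) (z : ℝ) :
    max (Dz l z) (η ^ 2) ^ (-ν) ≤ 8 ^ ν * η ^ (-(2 * ν)) * Real.exp (-ν * |z|) := by
  refine (Real.rpow_le_rpow_of_nonpos (by positivity) (max_ge hl hη hη1 z) (by linarith)).trans (le_of_eq ?_)
  rw [Real.div_rpow (by positivity) (by norm_num), Real.mul_rpow (by positivity) (Real.exp_pos _).le,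
    ← Real.exp_mul, ← Real.rpow_natCast, ← Real.rpow_mul hη.le, Real.rpow_neg (by norm_num : (0 : ℝ) ≤ 8),
    div_inv_eq_mul, mul_comm |z|]
  have : ((2 : ℕ) : ℝ) * -ν = -(2 * ν) := by push_cast; ring
  rw [this]
  ring

end FarAux

open FarAux

/-- Write `𝒢 t s = e^{at+bs} G (t-s)`; `PhiN' = (a+b) PhiN + 𝒢 t s₁ - 𝒢 t s₂`, and `FarAux.ray` bounds the last two terms. -/
theorem far (μ a b : ℝ) (hμ : 0 < μ) (hδ : 0 < a + b) : ∃ C : ℝ, 0 ≤ C ∧ ∀ (G G' : ℝ → ℝ) (L T t₁ t₂ s₁ s₂ : ℝ),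
    FarK G G' μ L → t₁ < t₂ → s₁ < s₂ → T + 1 ≤ s₂ →
    0 ≤ PhiN G a b s₁ s₂ t₂ - PhiN G a b s₁ s₂ t₁ +
      C * L * ∫ t in t₁..t₂, ∫ s in s₁..s₂, (if T ≤ max t s then Kb μ a b t s else 0) := by
  refine ⟨|b| + 1 + Real.exp (|b| + μ), by positivity, fun G G' L T t₁ t₂ s₁ s₂ hG ht hs hT => ?_⟩
  have hGc : Continuous G := continuous_iff_continuousAt.2 fun z => (hG.der z).continuousAt
  have hd := hasDerivAt_PhiN hGc a b s₁ s₂
  have hPc : Continuous (PhiN G a b s₁ s₂) := continuous_iff_continuousAt.2 fun z => (hd z).continuousAt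
  have hc : Continuous fun t => (a + b) * PhiN G a b s₁ s₂ t + Real.exp (a * t + b * s₁) * G (t - s₁) -
      Real.exp (a * t + b * s₂) * G (t - s₂) := by fun_prop
  have hJ : IntervalIntegrable (fun t => ∫ s in s₁..s₂, (if T ≤ max t s then Kb μ a b t s else 0)) volume t₁ t₂ := by
    rw [intervalIntegrable_iff_integrableOn_Ioc_of_le ht.le]
    simp only [intervalIntegral.integral_of_le hs.le]
    have h1 : IntegrableOn (fun z : ℝ × ℝ => Kb μ a b z.1 z.2) (Ioc t₁ t₂ ×ˢ Ioc s₁ s₂) :=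
      ((continuous_Kb μ a b).continuousOn.integrableOn_compact (isCompact_Icc.prod isCompact_Icc)).mono_set
        (prod_mono Ioc_subset_Icc_self Ioc_subset_Icc_self)
    have hm : MeasurableSet {z : ℝ × ℝ | T ≤ max z.1 z.2} :=
      (isClosed_le continuous_const (by fun_prop)).measurableSet
    have h2 := Integrable.indicator h1 hm
    rw [Measure.volume_eq_prod, ← Measure.prod_restrict] at h2
    exact h2.integral_prod_left
  rw [← intervalIntegral.integral_eq_sub_of_hasDerivAt (fun t _ => hd t) (hc.intervalIntegrable _ _),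
    ← intervalIntegral.integral_const_mul, ← intervalIntegral.integral_add (hc.intervalIntegrable _ _) (hJ.const_mul _)]
  refine intervalIntegral.integral_nonneg ht.le fun t _ => ?_
  have h1 := ray (a := a) (b := b) (t := t) hμ hG hs hT
  have h2 : 0 ≤ PhiN G a b s₁ s₂ t :=
    intervalIntegral.integral_nonneg hs.le fun s _ => mul_nonneg (Real.exp_pos _).le (hG.nonneg _)
  nlinarith [mul_nonneg hδ.le h2]

/-- `G = psi ∘ Dz l` (tangent line of `D ↦ D^{-μ}` below `η²`), `K = Kz - G`. -/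
theorem split (μ : ℝ) (hμ : 0 < μ) : ∃ C : ℝ, 0 ≤ C ∧ ∀ l η : ℝ, -1 ≤ l → l < 1 → 0 < η → η ≤ 1 →
    ∃ K G G' : ℝ → ℝ, NearK K η ∧ FarK G G' μ (C * η ^ (-(2 * μ + 2))) ∧ ∀ z, Kz μ l z = K z + G z := by
  refine ⟨(1 + μ) * 8 ^ (μ + 1), by positivity, fun l η _ hl hη hη1 => ?_⟩
  have he : 0 < η ^ 2 := by positivity
  have hD : ∀ z, HasDerivAt (Dz l) (2 * Real.sinh z) z := fun z =>
    ((Real.hasDerivAt_cosh z).const_mul 2).sub_const (2 * l)
  have hDc : Continuous (Dz l) := continuous_iff_continuousAt.2 fun z => (hD z).continuousAt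
  have hψc : Continuous (psi μ (η ^ 2)) := continuous_iff_continuousAt.2 fun z => (hasDerivAt_psi μ he z).continuousAt
  refine ⟨fun z => Dz l z ^ (-μ) - psi μ (η ^ 2) (Dz l z), fun z => psi μ (η ^ 2) (Dz l z),
    fun z => -μ * (max (Dz l z) (η ^ 2)) ^ (-μ - 1) * (2 * Real.sinh z), ⟨?_, fun z => ?_, fun z => ?_, ?_, ?_⟩,
    ⟨fun z => ?_, ?_, fun z => psi_nonneg hμ he _, fun z => ?_, fun z => ?_⟩, fun z => ?_⟩
  · exact (hDc.rpow_const fun z => Or.inl (Dz_pos hl z).ne').sub (hψc.comp hDc)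
  · have h1 := phi_anti hμ he (Dz_pos hl z) (he.trans_le (le_max_right (Dz l z) _)) (le_max_left _ _)
    dsimp only at h1
    rwa [psi_of_ge μ he (le_max_right _ _), sub_self] at h1
  · rw [Dz_neg]
  · intro x hx y hy hxy
    refine phi_anti hμ he (Dz_pos hl x) (Dz_pos hl y) ?_
    have := Real.cosh_le_cosh.2 (show |x| ≤ |y| by rwa [abs_of_nonneg hx, abs_of_nonneg hy])
    unfold Dz
    linarith
  · intro z hz
    have h1 : η ^ 2 ≤ Dz l z := by
      have h2 := sq_le_cosh z
      have h3 : η ^ 2 ≤ |z| ^ 2 := pow_le_pow_left₀ hη.le hz 2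
      rw [sq_abs] at h3
      unfold Dz
      linarith
    rw [psi_of_ge μ he h1, sub_self]
  · exact (hasDerivAt_psi μ he _).comp z (hD z)
  · exact ((cont_max μ he).comp hDc).mul (by fun_prop)
  · refine (psi_le hμ he (Dz_pos hl z).le).trans ?_
    have h1 := max_rpow_le hμ.le hl.le hη hη1 z
    have h2 : η ^ (-(2 * μ)) ≤ η ^ (-(2 * μ + 2)) := Real.rpow_le_rpow_of_exponent_ge hη hη1 (by linarith)
    have h3 : (8 : ℝ) ^ μ ≤ 8 ^ (μ + 1) := Real.rpow_le_rpow_of_exponent_le (by norm_num) (by linarith)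
    rw [mul_assoc, mul_assoc]
    refine mul_le_mul_of_nonneg_left (h1.trans ?_) (by positivity)
    rw [← mul_assoc]
    gcongr
  · have h1 := max_rpow_le (ν := μ + 1) (by positivity) hl.le hη hη1 z
    have h2 := sinh_le_exp z
    have e1 : -μ - 1 = -(μ + 1) := by ring
    have e2 : 2 * (μ + 1) = 2 * μ + 2 := by ring
    have e3 : Real.exp (-(μ + 1) * |z|) * Real.exp |z| = Real.exp (-μ * |z|) := by
      rw [← Real.exp_add]; congr 1; ring
    rw [e2] at h1
    rw [abs_mul, abs_mul, abs_neg, abs_of_pos hμ, e1,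
      abs_of_nonneg (Real.rpow_nonneg (he.le.trans (le_max_right _ _)) _), ← e3]
    calc μ * max (Dz l z) (η ^ 2) ^ (-(μ + 1)) * |2 * Real.sinh z|
        ≤ (1 + μ) * (8 ^ (μ + 1) * η ^ (-(2 * μ + 2)) * Real.exp (-(μ + 1) * |z|)) * Real.exp |z| := by
          have : 0 ≤ max (Dz l z) (η ^ 2) ^ (-(μ + 1)) := Real.rpow_nonneg (he.le.trans (le_max_right _ _)) _
          gcongr
          linarith
      _ = _ := by ring
  · unfold Kz
    ring

end Crest.Agent.R77
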