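import Crest.Agent.R77.Lap
set_option autoImplicit false

noncomputable section

namespace Crest.Agent.R77

open MeasureTheory Set Filter Topology
open scoped ENNReal
open Laplacian InnerProductSpace

variable {n : ℕ}

/-- directional derivative -/
def gD (e : Eu n) (f : Eu n → ℝ) : Eu n → ℝ := fun y => fderiv ℝ f y e

theorem gD_contDiffAt {f : Eu n → ℝ} {x : Eu n} (e : Eu n) (hf : ContDiffAt ℝ 2 f x) :
    ContDiffAt ℝ 1 (gD e f) x :=
  (hf.fderiv_right (m := 1) (by norm_num)).clm_apply contDiffAt_const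

theorem gD_diffAt {f : Eu n → ℝ} {x : Eu n} (e : Eu n) (hf : ContDiffAt ℝ 2 f x) :
    DifferentiableAt ℝ (gD e f) x := (gD_contDiffAt e hf).differentiableAt (by norm_num)

theorem gD_contDiff {f : Eu n → ℝ} (e : Eu n) (hf : ContDiff ℝ 2 f) : ContDiff ℝ 1 (gD e f) :=
  contDiff_iff_contDiffAt.mpr fun _ => gD_contDiffAt e hf.contDiffAt

theorem gD_continuous {f : Eu n → ℝ} (e : Eu n) (hf : ContDiff ℝ 1 f) : Continuous (gD e f) :=
  (hf.continuous_fderiv (by norm_num)).clm_apply continuous_const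

theorem gD_compact {f : Eu n → ℝ} (e : Eu n) (hf : HasCompactSupport f) :
    HasCompactSupport (gD e f) := hf.fderiv_apply ℝ e

theorem lap_eq_gD {f : Eu n → ℝ} {x : Eu n} (hf : ContDiffAt ℝ 2 f x) :
    (Δ f) x = ∑ i, gD (EuclideanSpace.basisFun (Fin n) ℝ i)
      (gD (EuclideanSpace.basisFun (Fin n) ℝ i) f) x := by
  rw [laplacian_eq_iteratedFDeriv_orthonormalBasis f (EuclideanSpace.basisFun (Fin n) ℝ)]
  refine Finset.sum_congr rfl fun i _ => ?_
  have h1 : DifferentiableAt ℝ (fderiv ℝ f) x :=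
    (hf.fderiv_right (m := 1) (by norm_num)).differentiableAt (by norm_num)
  rw [iteratedFDeriv_two_apply]
  unfold gD
  rw [fderiv_clm_apply h1 (differentiableAt_const _)]
  simp

theorem lap_continuousAt {f : Eu n → ℝ} {x : Eu n} (hf : ContDiffAt ℝ 2 f x) :
    ContinuousAt (Δ f) x := by
  rw [laplacian_eq_iteratedFDeriv_orthonormalBasis f (EuclideanSpace.basisFun (Fin n) ℝ)]
  have h1 := hf.continuousAt_iteratedFDeriv (k := 2) (by norm_num)
  refine tendsto_finsetSum _ fun i _ => ?_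
  exact (ContinuousMultilinearMap.apply ℝ (fun _ : Fin 2 => Eu n) ℝ _).continuous.continuousAt.comp h1

theorem lap_eventually_zero {f : Eu n → ℝ} {x : Eu n} (h : f =ᶠ[𝓝 x] 0) : Δ f =ᶠ[𝓝 x] 0 := by
  refine (laplacian_congr_nhds h).trans (Eventually.of_forall fun y => ?_)
  have : (0 : Eu n → ℝ) = fun _ => (0 : ℝ) := rfl
  rw [this, laplacian_const]
  rfl

theorem lap_compact {f : Eu n → ℝ} (hf : HasCompactSupport f) : HasCompactSupport (Δ f) := by
  refine hf.mono' fun x hx => ?_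
  by_contra h
  exact hx (lap_eventually_zero (notMem_tsupport_iff_eventuallyEq.mp h)).eq_of_nhds

theorem gD_mul {f g : Eu n → ℝ} {x : Eu n} (e : Eu n) (hf : DifferentiableAt ℝ f x)
    (hg : DifferentiableAt ℝ g x) :
    gD e (fun y => f y * g y) x = f x * gD e g x + g x * gD e f x := by
  unfold gD
  rw [fderiv_fun_mul hf hg]
  simp

theorem gD_add {f g : Eu n → ℝ} {x : Eu n} (e : Eu n) (hf : DifferentiableAt ℝ f x)
    (hg : DifferentiableAt ℝ g x) :
    gD e (fun y => f y + g y) x = gD e f x + gD e g x := by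
  unfold gD
  rw [fderiv_fun_add hf hg]
  simp

theorem gD_sub {f g : Eu n → ℝ} {x : Eu n} (e : Eu n) (hf : DifferentiableAt ℝ f x)
    (hg : DifferentiableAt ℝ g x) :
    gD e (fun y => f y - g y) x = gD e f x - gD e g x := by
  unfold gD
  rw [fderiv_fun_sub hf hg]
  simp

theorem gD_congr {f g : Eu n → ℝ} {x : Eu n} (e : Eu n) (h : f =ᶠ[𝓝 x] g) :
    gD e f =ᶠ[𝓝 x] gD e g := by
  filter_upwards [h.fderiv (𝕜 := ℝ)] with y hy
  unfold gD
  rw [hy]

theorem gD_zero (e : Eu n) : gD e (0 : Eu n → ℝ) = 0 := by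
  funext y
  simp [gD]

theorem integral_gD {g : Eu n → ℝ} (e : Eu n) (hg : ContDiff ℝ 1 g) (hc : HasCompactSupport g) :
    ∫ y, gD e g y = 0 := by
  have h := integral_mul_fderiv_eq_neg_fderiv_mul_of_integrable (μ := (volume : Measure (Eu n)))
    (f := fun _ => (1 : ℝ)) (g := g) (v := e) (by simp)
    (by
      simp only [one_mul]
      exact (gD_continuous e hg).integrable_of_hasCompactSupport (gD_compact e hc))
    (by simpa using hg.continuous.integrable_of_hasCompactSupport hc)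
    (fun _ _ => differentiableAt_const _) (fun _ _ => hg.differentiable (by norm_num) _)
  simpa [gD] using h

theorem cda_of_ne {v : Eu n → ℝ} (hv : ContDiffOn ℝ 2 v {0}ᶜ) {y : Eu n} (hy : y ≠ 0) :
    ContDiffAt ℝ 2 v y := hv.contDiffAt (isOpen_compl_singleton.mem_nhds hy)

theorem integrable_mul_away {a b : Eu n → ℝ} (ha : Continuous a) (hc : HasCompactSupport a)
    (h0 : a =ᶠ[𝓝 0] 0) (hb : ∀ y, y ≠ 0 → ContinuousAt b y) : Integrable fun y => a y * b y := by
  refine Continuous.integrable_of_hasCompactSupport (continuous_iff_continuousAt.mpr fun y => ?_)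
    hc.mul_right
  by_cases hy : y = 0
  · subst hy
    refine (continuousAt_const (y := (0 : ℝ))).congr ?_
    filter_upwards [h0] with z hz
    simp [hz]
  · exact ha.continuousAt.mul (hb y hy)

/-- Green's identity away from the origin: for each basis vector `e` the function `φ ∂_e v - v ∂_e φ` is `C¹` with compact
support (it vanishes near `0`), so the integral of its `∂_e` derivative is zero
(`integral_bilinear_hasLineDerivAt_right_eq_neg_left_of_integrable` with the constant `1`, or `integral_mul_fderiv_eq_neg_fderiv_mul_of_integrable`). -/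
theorem green_away {v φ : Eu n → ℝ} (hv : ContDiffOn ℝ 2 v {0}ᶜ) (hφ : ContDiff ℝ 2 φ) (hc : HasCompactSupport φ)
    (h0 : φ =ᶠ[𝓝 0] 0) : ∫ y, φ y * (Δ v) y = ∫ y, v y * (Δ φ) y := by
  set e : Fin n → Eu n := fun i => EuclideanSpace.basisFun (Fin n) ℝ i with he
  set g : Fin n → Eu n → ℝ := fun i y => φ y * gD (e i) v y - v y * gD (e i) φ y with hg
  have g0 : ∀ i, g i =ᶠ[𝓝 0] 0 := by
    intro i
    have h1 := gD_congr (e i) h0
    rw [gD_zero] at h1
    filter_upwards [h0, h1] with y h2 h3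
    simp [hg, h2, h3]
  have g1 : ∀ i, ContDiff ℝ 1 (g i) := by
    intro i
    refine contDiff_iff_contDiffAt.mpr fun y => ?_
    by_cases hy : y = 0
    · subst hy
      exact contDiffAt_const.congr_of_eventuallyEq (g0 i)
    · exact ((hφ.contDiffAt.of_le (by norm_num)).mul (gD_contDiffAt _ (cda_of_ne hv hy))).sub
        (((cda_of_ne hv hy).of_le (by norm_num)).mul (gD_contDiffAt _ hφ.contDiffAt))
  have g2 : ∀ i, HasCompactSupport (g i) := fun i =>
    HasCompactSupport.sub hc.mul_right (gD_compact _ hc).mul_left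
  have g3 : ∀ y, ∑ i, gD (e i) (g i) y = φ y * (Δ v) y - v y * (Δ φ) y := by
    intro y
    by_cases hy : y = 0
    · subst hy
      have h1 : ∀ i, gD (e i) (g i) 0 = 0 := fun i => by
        have := (gD_congr (e i) (g0 i)).eq_of_nhds
        rwa [gD_zero] at this
      simp [h1, h0.eq_of_nhds, (lap_eventually_zero h0).eq_of_nhds]
    · have h1 := cda_of_ne hv hy
      have h2 : DifferentiableAt ℝ v y := h1.differentiableAt (by norm_num)
      have h3 : DifferentiableAt ℝ φ y := hφ.differentiable (by norm_num) y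
      rw [lap_eq_gD h1, lap_eq_gD hφ.contDiffAt, Finset.mul_sum, Finset.mul_sum,
        ← Finset.sum_sub_distrib]
      refine Finset.sum_congr rfl fun i _ => ?_
      have h4 := gD_diffAt (e i) h1
      have h5 := gD_diffAt (e i) (hφ.contDiffAt (x := y))
      simp only [hg]
      rw [gD_sub _ (h3.fun_mul h4) (h2.fun_mul h5), gD_mul _ h3 h4, gD_mul _ h2 h5]
      ring
  have i1 : Integrable fun y => φ y * (Δ v) y :=
    integrable_mul_away hφ.continuous hc h0 fun y hy => lap_continuousAt (cda_of_ne hv hy)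
  have i2 : Integrable fun y => v y * (Δ φ) y := by
    have := integrable_mul_away (a := Δ φ) (b := v)
      (continuous_iff_continuousAt.mpr fun y => lap_continuousAt hφ.contDiffAt) (lap_compact hc)
      (lap_eventually_zero h0) fun y hy => (cda_of_ne hv hy).continuousAt
    simpa only [mul_comm] using this
  rw [← sub_eq_zero, ← integral_sub i1 i2]
  simp only [← g3]
  rw [integral_finsetSum _ fun i _ =>
    (gD_continuous _ (g1 i)).integrable_of_hasCompactSupport (gD_compact _ (g2 i))]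
  exact Finset.sum_eq_zero fun i _ => integral_gD _ (g1 i) (g2 i)

theorem gD_smul (e : Eu n) (f : Eu n → ℝ) (c : ℝ) :
    gD e (fun y => f (c • y)) = fun y => c * gD e f (c • y) := by
  funext y
  unfold gD
  rw [fderiv_comp_smul]
  simp

theorem gDD_mul {f g : Eu n → ℝ} (e : Eu n) (hf : ContDiff ℝ 2 f) (hg : ContDiff ℝ 2 g) (x : Eu n) :
    gD e (gD e fun y => f y * g y) x =
      f x * gD e (gD e g) x + 2 * (gD e f x * gD e g x) + g x * gD e (gD e f) x := by
  have h1 := hf.differentiable (by norm_num)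
  have h2 := hg.differentiable (by norm_num)
  have h3 : (gD e fun y => f y * g y) = fun y => f y * gD e g y + g y * gD e f y :=
    funext fun y => gD_mul e (h1 y) (h2 y)
  have h4 := gD_diffAt e (hf.contDiffAt (x := x))
  have h5 := gD_diffAt e (hg.contDiffAt (x := x))
  rw [h3, gD_add e ((h1 x).fun_mul h5) ((h2 x).fun_mul h4), gD_mul e (h1 x) h5, gD_mul e (h2 x) h4]
  ring

theorem gDD_smul {f : Eu n → ℝ} (e : Eu n) (hf : ContDiff ℝ 2 f) (c : ℝ) (x : Eu n) :
    gD e (gD e fun y => f (c • y)) x = c ^ 2 * gD e (gD e f) (c • x) := by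
  have h1 : DifferentiableAt ℝ (fun y : Eu n => gD e f (c • y)) x :=
    (gD_diffAt e hf.contDiffAt).comp x (differentiableAt_id.const_smul c)
  rw [gD_smul, gD_mul e (differentiableAt_const c) h1, gD_smul]
  simp [gD]
  ring

theorem exists_bd {f : Eu n → ℝ} (hf : ContDiff ℝ 2 f) (hc : HasCompactSupport f) :
    ∃ C : ℝ, 0 ≤ C ∧ ∀ (i : Fin n) (y : Eu n), |f y| ≤ C ∧
      |gD (EuclideanSpace.basisFun (Fin n) ℝ i) f y| ≤ C ∧
      |gD (EuclideanSpace.basisFun (Fin n) ℝ i) (gD (EuclideanSpace.basisFun (Fin n) ℝ i) f) y| ≤ C := by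
  set e : Fin n → Eu n := fun i => EuclideanSpace.basisFun (Fin n) ℝ i with he
  obtain ⟨C0, h0⟩ := hf.continuous.bounded_above_of_compact_support hc
  have h1 : ∀ i, ∃ C, ∀ y, ‖gD (e i) f y‖ ≤ C := fun i =>
    (gD_contDiff _ hf).continuous.bounded_above_of_compact_support (gD_compact _ hc)
  have h2 : ∀ i, ∃ C, ∀ y, ‖gD (e i) (gD (e i) f) y‖ ≤ C := fun i =>
    (gD_continuous _ (gD_contDiff _ hf)).bounded_above_of_compact_support
      (gD_compact _ (gD_compact _ hc))
  choose C1 h1 using h1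
  choose C2 h2 using h2
  have n0 : 0 ≤ C0 := (norm_nonneg _).trans (h0 0)
  have n1 : ∀ i, 0 ≤ C1 i := fun i => (norm_nonneg _).trans (h1 i 0)
  have n2 : ∀ i, 0 ≤ C2 i := fun i => (norm_nonneg _).trans (h2 i 0)
  have s1 : 0 ≤ ∑ i, C1 i := Finset.sum_nonneg fun i _ => n1 i
  have s2 : 0 ≤ ∑ i, C2 i := Finset.sum_nonneg fun i _ => n2 i
  refine ⟨C0 + ∑ i, C1 i + ∑ i, C2 i, by positivity, fun i y => ⟨?_, ?_, ?_⟩⟩
  · have := h0 y
    rw [Real.norm_eq_abs] at this
    linarith
  · have := h1 i y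
    have h3 := Finset.single_le_sum (f := C1) (fun i _ => n1 i) (Finset.mem_univ i)
    rw [Real.norm_eq_abs] at this
    linarith
  · have := h2 i y
    have h3 := Finset.single_le_sum (f := C2) (fun i _ => n2 i) (Finset.mem_univ i)
    rw [Real.norm_eq_abs] at this
    linarith

theorem lap_mul_bd {ψ β : Eu n → ℝ} (hψ : ContDiff ℝ 2 ψ) (hc : HasCompactSupport ψ)
    (hβ : ContDiff ℝ 2 β) (hc' : HasCompactSupport β) :
    ∃ C : ℝ, 0 ≤ C ∧ ∀ c : ℝ, 1 ≤ c → ∀ y, |(Δ fun y => ψ y * β (c • y)) y| ≤ C * c ^ 2 := by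
  obtain ⟨A, hA, h1⟩ := exists_bd hψ hc
  obtain ⟨B, hB, h2⟩ := exists_bd hβ hc'
  refine ⟨n * (4 * (A * B)), by positivity, fun c hc1 y => ?_⟩
  have hβc : ContDiff ℝ 2 fun y : Eu n => β (c • y) := hβ.comp (contDiff_id.const_smul c)
  rw [lap_eq_gD (hψ.mul hβc).contDiffAt]
  refine (Finset.abs_sum_le_sum_abs _ _).trans ?_
  calc _ ≤ ∑ _i : Fin n, 4 * (A * B) * c ^ 2 := by
        refine Finset.sum_le_sum fun i _ => ?_
        rw [gDD_mul _ hψ hβc, gDD_smul _ hβ, gD_smul]
        obtain ⟨a1, a2, a3⟩ := h1 i y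
        obtain ⟨b1, b2, b3⟩ := h2 i (c • y)
        have hc0 : 0 ≤ c := by linarith
        have hc2 : c ≤ c ^ 2 := by nlinarith
        have hc3 : 1 ≤ c ^ 2 := by nlinarith
        have hAB : 0 ≤ A * B := by positivity
        refine (abs_add_three _ _ _).trans ?_
        simp only [abs_mul, abs_pow, abs_of_nonneg hc0, abs_two]
        calc _ ≤ A * (c ^ 2 * B) + 2 * (A * (c * B)) + B * A := by gcongr
          _ ≤ _ := by nlinarith
    _ = _ := by simp [mul_assoc]

/-- Remove the origin with `φ_τ = ψ ζ_τ`, `ζ_τ y = θ (‖y‖²/τ²)`, `θ = Real.smoothTransition (· - 1)`: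
`Δ φ_τ = ζ_τ Δ ψ + 2 ∇ψ·∇ζ_τ + ψ Δ ζ_τ`, the last two terms are `O(τ⁻²)` on a ball of volume `O(τⁿ)`, `n ≥ 3`;
monotone convergence on the left. -/
theorem green (hn : 3 ≤ n) {v ψ : Eu n → ℝ} (hv0 : Continuous v) (hv : ContDiffOn ℝ 2 v {0}ᶜ)
    (hΔ : ∀ y, y ≠ 0 → (Δ v) y ≤ 0) (hψ : ContDiff ℝ 2 ψ) (hc : HasCompactSupport ψ) (h0 : ∀ y, 0 ≤ ψ y) :
    Integrable (fun y => ψ y * (-(Δ v) y)) ∧ ∫ y, ψ y * (-(Δ v) y) = ∫ y, v y * (-(Δ ψ) y) := by
  let β : ContDiffBump (0 : Eu n) := ⟨1, 2, by norm_num, by norm_num⟩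
  have hβ : ContDiff ℝ 2 β := β.contDiff
  obtain ⟨C, hC0, hC⟩ := lap_mul_bd hψ hc hβ β.hasCompactSupport
  set c : ℕ → ℝ := fun k => (k : ℝ) + 1 with hcdef
  have hc1 : ∀ k, 1 ≤ c k := fun k => by simp [hcdef]
  have hcp : ∀ k, 0 < c k := fun k => by linarith [hc1 k]
  set w : ℕ → Eu n → ℝ := fun k y => ψ y * β (c k • y) with hw
  have hw2 : ∀ k, ContDiff ℝ 2 (w k) := fun k => hψ.mul (hβ.comp (contDiff_id.const_smul _))
  have hwc : ∀ k, HasCompactSupport (w k) := fun k => hc.mul_right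
  set φ : ℕ → Eu n → ℝ := fun k y => ψ y - w k y with hφ
  have hφ2 : ∀ k, ContDiff ℝ 2 (φ k) := fun k => hψ.sub (hw2 k)
  have hφc : ∀ k, HasCompactSupport (φ k) := fun k => hc.sub (hwc k)
  have hφ0 : ∀ k, φ k =ᶠ[𝓝 0] 0 := by
    intro k
    have h1 : Tendsto (fun y : Eu n => c k • y) (𝓝 0) (𝓝 0) := by
      simpa using (continuous_const_smul (c k)).tendsto (0 : Eu n)
    filter_upwards [h1.eventually β.eventuallyEq_one] with y hy
    simp only [hφ, hw, hy, Pi.one_apply, mul_one, sub_self, Pi.zero_apply]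
  have hφle : ∀ k y, 0 ≤ φ k y ∧ φ k y ≤ ψ y := by
    intro k y
    have h1 := β.nonneg (x := c k • y)
    have h2 := β.le_one (x := c k • y)
    have h3 := h0 y
    simp only [hφ, hw]
    constructor <;> nlinarith
  have hβ0 : ∀ k (y : Eu n), 2 / c k < ‖y‖ → β (c k • y) = 0 := by
    intro k y hy
    refine β.zero_of_le_dist ?_
    rw [dist_zero_right, norm_smul, Real.norm_eq_abs, abs_of_pos (hcp k)]
    rw [div_lt_iff₀ (hcp k)] at hy
    show (2 : ℝ) ≤ _
    linarith
  have hlim0 : Tendsto (fun k => 2 / c k) atTop (𝓝 0) :=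
    tendsto_const_nhds.div_atTop (tendsto_atTop_add_const_right _ _ tendsto_natCast_atTop_atTop)
  have hΔψ : Continuous (Δ ψ) := continuous_iff_continuousAt.mpr fun y => lap_continuousAt hψ.contDiffAt
  have hΔw : ∀ k, Continuous (Δ (w k)) := fun k =>
    continuous_iff_continuousAt.mpr fun y => lap_continuousAt (hw2 k).contDiffAt
  have i1 : Integrable fun y => v y * (Δ ψ) y :=
    (hv0.mul hΔψ).integrable_of_hasCompactSupport (lap_compact hc).mul_left
  have i2 : ∀ k, Integrable fun y => v y * (Δ (w k)) y := fun k =>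
    (hv0.mul (hΔw k)).integrable_of_hasCompactSupport (lap_compact (hwc k)).mul_left
  have i3 : ∀ k, Integrable fun y => φ k y * (-(Δ v) y) := fun k =>
    integrable_mul_away (hφ2 k).continuous (hφc k) (hφ0 k)
      fun y hy => (lap_continuousAt (cda_of_ne hv hy)).neg
  have e1 : ∀ k, ∫ y, φ k y * (-(Δ v) y) = (∫ y, v y * (-(Δ ψ) y)) + ∫ y, v y * (Δ (w k)) y := by
    intro k
    have h1 := green_away hv (hφ2 k) (hφc k) (hφ0 k)
    have h2 : ∀ y, (Δ (φ k)) y = (Δ ψ) y - (Δ (w k)) y := fun y =>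
      hψ.contDiffAt.laplacian_sub (hw2 k).contDiffAt
    simp only [h2, mul_sub] at h1
    rw [integral_sub i1 (i2 k)] at h1
    simp only [mul_neg, integral_neg]
    linarith
  obtain ⟨M, hM⟩ := (isCompact_closedBall (0 : Eu n) 2).exists_bound_of_continuousOn
    hv0.continuousOn
  have hM0 : 0 ≤ M := (norm_nonneg _).trans (hM 0 (by simp))
  have e2 : Tendsto (fun k => ∫ y, v y * (Δ (w k)) y) atTop (𝓝 0) := by
    set V : ℝ := (volume : Measure (Eu n)).real (Metric.closedBall 0 1) with hV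
    have hV0 : 0 ≤ V := measureReal_nonneg
    have hb : ∀ k, ‖∫ y, v y * (Δ (w k)) y‖ ≤ M * C * 4 * V * (2 / c k) ^ (n - 2) := by
      intro k
      have hk := hcp k
      rw [← setIntegral_eq_integral_of_forall_compl_eq_zero (s := Metric.closedBall 0 (2 / c k))]
      · refine (norm_setIntegral_le_of_norm_le_const (C := M * (C * c k ^ 2))
          measure_closedBall_lt_top fun y hy => ?_).trans (le_of_eq ?_)
        · rw [norm_mul]
          refine mul_le_mul (hM y (Metric.closedBall_subset_closedBall ?_ hy)) (hC _ (hc1 k) y)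
            (norm_nonneg _) hM0
          rw [div_le_iff₀ hk]
          linarith [hc1 k]
        · rw [Measure.addHaar_real_closedBall' _ _ (by positivity), finrank_euclideanSpace_fin]
          obtain ⟨m, rfl⟩ : ∃ m, n = m + 2 := ⟨n - 2, by omega⟩
          rw [Nat.add_sub_cancel, pow_add, ← hV]
          field_simp
          ring
      · intro y hy
        have h1 : w k =ᶠ[𝓝 y] 0 := by
          have h2 : ∀ᶠ z in 𝓝 y, 2 / c k < ‖z‖ :=
            continuous_norm.continuousAt.eventually_const_lt (by simpa using hy)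
          filter_upwards [h2] with z hz
          simp [hw, hβ0 k z hz]
        rw [(lap_eventually_zero h1).eq_of_nhds]
        simp
    have h3 := (hlim0.pow (n - 2)).const_mul (M * C * 4 * V)
    rw [zero_pow (by omega), mul_zero] at h3
    exact squeeze_zero_norm hb h3
  have e3 : Tendsto (fun k => ∫ y, φ k y * (-(Δ v) y)) atTop (𝓝 (∫ y, v y * (-(Δ ψ) y))) := by
    simp only [e1]
    simpa using e2.const_add (∫ y, v y * (-(Δ ψ) y))
  have : Nontrivial (Eu n) := by
    apply Module.nontrivial_of_finrank_pos (R := ℝ)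
    rw [finrank_euclideanSpace_fin]
    omega
  have hae : ∀ᵐ y : Eu n, y ≠ 0 := by
    rw [ae_iff]
    simp
  have e4 : ∀ᵐ y : Eu n, Tendsto (fun k => φ k y * (-(Δ v) y)) atTop (𝓝 (ψ y * (-(Δ v) y))) := by
    filter_upwards [hae] with y hy
    refine tendsto_const_nhds.congr' ?_
    filter_upwards [hlim0.eventually_lt_const (norm_pos_iff.mpr hy)] with k hk
    simp [hφ, hw, hβ0 k y hk]
  have e5 : ∀ k, 0 ≤ᵐ[volume] fun y => φ k y * (-(Δ v) y) := fun k => by
    filter_upwards [hae] with y hy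
    exact mul_nonneg (hφle k y).1 (neg_nonneg.mpr (hΔ y hy))
  have hint : Integrable fun y => ψ y * (-(Δ v) y) := by
    refine ⟨aestronglyMeasurable_of_tendsto_ae _ (fun k => (i3 k).1) e4, ?_⟩
    have h1 : ∫⁻ y, ‖ψ y * (-(Δ v) y)‖ₑ = ∫⁻ y, liminf (fun k => ‖φ k y * (-(Δ v) y)‖ₑ) atTop :=
      lintegral_congr_ae (by filter_upwards [e4] with y hy using hy.enorm.liminf_eq.symm)
    have h2 : ∀ k, ∫⁻ y, ‖φ k y * (-(Δ v) y)‖ₑ = ENNReal.ofReal (∫ y, φ k y * (-(Δ v) y)) := by
      intro k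
      rw [ofReal_integral_eq_lintegral_ofReal (i3 k) (e5 k)]
      refine lintegral_congr_ae ?_
      filter_upwards [e5 k] with y hy
      exact Real.enorm_eq_ofReal hy
    rw [hasFiniteIntegral_iff_enorm, h1]
    refine (lintegral_liminf_le' fun k => (i3 k).aemeasurable.enorm).trans_lt ?_
    simp only [h2]
    rw [(ENNReal.tendsto_ofReal e3).liminf_eq]
    exact ENNReal.ofReal_lt_top
  refine ⟨hint, tendsto_nhds_unique ?_ e3⟩
  refine tendsto_integral_of_dominated_convergence _ (fun k => (i3 k).1) hint (fun k => ?_) e4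
  filter_upwards [hae, e5 k] with y hy h1
  rw [Real.norm_eq_abs, abs_of_nonneg h1]
  exact mul_le_mul_of_nonneg_right (hφle k y).2 (neg_nonneg.mpr (hΔ y hy))

end Crest.Agent.R77
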