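import Crest.Agent.R77.Integ
set_option autoImplicit false
set_option linter.unusedSectionVars false

noncomputable section

namespace Crest.Agent.R77

open MeasureTheory Set Filter Topology
open scoped ENNReal

variable {S : Type} [MetricSpace S] [CompactSpace S] [MeasurableSpace S] [BorelSpace S] [Nonempty S]
  {ν : Measure S} [IsFiniteMeasure ν] [ν.IsOpenPosMeasure] {d : Dat S}

/-- Hole filling. `κ = 2^{-N-1}`, `ρ_j = 2^{-j-2}`, `η_j = θ ρ_j` with `θ = min 1 (κ δ / (C₁ + 1))`, `τ_j = T + 1 - 2^{-j}`... precisely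
`τ_0 = T`, `τ_{j+1} = τ_j + 2ρ_j ≤ T + 1`; `Q τ_j ≤ κ Q τ_{j+1} + C' 2^{jN} E`; iterate and let `j → ∞`. -/
theorem hole {δ C₁ C₂ N : ℝ} (hδ : 0 < δ) (h₁ : 0 ≤ C₁) (h₂ : 0 ≤ C₂) (hN : 0 ≤ N) :
    ∃ C₃ : ℝ, ∀ (Q : ℝ → ℝ) (T E B : ℝ), 0 ≤ E → (∀ τ, τ ≤ T + 1 → 0 ≤ Q τ ∧ Q τ ≤ B) →
      (∀ τ ρ η, T ≤ τ → τ + 2 * ρ ≤ T + 1 → 0 < η → η ≤ ρ →
        δ * Q τ ≤ C₁ * (η / ρ) * Q (τ + 2 * ρ) + C₂ * η ^ (-N) * E) → Q T ≤ C₃ * E := by
  set r : ℝ := (1 / 2 : ℝ) ^ (-N) with hr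
  have hr1 : 1 ≤ r := Real.one_le_rpow_of_pos_of_le_one_of_nonpos (by norm_num) (by norm_num) (by linarith)
  set κ : ℝ := 1 / (2 * r) with hκ
  have hκ0 : 0 < κ := by positivity
  have hκ1 : κ ≤ 1 / 2 := by
    rw [hκ]; exact one_div_le_one_div_of_le (by norm_num) (by linarith)
  have hκr : κ * r = 1 / 2 := by rw [hκ]; field_simp
  set θ : ℝ := min 1 (κ * δ / (C₁ + 1)) with hθ
  have hθ0 : 0 < θ := lt_min one_pos (by positivity)
  have hθ1 : θ ≤ 1 := min_le_left _ _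
  have hθ2 : C₁ * θ ≤ κ * δ := by
    have h3 : θ * (C₁ + 1) ≤ κ * δ := by
      rw [← le_div_iff₀ (by positivity)]; exact min_le_right _ _
    nlinarith
  set D : ℝ := C₂ * (θ / 4) ^ (-N) / δ with hD
  have hD0 : 0 ≤ D := by positivity
  refine ⟨2 * D, fun Q T E B hE hQ hstep => ?_⟩
  have hτ : ∀ j : ℕ, T ≤ T + 1 - (1 / 2 : ℝ) ^ j ∧ T + 1 - (1 / 2 : ℝ) ^ j ≤ T + 1 := fun j => by
    have h3 : (1 / 2 : ℝ) ^ j ≤ 1 := pow_le_one₀ (by norm_num) (by norm_num)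
    have h4 : 0 < (1 / 2 : ℝ) ^ j := by positivity
    constructor <;> linarith
  have step : ∀ j : ℕ, Q (T + 1 - (1 / 2 : ℝ) ^ j) ≤
      κ * Q (T + 1 - (1 / 2 : ℝ) ^ (j + 1)) + D * r ^ j * E := fun j => by
    have h4 : 0 < (1 / 2 : ℝ) ^ j := by positivity
    have e1 : T + 1 - (1 / 2 : ℝ) ^ j + 2 * ((1 / 2 : ℝ) ^ j / 4) = T + 1 - (1 / 2 : ℝ) ^ (j + 1) := by
      rw [pow_succ]; ring
    have h5 := hstep (T + 1 - (1 / 2 : ℝ) ^ j) ((1 / 2 : ℝ) ^ j / 4) (θ * ((1 / 2 : ℝ) ^ j / 4)) (hτ j).1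
      (by rw [e1]; exact (hτ _).2) (by positivity) (mul_le_of_le_one_left (by positivity) hθ1)
    have e2 : θ * ((1 / 2 : ℝ) ^ j / 4) / ((1 / 2 : ℝ) ^ j / 4) = θ := by field_simp
    have e3 : (θ * ((1 / 2 : ℝ) ^ j / 4)) ^ (-N) = (θ / 4) ^ (-N) * r ^ j := by
      rw [hr, Real.rpow_pow_comm (by norm_num), ← Real.mul_rpow (by positivity) (by positivity)]
      congr 1; ring
    rw [e1, e2, e3] at h5
    have h6 := (hQ _ (hτ (j + 1)).2).1
    have h7 : C₁ * θ * Q (T + 1 - (1 / 2 : ℝ) ^ (j + 1)) ≤ κ * δ * Q (T + 1 - (1 / 2 : ℝ) ^ (j + 1)) :=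
      mul_le_mul_of_nonneg_right hθ2 h6
    have e4 : C₂ * ((θ / 4) ^ (-N) * r ^ j) * E = δ * (D * r ^ j * E) := by
      rw [hD]; field_simp
    rw [e4] at h5
    refine le_of_mul_le_mul_left ?_ hδ
    nlinarith
  have iter : ∀ j : ℕ, Q T ≤ κ ^ j * Q (T + 1 - (1 / 2 : ℝ) ^ j) + 2 * D * E * (1 - (1 / 2 : ℝ) ^ j) := by
    intro j
    induction j with
    | zero => simp
    | succ j ih =>
      have h3 := mul_le_mul_of_nonneg_left (step j) (pow_pos hκ0 j).le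
      have e : κ ^ j * (D * r ^ j * E) = D * E * (1 / 2 : ℝ) ^ j := by
        rw [← hκr, mul_pow]; ring
      rw [mul_add, e] at h3
      rw [pow_succ κ, pow_succ (1 / 2 : ℝ) j] at *
      nlinarith
  have hlim : Tendsto (fun j : ℕ => κ ^ j * B + 2 * D * E) atTop (𝓝 (0 * B + 2 * D * E)) :=
    ((tendsto_pow_atTop_nhds_zero_of_lt_one hκ0.le (by linarith)).mul_const B).add_const _
  rw [zero_mul, zero_add] at hlim
  refine ge_of_tendsto' hlim fun j => (iter j).trans ?_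
  have h3 := mul_le_mul_of_nonneg_left (hQ _ (hτ j).2).2 (pow_pos hκ0 j).le
  have h4 : 0 ≤ 2 * D * E * (1 / 2 : ℝ) ^ j := by positivity
  nlinarith

theorem hole_measurable_pt2 : Measurable fun z : Xs S × Xs S => (pt z.1, pt z.2) :=
  (measurable_pt.comp measurable_fst).prodMk (measurable_pt.comp measurable_snd)

theorem Com.hole_k_nonneg (h : Com d ν) (x y : ℝ × S) : 0 ≤ d.k x y := KK_nonneg _ _ _ (h.lle _ _) _ _

theorem Ok.hole_integrable_kb (h : Ok d ν) :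
    Integrable (fun z : Xs S × Xs S => d.kb (pt z.1) (pt z.2)) (MM d ν) :=
  integrable_lift h d.continuous_kb.measurable h.integrable_kb

theorem hole_meas_Tl (T : ℝ) :
    Measurable fun z : Xs S × Xs S => if T ≤ max z.1.2 z.2.2 then d.kb (pt z.1) (pt z.2) else 0 :=
  Measurable.ite (measurableSet_le measurable_const (by fun_prop))
    (d.continuous_kb.measurable.comp hole_measurable_pt2) measurable_const

theorem hole_norm_Tl (T : ℝ) (z : Xs S × Xs S) :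
    ‖if T ≤ max z.1.2 z.2.2 then d.kb (pt z.1) (pt z.2) else 0‖ ≤ d.kb (pt z.1) (pt z.2) := by
  have h0 : 0 < d.kb (pt z.1) (pt z.2) := Kb_pos _ _ _ _ _
  split_ifs
  · rw [Real.norm_of_nonneg h0.le]
  · rw [norm_zero]; exact h0.le

theorem Com.hole_ae_lt (h : Com d ν) : ∀ᵐ z ∂(MM d ν), d.l z.1.1.1 z.2.1.1 < 1 := by
  have hc : Continuous fun z : Xs S × Xs S => d.l z.1.1.1 z.2.1.1 :=
    h.lcont.comp (by fun_prop : Continuous fun z : Xs S × Xs S => (z.1.1.1, z.2.1.1))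
  rw [MM, Measure.ae_prod_iff_ae_ae (isOpen_lt hc continuous_const).measurableSet]
  refine Eventually.of_forall fun ξ => ae_restrict_of_ae ?_
  have hq : Measure.QuasiMeasurePreserving (fun ζ : Xs S => ζ.1.1) (mX ν) ν :=
    Measure.quasiMeasurePreserving_fst.comp Measure.quasiMeasurePreserving_fst
  exact hq.ae (h.llt ξ.1.1)

theorem Ok.hole_exists_open (h : Ok d ν) : ∃ (A : Set (Xs S)) (t₂ : ℝ), IsOpen A ∧
    0 < (mX ν).restrict (sub d.f) A ∧ ∀ T, t₂ ≤ T → ∀ ξ ∈ A, Pos d.f T ξ ≤ T := by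
  obtain ⟨ω, t₁, t₂, ht, hV⟩ := h.non_mono
  have hf : d.f (t₂, ω) < d.f (t₁, ω) := Real.rpow_lt_rpow (h.hV.pos _).le hV h.hV.ppos
  have hc := h.hV.cont_f
  have hA : IsOpen {ξ : Xs S | ξ.2 < t₂ ∧ d.f (t₂, ξ.1.1) < ξ.1.2 ∧ ξ.1.2 < d.f (ξ.2, ξ.1.1)} := by
    refine IsOpen.and ?_ (IsOpen.and ?_ ?_) <;> exact isOpen_lt (by fun_prop) (by fun_prop)
  refine ⟨_, t₂, hA, ?_, fun T hT ξ hξ => pos_le hξ.1.le hT hξ.2.1.le⟩
  have hsub : {ξ : Xs S | ξ.2 < t₂ ∧ d.f (t₂, ξ.1.1) < ξ.1.2 ∧ ξ.1.2 < d.f (ξ.2, ξ.1.1)} ⊆ sub d.f :=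
    fun ξ hξ => ⟨(h.hV.f_pos _).trans hξ.2.1, hξ.2.2⟩
  rw [Measure.restrict_apply hA.measurableSet, inter_eq_left.mpr hsub]
  have : (mX ν).IsOpenPosMeasure := by unfold mX; infer_instance
  exact hA.measure_pos _ ⟨((ω, (d.f (t₂, ω) + d.f (t₁, ω)) / 2), t₁), ht, by dsimp only; linarith,
    by dsimp only; linarith⟩

/-- `Pos ≤ τ < T + 5` forces `t < T + 10` (`pos_ge`), then `integrable_k` and `integrable_lift` -/
theorem Ok.integrable_Q (h : Ok d ν) {T τ : ℝ} (hτ : τ < T + 5) :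
    Integrable (fun z : Xs S × Xs S =>
      if Pos d.f T z.1 ≤ τ ∧ Pos d.g T z.2 ≤ τ then d.k (pt z.1) (pt z.2) else 0) (MM d ν) := by
  have hm : Measurable fun z : (ℝ × S) × (ℝ × S) => if z.1.1 ≤ T + 10 then d.k z.1 z.2 else 0 :=
    Measurable.ite (measurableSet_le (by fun_prop) measurable_const) h.com.measurable_k measurable_const
  refine (integrable_lift h hm (h.integrable_k (T + 10))).mono' (Measurable.aestronglyMeasurable ?_)
    (Eventually.of_forall fun z => ?_)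
  · refine Measurable.ite (MeasurableSet.inter ?_ ?_) (h.com.measurable_k.comp hole_measurable_pt2)
      measurable_const
    · exact measurableSet_le ((measurable_Pos h.hV.cont_f T).comp measurable_fst) measurable_const
    · exact measurableSet_le ((measurable_Pos h.hU.cont_f T).comp measurable_snd) measurable_const
  · have h0 := h.com.hole_k_nonneg (pt z.1) (pt z.2)
    by_cases hz : Pos d.f T z.1 ≤ τ ∧ Pos d.g T z.2 ≤ τ
    · have h1 : (pt z.1).1 ≤ T + 10 := by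
        by_contra h2
        have h3 : T + 5 ≤ Pos d.f T z.1 := pos_ge _ _ (not_le.mp h2).le
        linarith [hz.1]
      rw [if_pos hz, if_pos h1, Real.norm_of_nonneg h0]
    · rw [if_neg hz, norm_zero]
      split_ifs
      exacts [h0, le_rfl]

theorem Ok.Qr_nonneg (h : Ok d ν) (T τ : ℝ) : 0 ≤ Qr d ν T τ := by
  refine integral_nonneg fun z => ?_
  beta_reduce
  split_ifs
  exacts [h.com.hole_k_nonneg _ _, le_rfl]

theorem Ok.Qr_mono (h : Ok d ν) {T τ τ' : ℝ} (h1 : τ ≤ τ') (h2 : τ' < T + 5) : Qr d ν T τ ≤ Qr d ν T τ' := by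
  refine integral_mono (h.integrable_Q (h1.trans_lt h2)) (h.integrable_Q h2) fun z => ?_
  beta_reduce
  by_cases hz : Pos d.f T z.1 ≤ τ ∧ Pos d.g T z.2 ≤ τ
  · rw [if_pos hz, if_pos ⟨hz.1.trans h1, hz.2.trans h1⟩]
  · rw [if_neg hz]
    split_ifs
    exacts [h.com.hole_k_nonneg _ _, le_rfl]

theorem Ok.Qr_swap (h : Ok d ν) (T τ : ℝ) : Qr d.swap ν T τ = Qr d ν T τ := by
  rw [Qr, Qr, integral_MM_swap]
  refine integral_congr_ae (Eventually.of_forall fun z => ?_)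
  simp only [Prod.fst_swap, Prod.snd_swap, Dat.swap_f, Dat.swap_g, h.com.swap_k, and_comm]

theorem Tl_swap (T : ℝ) : Tl d.swap ν T = Tl d ν T := by
  rw [Tl, Tl, integral_MM_swap]
  refine integral_congr_ae (Eventually.of_forall fun z => ?_)
  simp only [Prod.fst_swap, Prod.snd_swap, Dat.swap_kb, max_comm]

theorem Ok.integrable_Tl (h : Ok d ν) (T : ℝ) :
    Integrable (fun z : Xs S × Xs S => if T ≤ max z.1.2 z.2.2 then d.kb (pt z.1) (pt z.2) else 0) (MM d ν) := by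
  refine h.hole_integrable_kb.mono' (hole_meas_Tl T).aestronglyMeasurable (Eventually.of_forall fun z => ?_)
  exact hole_norm_Tl T z

theorem Tl_nonneg (T : ℝ) : 0 ≤ Tl d ν T := by
  refine integral_nonneg fun z => ?_
  beta_reduce
  split_ifs
  exacts [(Kb_pos _ _ _ _ _).le, le_rfl]

/-- dominated convergence -/
theorem Ok.Tl_tendsto (h : Ok d ν) : Tendsto (Tl d ν) atTop (𝓝 0) := by
  have := tendsto_integral_filter_of_dominated_convergence (μ := MM d ν) (l := atTop)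
    (F := fun (T : ℝ) (z : Xs S × Xs S) => if T ≤ max z.1.2 z.2.2 then d.kb (pt z.1) (pt z.2) else 0)
    (f := fun _ => (0 : ℝ)) (fun z => d.kb (pt z.1) (pt z.2))
    (Eventually.of_forall fun T => (hole_meas_Tl T).aestronglyMeasurable)
    (Eventually.of_forall fun T => Eventually.of_forall (hole_norm_Tl T)) h.hole_integrable_kb
    (Eventually.of_forall fun z => tendsto_const_nhds.congr' (by
      filter_upwards [eventually_gt_atTop (max z.1.2 z.2.2)] with T hT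
      rw [if_neg (not_le.mpr hT)]))
  rwa [integral_zero] at this

/-- By `non_mono` the open set `A = {((ω,h),t) | 0 < h, t < t₂, f (t₂, ω) < h < f (t, ω)} ⊆ sub f` is non-empty, and `Pos ≤ T` on it for
`T ≥ t₂` (`pos_le`); similarly `B ⊆ sub g`. `κ = ∫ 1_{A × B} 4^{-μ} kb > 0` (`k_ge` holds a.e.; `kb > 0` is integrable, open sets have
positive measure). -/
theorem Ok.Qr_lower (h : Ok d ν) : ∃ T₁ κ : ℝ, 0 < κ ∧ ∀ T, T₁ ≤ T → κ ≤ Qr d ν T (T + 2) := by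
  obtain ⟨A, t₂, hAo, hA, hAP⟩ := h.hole_exists_open
  obtain ⟨B, s₂, hBo, hB, hBP⟩ := h.swap.hole_exists_open
  have hAB : MeasurableSet (A ×ˢ B) := hAo.measurableSet.prod hBo.measurableSet
  have h4 : 0 < (4 : ℝ) ^ (-d.μ) := Real.rpow_pos_of_pos (by norm_num) _
  have hi : Integrable ((A ×ˢ B).indicator fun z : Xs S × Xs S => (4 : ℝ) ^ (-d.μ) * d.kb (pt z.1) (pt z.2))
      (MM d ν) := (h.hole_integrable_kb.const_mul _).indicator hAB
  have hpos : ∀ z : Xs S × Xs S, 0 < (4 : ℝ) ^ (-d.μ) * d.kb (pt z.1) (pt z.2) := fun z =>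
    mul_pos h4 (Kb_pos _ _ _ _ _)
  refine ⟨max t₂ s₂, ∫ z, (A ×ˢ B).indicator
    (fun z : Xs S × Xs S => (4 : ℝ) ^ (-d.μ) * d.kb (pt z.1) (pt z.2)) z ∂(MM d ν), ?_, fun T hT => ?_⟩
  · rw [integral_pos_iff_support_of_nonneg (indicator_nonneg fun z _ => (hpos z).le) hi,
      support_indicator, Function.support_eq_univ fun z => (hpos z).ne', inter_univ, MM,
      Measure.prod_prod]
    exact ENNReal.mul_pos hA.ne' hB.ne'
  · refine integral_mono_ae hi (h.integrable_Q (by linarith)) ?_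
    filter_upwards [h.com.hole_ae_lt] with z hz
    by_cases hzz : z ∈ A ×ˢ B
    · have h1 := hAP T ((le_max_left _ _).trans hT) _ hzz.1
      have h2 : Pos d.g T z.2 ≤ T := hBP T ((le_max_right _ _).trans hT) _ hzz.2
      rw [indicator_of_mem hzz, if_pos ⟨by linarith, by linarith⟩]
      exact k_ge _ _ _ _ h.com.μpos (h.com.lge _ _) hz
    · rw [indicator_of_notMem hzz]
      split_ifs
      exacts [h.com.hole_k_nonneg _ _, le_rfl]

end Crest.Agent.R77
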