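import Crest.Agent.R77.Mass
set_option autoImplicit false

noncomputable section

namespace Crest.Agent.R77

open MeasureTheory Set Filter Topology
open scoped ENNReal

variable {S : Type} [MetricSpace S] [CompactSpace S] [MeasurableSpace S] [BorelSpace S] [Nonempty S]
  {ν : Measure S} [IsFiniteMeasure ν] [ν.IsOpenPosMeasure] {d : Dat S}

omit [MetricSpace S] [CompactSpace S] [BorelSpace S] [Nonempty S] [ν.IsOpenPosMeasure] in
theorem lintegral_exp_lt_top {θ : ℝ} (hθ : 0 < θ) (C T : ℝ) :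
    ∫⁻ x in Iic T ×ˢ (univ : Set S), ENNReal.ofReal (C * Real.exp (θ * x.1)) ∂(volume.prod ν) < ⊤ := by
  have h1 : Integrable (fun x : ℝ × S => (C * Real.exp (θ * x.1)) * (1 : ℝ))
      (((volume : Measure ℝ).restrict (Iic T)).prod (ν.restrict univ)) :=
    Integrable.mul_prod (f := fun t => C * Real.exp (θ * t)) (g := fun _ => (1 : ℝ))
      ((integrableOn_exp_mul_Iic hθ T).const_mul C) (integrable_const _)
  rw [Measure.prod_restrict] at h1
  simpa using h1.lintegral_lt_top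

omit [CompactSpace S] [BorelSpace S] [Nonempty S] [IsFiniteMeasure ν] [ν.IsOpenPosMeasure] in
theorem Half.f_le (h : Half d ν) (T : ℝ) : ∃ C : ℝ, 0 ≤ C ∧ ∀ x : ℝ × S, x.1 ≤ T →
    d.V x ≤ C * Real.exp ((d.a + d.μ) * x.1) ∧ d.f x ≤ C * Real.exp (d.p * (d.a + d.μ) * x.1) := by
  obtain ⟨C, hC⟩ := h.up T
  have hCp : 0 ≤ |C| ^ d.p := Real.rpow_nonneg (abs_nonneg _) _
  refine ⟨|C| + |C| ^ d.p, by positivity, fun x hx => ?_⟩
  have h1 : d.V x ≤ |C| * Real.exp ((d.a + d.μ) * x.1) :=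
    (hC x hx).trans (mul_le_mul_of_nonneg_right (le_abs_self C) (Real.exp_pos _).le)
  have h2 := Real.rpow_le_rpow (h.pos x).le h1 h.ppos.le
  rw [Real.mul_rpow (abs_nonneg C) (Real.exp_pos _).le, ← Real.exp_mul,
    show (d.a + d.μ) * x.1 * d.p = d.p * (d.a + d.μ) * x.1 by ring] at h2
  constructor
  · exact h1.trans (mul_le_mul_of_nonneg_right (by linarith) (Real.exp_pos _).le)
  · exact h2.trans (mul_le_mul_of_nonneg_right (by linarith [abs_nonneg C]) (Real.exp_pos _).le)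

theorem Ok.aμ_pos (h : Ok d ν) : 0 < d.a + d.μ := by
  have h1 := h.exp_pos
  have h2 := h.com.μpos
  have h3 := h.hV.ppos
  by_contra hn
  nlinarith [not_lt.1 hn]

theorem Ok.bμ_pos (h : Ok d ν) : 0 < d.b + d.μ := h.swap.aμ_pos

omit [CompactSpace S] [BorelSpace S] [Nonempty S] [IsFiniteMeasure ν] [ν.IsOpenPosMeasure] in
theorem Ok.g_pos (h : Ok d ν) (y : ℝ × S) : 0 < d.g y := Real.rpow_pos_of_pos (h.hU.pos y) _

theorem Ok.cont_g (h : Ok d ν) : Continuous d.g := h.hU.cont_f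

omit [MetricSpace S] [CompactSpace S] [MeasurableSpace S] [BorelSpace S] [Nonempty S] in
theorem kb_eq (d : Dat S) (x y : ℝ × S) : d.kb x y =
    Real.exp (-(2 * d.μ * max x.1 y.1)) * (Real.exp ((d.a + d.μ) * x.1) * Real.exp ((d.b + d.μ) * y.1)) := by
  simp only [Dat.kb, Kb, ← Real.exp_add]
  congr 1
  rcases le_total x.1 y.1 with h | h
  · rw [max_eq_right h, abs_of_nonpos (by linarith)]; ring
  · rw [max_eq_left h, abs_of_nonneg (by linarith)]; ring

omit [Nonempty S] [ν.IsOpenPosMeasure] in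
theorem lintegral_box {F G : ℝ × S → ℝ} (hF : Continuous F) (hG : Continuous G) (T : ℝ) :
    ∫⁻ z in (Iic T ×ˢ (univ : Set S)) ×ˢ (Iic T ×ˢ (univ : Set S)),
      ENNReal.ofReal (F z.1) * ENNReal.ofReal (G z.2) ∂((volume.prod ν).prod (volume.prod ν)) =
      (∫⁻ x in Iic T ×ˢ (univ : Set S), ENNReal.ofReal (F x) ∂(volume.prod ν)) *
        ∫⁻ x in Iic T ×ˢ (univ : Set S), ENNReal.ofReal (G x) ∂(volume.prod ν) := by
  rw [← Measure.prod_restrict]
  exact lintegral_prod_mul (f := fun x => ENNReal.ofReal (F x)) (g := fun x => ENNReal.ofReal (G x))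
    hF.measurable.ennreal_ofReal.aemeasurable hG.measurable.ennreal_ofReal.aemeasurable

/-- `kb = e^{(a+μ)t} e^{(b+μ)s} e^{-2μ max t s}`; on `{j ≤ max t s ≤ j + 1}` (`j ∈ ℕ`) the integral is at most
`e^{-2μ j} mass d (j+1) * mass d.swap (j+1)`; sum with `mass_mul_le`; `max t s ≤ 0` is handled by `exp_pos`. -/
theorem Ok.integrable_kb (h : Ok d ν) :
    Integrable (fun z : (ℝ × S) × (ℝ × S) => d.kb z.1 z.2 * (d.f z.1 * d.g z.2))
      ((volume.prod ν).prod (volume.prod ν)) := by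
  have hf := h.hV.cont_f
  have hg := h.cont_g
  have hμ := h.com.μpos
  have hc : Continuous fun z : (ℝ × S) × (ℝ × S) => d.kb z.1 z.2 * (d.f z.1 * d.g z.2) :=
    d.continuous_kb.mul ((hf.comp continuous_fst).mul (hg.comp continuous_snd))
  have h0 : ∀ z : (ℝ × S) × (ℝ × S), 0 ≤ d.kb z.1 z.2 * (d.f z.1 * d.g z.2) := fun z =>
    mul_nonneg (Kb_pos _ _ _ _ _).le (mul_nonneg (h.hV.f_pos _).le (h.g_pos _).le)
  refine ⟨hc.measurable.aestronglyMeasurable, ?_⟩
  rw [hasFiniteIntegral_iff_ofReal (ae_of_all _ h0)]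
  set B : ℝ → Set ((ℝ × S) × (ℝ × S)) := fun T => (Iic T ×ˢ univ) ×ˢ (Iic T ×ˢ univ) with hB
  have hBm : ∀ T, MeasurableSet (B T) := fun T =>
    (measurableSet_Iic.prod MeasurableSet.univ).prod (measurableSet_Iic.prod MeasurableSet.univ)
  set A : ℕ → Set ((ℝ × S) × (ℝ × S)) := fun j => B (j + 1) ∩ {z | (j : ℝ) ≤ max z.1.1 z.2.1} with hA
  have hAm : ∀ j, MeasurableSet (A j) := fun j =>
    (hBm _).inter (measurableSet_le measurable_const (by fun_prop))
  have hcov : (univ : Set ((ℝ × S) × (ℝ × S))) ⊆ B 0 ∪ ⋃ j, A j := by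
    intro z _
    rcases le_total (max z.1.1 z.2.1) 0 with hz | hz
    · left
      exact ⟨⟨(le_max_left _ _).trans hz, trivial⟩, (le_max_right _ _).trans hz, trivial⟩
    · right
      have h1 := (Nat.lt_floor_add_one (max z.1.1 z.2.1)).le
      exact mem_iUnion.2 ⟨⌊max z.1.1 z.2.1⌋₊, ⟨⟨(le_max_left _ _).trans h1, trivial⟩,
        (le_max_right _ _).trans h1, trivial⟩, Nat.floor_le hz⟩
  rw [← setLIntegral_univ]
  refine ((lintegral_mono_set hcov).trans (lintegral_union_le _ _ _)).trans_lt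
    (ENNReal.add_lt_top.2 ⟨?_, (lintegral_iUnion_le _ _).trans_lt ?_⟩)
  · obtain ⟨C, hC0, hC⟩ := h.hV.f_le 0
    have hθ : 0 < (d.p + 1) * (d.a + d.μ) - 2 * d.μ := by linarith [h.exp_pos]
    refine lt_of_le_of_lt (setLIntegral_mono' (hBm 0) (g := fun z =>
      ENNReal.ofReal (C * Real.exp (((d.p + 1) * (d.a + d.μ) - 2 * d.μ) * z.1.1)) *
        ENNReal.ofReal (Real.exp ((d.b + d.μ) * z.2.1) * d.g z.2)) fun z hz => ?_) ?_
    · rw [← ENNReal.ofReal_mul (by positivity)]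
      apply ENNReal.ofReal_le_ofReal
      have h1 := (hC z.1 hz.1.1).2
      have h2 : Real.exp (-(2 * d.μ * max z.1.1 z.2.1)) ≤ Real.exp (-(2 * d.μ * z.1.1)) :=
        Real.exp_le_exp.2 (by nlinarith [le_max_left z.1.1 z.2.1])
      have h3 := h.g_pos z.2
      have h4 := h.hV.f_pos z.1
      have e : Real.exp (((d.p + 1) * (d.a + d.μ) - 2 * d.μ) * z.1.1) = Real.exp (-(2 * d.μ * z.1.1)) *
          Real.exp ((d.a + d.μ) * z.1.1) * Real.exp (d.p * (d.a + d.μ) * z.1.1) := by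
        rw [← Real.exp_add, ← Real.exp_add]; congr 1; ring
      rw [kb_eq, e]
      calc _ ≤ Real.exp (-(2 * d.μ * z.1.1)) * (Real.exp ((d.a + d.μ) * z.1.1) * Real.exp ((d.b + d.μ) * z.2.1)) *
            (C * Real.exp (d.p * (d.a + d.μ) * z.1.1) * d.g z.2) := by gcongr
        _ = _ := by ring
    · rw [hB, lintegral_box (F := fun x => C * Real.exp (((d.p + 1) * (d.a + d.μ) - 2 * d.μ) * x.1))
        (G := fun y => Real.exp ((d.b + d.μ) * y.1) * d.g y) (by fun_prop) (by fun_prop)]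
      exact ENNReal.mul_lt_top (lintegral_exp_lt_top hθ C 0) (h.swap.mass_ne_top 0).lt_top
  · obtain ⟨C, γ, hγ, hC⟩ := h.mass_mul_le
    have hs : Summable fun j : ℕ => |C| * Real.exp (2 * d.μ - γ) * Real.exp (-γ) ^ j :=
      (summable_geometric_of_lt_one (Real.exp_pos _).le (Real.exp_lt_one_iff.2 (by linarith))).mul_left _
    refine lt_of_le_of_lt (ENNReal.tsum_le_tsum fun j => ?_) hs.tsum_ofReal_lt_top
    calc ∫⁻ z in A j, ENNReal.ofReal (d.kb z.1 z.2 * (d.f z.1 * d.g z.2)) ∂((volume.prod ν).prod (volume.prod ν))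
        ≤ ∫⁻ z in A j, ENNReal.ofReal (Real.exp (-(2 * d.μ * j))) *
            (ENNReal.ofReal (Real.exp ((d.a + d.μ) * z.1.1) * d.f z.1) *
              ENNReal.ofReal (Real.exp ((d.b + d.μ) * z.2.1) * d.g z.2)) ∂((volume.prod ν).prod (volume.prod ν)) := by
          refine setLIntegral_mono' (hAm j) fun z hz => ?_
          have h3 := h.g_pos z.2
          have h4 := h.hV.f_pos z.1
          rw [← ENNReal.ofReal_mul (by positivity), ← ENNReal.ofReal_mul (by positivity)]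
          apply ENNReal.ofReal_le_ofReal
          have h2 : Real.exp (-(2 * d.μ * max z.1.1 z.2.1)) ≤ Real.exp (-(2 * d.μ * j)) :=
            Real.exp_le_exp.2 (by nlinarith [show (j : ℝ) ≤ max z.1.1 z.2.1 from hz.2])
          rw [kb_eq]
          calc _ ≤ Real.exp (-(2 * d.μ * j)) * (Real.exp ((d.a + d.μ) * z.1.1) * Real.exp ((d.b + d.μ) * z.2.1)) *
                (d.f z.1 * d.g z.2) := by gcongr
            _ = _ := by ring
      _ ≤ ENNReal.ofReal (Real.exp (-(2 * d.μ * j))) * (mass d ν (j + 1) * mass d.swap ν (j + 1)) := by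
          refine (lintegral_mono_set (t := B (j + 1)) inter_subset_left).trans ?_
          rw [lintegral_const_mul' _ _ ENNReal.ofReal_ne_top, hB,
            lintegral_box (F := fun x => Real.exp ((d.a + d.μ) * x.1) * d.f x)
              (G := fun y => Real.exp ((d.b + d.μ) * y.1) * d.g y) (by fun_prop) (by fun_prop)]
          rfl
      _ ≤ ENNReal.ofReal (Real.exp (-(2 * d.μ * j))) *
            ENNReal.ofReal (C * Real.exp ((2 * d.μ - γ) * (j + 1))) := by
          gcongr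
          exact hC _ (by positivity)
      _ ≤ _ := by
          rw [← ENNReal.ofReal_mul (by positivity)]
          apply ENNReal.ofReal_le_ofReal
          have e : Real.exp (-(2 * d.μ * j)) * Real.exp ((2 * d.μ - γ) * (j + 1)) =
              Real.exp (2 * d.μ - γ) * Real.exp (-γ) ^ j := by
            rw [← Real.exp_nat_mul, ← Real.exp_add, ← Real.exp_add]; congr 1; ring
          rw [mul_left_comm, e, mul_assoc]
          exact mul_le_mul_of_nonneg_right (le_abs_self C) (by positivity)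

/-- Otherwise `V ≥ κ` for `t ≥ 0`, so (`kb_le` on `t ∈ [s, s+1]`) `U ≥ κ'` for `s ≥ 0`, and the integral of `integrable_kb` over
`s ≥ 0`, `t ∈ [s, s+1]` is infinite. -/
theorem Ok.non_mono (h : Ok d ν) : ∃ (ω : S) (t₁ t₂ : ℝ), t₁ < t₂ ∧ d.V (t₂, ω) < d.V (t₁, ω) := by
  by_contra hcon
  push Not at hcon
  obtain ⟨κ, hκ, hlo⟩ := h.hV.lo
  have hN := nu_pos ν
  have hc := h.com.cpos
  have hμ := h.com.μpos
  have hV : ∀ x : ℝ × S, 0 < x.1 → κ ≤ d.V x := fun x hx => by
    have h1 := hlo (0, x.2) le_rfl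
    simp only [mul_zero, Real.exp_zero, mul_one] at h1
    exact h1.trans (hcon x.2 0 x.1 hx)
  have hf : ∀ x : ℝ × S, 0 < x.1 → κ ^ d.p ≤ d.f x := fun x hx =>
    Real.rpow_le_rpow hκ.le (hV x hx) h.hV.ppos.le
  have hκp : 0 < κ ^ d.p := Real.rpow_pos_of_pos hκ _
  set k₀ := Real.exp (-(|d.a| + d.μ)) with hk₀
  have hk₀p : 0 < k₀ := Real.exp_pos _
  have hkb : ∀ x y : ℝ × S, 0 < y.1 → x.1 ∈ Ioo y.1 (y.1 + 1) → k₀ * κ ^ d.p ≤ d.kb x y * d.f x := by
    intro x y hy hx
    refine mul_le_mul ?_ (hf x (hy.trans hx.1)) hκp.le (Kb_pos _ _ _ _ _).le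
    simp only [Dat.kb, Kb]
    rw [abs_of_pos (by linarith [hx.1])]
    apply Real.exp_le_exp.2
    have h1 := mul_pos h.com.δpos hy
    have h2 : -|d.a| * (x.1 - y.1) ≤ d.a * (x.1 - y.1) :=
      mul_le_mul_of_nonneg_right (neg_abs_le _) (by linarith [hx.1])
    have h3 : |d.a| * (x.1 - y.1) ≤ |d.a| * 1 := mul_le_mul_of_nonneg_left (by linarith [hx.2]) (abs_nonneg _)
    have h4 : d.μ * (x.1 - y.1) ≤ d.μ * 1 := mul_le_mul_of_nonneg_left (by linarith [hx.2]) hμ.le
    nlinarith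
  set κ' := (4 : ℝ) ^ (-d.μ) * (k₀ * κ ^ d.p) * ν.real univ / d.c with hκ'
  have hκ'p : 0 < κ' := by positivity
  have hU : ∀ y : ℝ × S, 0 < y.1 → κ' ≤ d.U y := fun y hy => by
    have h1 := h.kb_low y (m := k₀ * κ ^ d.p) (α := y.1) (β := y.1 + 1) (by positivity) (by linarith)
      fun x hx => hkb x y hy hx
    rw [hκ', div_le_iff₀' hc]
    simpa using h1
  have hg : ∀ y : ℝ × S, 0 < y.1 → κ' ^ d.q ≤ d.g y := fun y hy =>
    Real.rpow_le_rpow hκ'p.le (hU y hy) (show 0 < d.q from h.hU.ppos).le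
  have hκq : 0 < κ' ^ d.q := Real.rpow_pos_of_pos hκ'p _
  set m := k₀ * κ ^ d.p * κ' ^ d.q * ν.real univ with hm
  have hm0 : 0 < m := by positivity
  have hI := h.integrable_kb
  have hfin := hI.lintegral_lt_top
  rw [lintegral_prod_symm _ hI.aemeasurable.ennreal_ofReal] at hfin
  have key : ∀ R : ℝ, 0 ≤ R → ENNReal.ofReal (m * (R - 0) * ν.real univ) ≤
      ∫⁻ y, ∫⁻ x, ENNReal.ofReal (d.kb x y * (d.f x * d.g y)) ∂(volume.prod ν) ∂(volume.prod ν) := by
    intro R hR
    refine (low_bound (ν := ν) (F := fun y => if 0 < y.1 then m else 0) hm0.le hR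
      fun y hy => by simp [hy.1]).trans ((setLIntegral_le_lintegral _ _).trans (lintegral_mono fun y => ?_))
    by_cases hy : 0 < y.1
    · have h1 := low_bound (ν := ν) (F := fun x => d.kb x y * (d.f x * d.g y)) (m := k₀ * κ ^ d.p * κ' ^ d.q)
        (α := y.1) (β := y.1 + 1) (by positivity) (by linarith) fun x hx => by
          rw [← mul_assoc]
          exact mul_le_mul (hkb x y hy hx) (hg y hy) hκq.le
            (mul_nonneg (Kb_pos _ _ _ _ _).le (h.hV.f_pos x).le)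
      simp only [hy, if_true]
      rw [add_sub_cancel_left, mul_one] at h1
      exact h1.trans (setLIntegral_le_lintegral _ _)
    · simp [hy]
  set I := ∫⁻ y, ∫⁻ x, ENNReal.ofReal (d.kb x y * (d.f x * d.g y)) ∂(volume.prod ν) ∂(volume.prod ν)
  have h9 := key ((I.toReal + 1) / (m * ν.real univ)) (by positivity)
  rw [ENNReal.ofReal_le_iff_le_toReal hfin.ne] at h9
  have e : m * ((I.toReal + 1) / (m * ν.real univ) - 0) * ν.real univ = I.toReal + 1 := by
    rw [sub_zero]; field_simp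
  linarith

theorem Ok.integrable_of_slices (h : Ok d ν) {H : (ℝ × S) → (ℝ × S) → ℝ}
    (hH : Measurable fun z : (ℝ × S) × (ℝ × S) => H z.1 z.2) (T : ℝ) {C θ₁ θ₂ : ℝ}
    (h₁ : 0 < θ₁) (h₂ : 0 < θ₂) (hB : ∀ x : ℝ × S, x.1 ≤ T →
      ∫⁻ y, ENNReal.ofReal (|H x y| * d.g y) ∂(volume.prod ν) ≤
        ENNReal.ofReal (C * (Real.exp (θ₁ * x.1) + Real.exp (θ₂ * x.1)))) :
    Integrable (fun z : (ℝ × S) × (ℝ × S) => (if z.1.1 ≤ T then H z.1 z.2 else 0) * (d.f z.1 * d.g z.2))
      ((volume.prod ν).prod (volume.prod ν)) := by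
  have hf := h.hV.cont_f
  have hg := h.cont_g
  have hm : Measurable fun z : (ℝ × S) × (ℝ × S) =>
      (if z.1.1 ≤ T then H z.1 z.2 else 0) * (d.f z.1 * d.g z.2) :=
    (Measurable.ite (measurableSet_le (by fun_prop) measurable_const) hH measurable_const).mul
      ((hf.comp continuous_fst).mul (hg.comp continuous_snd)).measurable
  refine ⟨hm.aestronglyMeasurable, ?_⟩
  obtain ⟨D, hD0, hD⟩ := h.hV.f_le T
  have hp := mul_pos h.hV.ppos h.aμ_pos
  have hms : MeasurableSet (Iic T ×ˢ (univ : Set S)) := measurableSet_Iic.prod MeasurableSet.univ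
  rw [HasFiniteIntegral, lintegral_prod _ hm.enorm.aemeasurable]
  refine lt_of_le_of_lt (lintegral_mono (g := (Iic T ×ˢ (univ : Set S)).indicator fun x =>
    ENNReal.ofReal (D * |C| * Real.exp ((d.p * (d.a + d.μ) + θ₁) * x.1)) +
      ENNReal.ofReal (D * |C| * Real.exp ((d.p * (d.a + d.μ) + θ₂) * x.1))) fun x => ?_) ?_
  · by_cases hx : x.1 ≤ T
    · rw [indicator_of_mem (show x ∈ Iic T ×ˢ (univ : Set S) from ⟨hx, trivial⟩)]
      have hfx := h.hV.f_pos x
      calc ∫⁻ y, ‖(if x.1 ≤ T then H x y else 0) * (d.f x * d.g y)‖ₑ ∂(volume.prod ν)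
          = ENNReal.ofReal (d.f x) * ∫⁻ y, ENNReal.ofReal (|H x y| * d.g y) ∂(volume.prod ν) := by
            rw [← lintegral_const_mul' _ _ ENNReal.ofReal_ne_top]
            refine lintegral_congr fun y => ?_
            rw [if_pos hx, ← ENNReal.ofReal_mul hfx.le, Real.enorm_eq_ofReal_abs, abs_mul,
              abs_of_pos (mul_pos hfx (h.g_pos y))]
            congr 1; ring
        _ ≤ ENNReal.ofReal (d.f x) * ENNReal.ofReal (C * (Real.exp (θ₁ * x.1) + Real.exp (θ₂ * x.1))) := by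
            gcongr; exact hB x hx
        _ ≤ _ := by
            rw [← ENNReal.ofReal_mul hfx.le, ← ENNReal.ofReal_add (by positivity) (by positivity)]
            apply ENNReal.ofReal_le_ofReal
            rw [add_mul (d.p * (d.a + d.μ)), add_mul (d.p * (d.a + d.μ)), Real.exp_add, Real.exp_add]
            calc _ ≤ (D * Real.exp (d.p * (d.a + d.μ) * x.1)) *
                  (|C| * (Real.exp (θ₁ * x.1) + Real.exp (θ₂ * x.1))) :=
                  (mul_le_mul_of_nonneg_left (mul_le_mul_of_nonneg_right (le_abs_self C) (by positivity))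
                    hfx.le).trans (mul_le_mul_of_nonneg_right (hD x hx).2 (by positivity))
              _ = _ := by ring
    · simp [hx]
  · rw [lintegral_indicator hms, lintegral_add_left (by fun_prop)]
    exact ENNReal.add_lt_top.2 ⟨lintegral_exp_lt_top (by linarith) _ _, lintegral_exp_lt_top (by linarith) _ _⟩

/-- Tonelli: `∫ k g = pot ≤ c V`, `f V ≤ C e^{(p+1)(a+μ)t}` -/
theorem Ok.integrable_k (h : Ok d ν) (T : ℝ) :
    Integrable (fun z : (ℝ × S) × (ℝ × S) => (if z.1.1 ≤ T then d.k z.1 z.2 else 0) * (d.f z.1 * d.g z.2))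
      ((volume.prod ν).prod (volume.prod ν)) := by
  obtain ⟨D, hD0, hD⟩ := h.hV.f_le T
  have hc := h.com.cpos
  refine h.integrable_of_slices h.com.measurable_k T (C := d.c * D) h.aμ_pos h.aμ_pos fun x hx => ?_
  have h1 : ∀ y, |d.k x y| = d.k x y := fun y => abs_of_nonneg (KK_nonneg _ _ _ (h.com.lle _ _) _ _)
  simp only [h1]
  refine (h.hV.sup x).trans (ENNReal.ofReal_le_ofReal ?_)
  have h2 := (hD x hx).1
  have h3 : 0 ≤ D * Real.exp ((d.a + d.μ) * x.1) := by positivity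
  nlinarith

/-- for a fixed first point: `|t - s| ≥ 1` by `kd_far` and `pot ≤ c V`, `|t - s| < 1` by `kd_near`, `Com.sing` and
`g ≤ C e^{q(b+μ)s}` (`b + μ > 0` by `exp_pos`) -/
theorem Ok.lintegral_kd_le (h : Ok d ν) (T : ℝ) : ∃ C : ℝ, ∀ x : ℝ × S, x.1 ≤ T →
    ∫⁻ y, ENNReal.ofReal (|d.kd x y| * d.g y) ∂(volume.prod ν) ≤
      ENNReal.ofReal (C * (Real.exp ((d.a + d.μ) * x.1) + Real.exp ((d.a + d.b + d.q * (d.b + d.μ)) * x.1))) := by
  obtain ⟨D, hD0, hD⟩ := h.hV.f_le T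
  obtain ⟨D', hD0', hD'⟩ := h.hU.f_le (T + 1)
  obtain ⟨C₁, hC₁, hfar⟩ := kd_far d.μ d.a d.b h.com.μpos
  obtain ⟨C₂, hC₂, hnear⟩ := kd_near d.μ d.a d.b h.com.μpos
  obtain ⟨Cs, hCs, hsing⟩ := h.com.sing
  have hc := h.com.cpos
  have hq : 0 < d.q * (d.b + d.μ) := mul_pos h.hU.ppos h.bμ_pos
  set E₁ := C₁ * (d.c * D) with hE₁
  set E₂ := D' * Real.exp (d.q * (d.b + d.μ)) * C₂ * Cs.toReal with hE₂
  have hE₁0 : 0 ≤ E₁ := by positivity
  have hE₂0 : 0 ≤ E₂ := by positivity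
  refine ⟨E₁ + E₂, fun x hx => ?_⟩
  set N : Set (ℝ × S) := Ioo (x.1 - 1) (x.1 + 1) ×ˢ univ with hN
  have hNm : MeasurableSet N := measurableSet_Ioo.prod MeasurableSet.univ
  have hkd : Measurable fun y => d.kd x y := h.com.measurable_kd.comp measurable_prodMk_left
  rw [← lintegral_add_compl _ hNm]
  have hA : ∫⁻ y in Nᶜ, ENNReal.ofReal (|d.kd x y| * d.g y) ∂(volume.prod ν) ≤
      ENNReal.ofReal (E₁ * Real.exp ((d.a + d.μ) * x.1)) := by
    calc _ ≤ ∫⁻ y in Nᶜ, ENNReal.ofReal C₁ * ENNReal.ofReal (d.k x y * d.g y) ∂(volume.prod ν) := by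
          refine setLIntegral_mono' hNm.compl fun y hy => ?_
          rw [← ENNReal.ofReal_mul hC₁, ← mul_assoc]
          refine ENNReal.ofReal_le_ofReal (mul_le_mul_of_nonneg_right ?_ (h.g_pos y).le)
          refine (hfar _ _ _ (h.com.lle _ _) ?_).2
          by_contra hn
          have := abs_lt.1 (not_le.1 hn)
          exact hy ⟨⟨by linarith, by linarith⟩, trivial⟩
      _ ≤ ENNReal.ofReal C₁ * d.pot ν x := by
          refine (setLIntegral_le_lintegral _ _).trans ?_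
          rw [lintegral_const_mul' _ _ ENNReal.ofReal_ne_top]
          rfl
      _ ≤ ENNReal.ofReal C₁ * ENNReal.ofReal (d.c * d.V x) := by gcongr; exact h.hV.sup x
      _ ≤ _ := by
          rw [← ENNReal.ofReal_mul hC₁, hE₁, mul_assoc, mul_assoc]
          exact ENNReal.ofReal_le_ofReal (mul_le_mul_of_nonneg_left
            (mul_le_mul_of_nonneg_left (hD x hx).1 hc.le) hC₁)
  have hB : ∫⁻ y in N, ENNReal.ofReal (|d.kd x y| * d.g y) ∂(volume.prod ν) ≤
      ENNReal.ofReal (E₂ * Real.exp ((d.a + d.b + d.q * (d.b + d.μ)) * x.1)) := by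
    set G := D' * Real.exp (d.q * (d.b + d.μ) * (x.1 + 1)) with hG
    have hG0 : 0 ≤ G := by positivity
    calc _ ≤ ∫⁻ y in N, ENNReal.ofReal G * ENNReal.ofReal |d.kd x y| ∂(volume.prod ν) := by
          refine setLIntegral_mono' hNm fun y hy => ?_
          rw [← ENNReal.ofReal_mul hG0, mul_comm G]
          refine ENNReal.ofReal_le_ofReal (mul_le_mul_of_nonneg_left ?_ (abs_nonneg _))
          have h1 : d.g y ≤ D' * Real.exp (d.q * (d.b + d.μ) * y.1) := (hD' y (by linarith [hy.1.2])).2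
          refine h1.trans (mul_le_mul_of_nonneg_left (Real.exp_le_exp.2 ?_) hD0')
          exact mul_le_mul_of_nonneg_left hy.1.2.le hq.le
      _ = ENNReal.ofReal G * ∫⁻ ω', (∫⁻ s in Ioo (x.1 - 1) (x.1 + 1), ENNReal.ofReal |d.kd x (s, ω')|) ∂ν := by
          have hm : Measurable fun y => ENNReal.ofReal |d.kd x y| := (continuous_abs.measurable.comp hkd).ennreal_ofReal
          rw [lintegral_const_mul' _ _ ENNReal.ofReal_ne_top, hN, ← Measure.prod_restrict, Measure.restrict_univ,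
            lintegral_prod_symm (fun y => ENNReal.ofReal |d.kd x y|) hm.aemeasurable]
      _ ≤ ENNReal.ofReal G * ∫⁻ ω', (ENNReal.ofReal (C₂ * Real.exp ((d.a + d.b) * x.1)) *
            ENNReal.ofReal (Kz d.μ (d.l x.2 ω') 0)) ∂ν := by
          refine mul_le_mul_right (lintegral_mono_ae ?_) _
          filter_upwards [h.com.llt x.2] with ω' hω'
          rw [← ENNReal.ofReal_mul (mul_nonneg hC₂ (Real.exp_pos _).le)]
          simp only [Dat.kd]
          exact hnear _ x.1 hω'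
      _ ≤ ENNReal.ofReal G * (ENNReal.ofReal (C₂ * Real.exp ((d.a + d.b) * x.1)) * ENNReal.ofReal Cs.toReal) := by
          rw [lintegral_const_mul' _ _ ENNReal.ofReal_ne_top, ENNReal.ofReal_toReal hCs.ne]
          exact mul_le_mul_right (mul_le_mul_right (hsing x.2) _) _
      _ = _ := by
          rw [← ENNReal.ofReal_mul (mul_nonneg hC₂ (Real.exp_pos _).le), ← ENNReal.ofReal_mul hG0, hG, hE₂,
            mul_add (d.q * (d.b + d.μ)) x.1, mul_one, add_mul (d.a + d.b), Real.exp_add, Real.exp_add]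
          congr 1; ring
  refine (add_le_add hB hA).trans ?_
  rw [← ENNReal.ofReal_add (by positivity) (by positivity)]
  apply ENNReal.ofReal_le_ofReal
  have e1 := Real.exp_pos ((d.a + d.μ) * x.1)
  have e2 := Real.exp_pos ((d.a + d.b + d.q * (d.b + d.μ)) * x.1)
  nlinarith [mul_nonneg hE₁0 e2.le, mul_nonneg hE₂0 e1.le]

theorem Ok.integrable_kd (h : Ok d ν) (T : ℝ) :
    Integrable (fun z : (ℝ × S) × (ℝ × S) => (if z.1.1 ≤ T then d.kd z.1 z.2 else 0) * (d.f z.1 * d.g z.2))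
      ((volume.prod ν).prod (volume.prod ν)) := by
  obtain ⟨C, hC⟩ := h.lintegral_kd_le T
  have hq : 0 < d.q * (d.b + d.μ) := mul_pos h.hU.ppos h.bμ_pos
  exact h.integrable_of_slices h.com.measurable_kd T h.aμ_pos (by linarith [h.com.δpos]) hC

end Crest.Agent.R77
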