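import Crest.Agent.R77.Defs
set_option autoImplicit false

noncomputable section

namespace Crest.Agent.R77

open MeasureTheory Set Filter Topology
open scoped ENNReal
open Laplacian InnerProductSpace

variable {n : ℕ}

theorem iteratedFDeriv_two_line {w : Eu n → ℝ} {x : Eu n} (hw : ContDiffAt ℝ 2 w x) (v : Eu n) :
    iteratedFDeriv ℝ 2 w x ![v, v] = deriv (deriv fun t : ℝ => w (x + t • v)) 0 := by
  have hl : ∀ t : ℝ, HasDerivAt (fun t : ℝ => x + t • v) v t := by
    intro t
    simpa using ((hasDerivAt_id t).smul_const v).const_add x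
  have hc : Tendsto (fun t : ℝ => x + t • v) (𝓝 0) (𝓝 x) := by
    simpa using (hl 0).continuousAt.tendsto
  have h1 : (deriv fun t : ℝ => w (x + t • v)) =ᶠ[𝓝 0] fun t => fderiv ℝ w (x + t • v) v := by
    filter_upwards [hc.eventually (hw.eventually (by simp))] with t ht
    exact ((ht.differentiableAt (by simp)).hasFDerivAt.comp_hasDerivAt t (hl t)).deriv
  rw [h1.deriv_eq, iteratedFDeriv_two_apply]
  have h2 : HasFDerivAt (fderiv ℝ w) (fderiv ℝ (fderiv ℝ w) x) (x + (0 : ℝ) • v) := by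
    have : ContDiffAt ℝ 1 (fderiv ℝ w) x := hw.fderiv_right (by norm_num)
    simpa using (this.differentiableAt (by simp)).hasFDerivAt
  have h3 := ((h2.comp_hasDerivAt 0 (hl 0)).clm_apply (hasDerivAt_const (0 : ℝ) v)).deriv
  simp only [Function.comp, map_zero, add_zero] at h3
  rw [h3]
  rfl

theorem lap_eq_sum {w : Eu n → ℝ} {x : Eu n} (hw : ContDiffAt ℝ 2 w x) :
    (Δ w) x = ∑ i, deriv (deriv fun t : ℝ => w (x + t • EuclideanSpace.basisFun (Fin n) ℝ i)) 0 := by
  rw [laplacian_eq_iteratedFDeriv_orthonormalBasis w (EuclideanSpace.basisFun (Fin n) ℝ)]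
  exact Finset.sum_congr rfl fun i _ => iteratedFDeriv_two_line hw _

/-- Laplacian of a radial function (`laplacian_eq_iteratedFDeriv_orthonormalBasis` with `EuclideanSpace.basisFun`,
`iteratedFDeriv_two_apply`) -/
theorem lap_radial {G : ℝ → ℝ} (x₀ x : Eu n) (hG : ContDiffAt ℝ 2 G (‖x - x₀‖ ^ 2)) :
    (Δ fun y : Eu n => G (‖y - x₀‖ ^ 2)) x =
      4 * ‖x - x₀‖ ^ 2 * deriv (deriv G) (‖x - x₀‖ ^ 2) + 2 * n * deriv G (‖x - x₀‖ ^ 2) := by
  set r := ‖x - x₀‖ ^ 2 with hr
  have hq : ContDiffAt ℝ 2 (fun y : Eu n => ‖y - x₀‖ ^ 2) x :=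
    ((contDiff_id.sub contDiff_const).norm_sq ℝ).contDiffAt
  have hw : ContDiffAt ℝ 2 (fun y : Eu n => G (‖y - x₀‖ ^ 2)) x := ContDiffAt.comp x hG hq
  rw [lap_eq_sum hw]
  have key : ∀ i : Fin n, deriv (deriv fun t : ℝ =>
      G (‖x + t • EuclideanSpace.basisFun (Fin n) ℝ i - x₀‖ ^ 2)) 0 =
      4 * (x - x₀) i ^ 2 * deriv (deriv G) r + 2 * deriv G r := by
    intro i
    set a := (x - x₀) i with ha
    have h1 : ∀ t : ℝ, ‖x + t • EuclideanSpace.basisFun (Fin n) ℝ i - x₀‖ ^ 2 =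
        r + 2 * a * t + t ^ 2 := by
      intro t
      rw [add_sub_right_comm, norm_add_sq_real, norm_smul, (EuclideanSpace.basisFun (Fin n) ℝ).norm_eq_one,
        real_inner_smul_right, EuclideanSpace.inner_basisFun_real]
      simp only [Real.norm_eq_abs, mul_one, sq_abs, ← hr, ← ha]
      ring
    simp only [h1]
    have hp : ∀ t : ℝ, HasDerivAt (fun t : ℝ => r + 2 * a * t + t ^ 2) (2 * a + 2 * t) t := by
      intro t
      simpa using (((hasDerivAt_id t).const_mul (2 * a)).const_add r).fun_add (hasDerivAt_pow 2 t)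
    have hc : Tendsto (fun t : ℝ => r + 2 * a * t + t ^ 2) (𝓝 0) (𝓝 r) := by
      simpa using (hp 0).continuousAt.tendsto
    have h2 : (deriv fun t : ℝ => G (r + 2 * a * t + t ^ 2)) =ᶠ[𝓝 0]
        fun t => deriv G (r + 2 * a * t + t ^ 2) * (2 * a + 2 * t) := by
      filter_upwards [hc.eventually (hG.eventually (by simp))] with t ht
      exact ((ht.differentiableAt (by simp)).hasDerivAt.comp t (hp t)).deriv
    rw [h2.deriv_eq]
    have h3 : HasDerivAt (deriv G) (deriv (deriv G) r) (r + 2 * a * 0 + 0 ^ 2) := by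
      have : ContDiffAt ℝ 1 (deriv G) r := hG.derivWithin (by norm_num)
      simpa using (this.differentiableAt (by simp)).hasDerivAt
    have h4 : HasDerivAt (fun t : ℝ => 2 * a + 2 * t) 2 0 := by
      simpa using ((hasDerivAt_id (0 : ℝ)).const_mul 2).const_add (2 * a)
    have h5 := ((h3.comp 0 (hp 0)).mul h4).deriv
    refine Eq.trans h5 ?_
    simp only [Function.comp, mul_zero, add_zero, ne_eq, OfNat.ofNat_ne_zero, not_false_eq_true,
      zero_pow]
    ring
  simp only [key, Finset.sum_add_distrib, Finset.sum_const, Finset.card_univ, Fintype.card_fin,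
    nsmul_eq_mul, ← Finset.sum_mul, ← Finset.mul_sum]
  rw [← EuclideanSpace.real_norm_sq_eq]
  ring

/-- second derivative test along every coordinate line -/
theorem lap_nonneg_of_isLocalMin {w : Eu n → ℝ} {x : Eu n} (hw : ContDiffAt ℝ 2 w x) (hm : IsLocalMin w x) :
    0 ≤ (Δ w) x := by
  rw [lap_eq_sum hw]
  refine Finset.sum_nonneg fun i _ => ?_
  set v := EuclideanSpace.basisFun (Fin n) ℝ i
  have hc : ContinuousAt (fun t : ℝ => x + t • v) 0 := by fun_prop
  have hm' : IsLocalMin (fun t : ℝ => w (x + t • v)) 0 :=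
    IsLocalMin.comp_continuous (g := fun t : ℝ => x + t • v) (by simpa using hm) hc
  by_contra hneg
  have hcont : ContinuousAt (fun t : ℝ => w (x + t • v)) 0 :=
    ContinuousAt.comp (f := fun t : ℝ => x + t • v) (by simpa using hw.continuousAt) hc
  have hM := isLocalMax_of_deriv_deriv_neg (not_le.1 hneg) hm'.deriv_eq_zero hcont
  have h1 : (fun t : ℝ => w (x + t • v)) =ᶠ[𝓝 0] fun _ => w (x + (0 : ℝ) • v) := by
    filter_upwards [hm', hM] with t h1 h2
    exact le_antisymm h2 h1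
  rw [h1.deriv.deriv_eq] at hneg
  simp at hneg

/-- Dimension two. `log ‖y‖²` is harmonic off `0` (`lap_radial`). For `x ≠ 0`, `0 < r ≤ ‖x‖`, `ε > 0`, the function
`u + ε log ‖y‖²` tends to `∞` at infinity and has no local minimum in `‖y‖ > r`, so its minimum over `‖y‖ ≥ r` is on `‖y‖ = r`; `ε → 0` gives
`min_{‖y‖=r} u ≤ u x`. Same with `u - ε log ‖y‖²` on `0 < ‖y‖ ≤ r` for `r ≥ ‖x‖`. Hence a minimiser of `u` on the unit circle minimises `u`
off the origin, a local minimum with `Δ u < 0`. -/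
theorem no_two {u : Eu 2 → ℝ} (hu : ContDiffOn ℝ 2 u {0}ᶜ) (hpos : ∀ x, 0 < u x) (hΔ : ∀ x, x ≠ 0 → (Δ u) x < 0) :
    False := by
  have hC : ∀ y : Eu 2, y ≠ 0 → ContDiffAt ℝ 2 u y := fun y hy =>
    hu.contDiffAt (isOpen_compl_singleton.mem_nhds hy)
  have hL : ∀ y : Eu 2, y ≠ 0 → ContDiffAt ℝ 2 (fun y : Eu 2 => Real.log (‖y‖ ^ 2)) y := by
    intro y hy
    exact ContDiffAt.log ((contDiff_id.norm_sq ℝ).contDiffAt) (by simpa using hy)
  have hL0 : ∀ y : Eu 2, y ≠ 0 → (Δ fun y : Eu 2 => Real.log (‖y‖ ^ 2)) y = 0 := by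
    intro y hy
    have hy' : ‖y‖ ^ 2 ≠ 0 := by simpa using hy
    have := lap_radial (G := Real.log) 0 y (by simpa using Real.contDiffAt_log.2 hy')
    simp only [sub_zero] at this
    rw [this, Real.deriv_log', deriv_inv]
    push_cast
    field_simp
    ring
  -- minimum on an annulus
  have ann : ∀ c a b : ℝ, 0 < a → ∀ x : Eu 2, a ≤ ‖x‖ → ‖x‖ ≤ b → ∃ y : Eu 2,
      (‖y‖ = a ∨ ‖y‖ = b) ∧ u y + c * Real.log (‖y‖ ^ 2) ≤ u x + c * Real.log (‖x‖ ^ 2) := by
    intro c a b ha x hxa hxb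
    have hK : IsCompact {y : Eu 2 | a ≤ ‖y‖ ∧ ‖y‖ ≤ b} := by
      refine (isCompact_closedBall (0 : Eu 2) b).of_isClosed_subset ?_ fun y hy => ?_
      · exact (isClosed_le continuous_const continuous_norm).inter
          (isClosed_le continuous_norm continuous_const)
      · simpa using hy.2
    have hne : ∀ y ∈ {y : Eu 2 | a ≤ ‖y‖ ∧ ‖y‖ ≤ b}, y ≠ 0 := fun y hy =>
      norm_pos_iff.1 (ha.trans_le hy.1)
    obtain ⟨y, hy, hmin⟩ := hK.exists_isMinOn (f := fun y => u y + c * Real.log (‖y‖ ^ 2))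
      ⟨x, hxa, hxb⟩ fun y hy => ((hC y (hne y hy)).continuousAt.add
        (continuousAt_const.mul (hL y (hne y hy)).continuousAt)).continuousWithinAt
    refine ⟨y, ?_, hmin ⟨hxa, hxb⟩⟩
    by_contra hcon
    push Not at hcon
    have h1 : {y : Eu 2 | a ≤ ‖y‖ ∧ ‖y‖ ≤ b} ∈ 𝓝 y := by
      have h2 : IsOpen {y : Eu 2 | a < ‖y‖ ∧ ‖y‖ < b} :=
        (isOpen_lt continuous_const continuous_norm).inter (isOpen_lt continuous_norm continuous_const)
      exact mem_of_superset (h2.mem_nhds ⟨lt_of_le_of_ne hy.1 hcon.1.symm, lt_of_le_of_ne hy.2 hcon.2⟩)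
        fun z hz => ⟨hz.1.le, hz.2.le⟩
    have h2 := lap_nonneg_of_isLocalMin
      ((hC y (hne y hy)).add (contDiffAt_const.mul (hL y (hne y hy)))) (hmin.isLocalMin h1)
    have h3 := (hC y (hne y hy)).laplacian_add ((hL y (hne y hy)).const_smul c)
    have h4 := laplacian_smul c (hL y (hne y hy))
    rw [hL0 y (hne y hy), smul_zero] at h4
    have h5 := hΔ y (hne y hy)
    have h6 : (Δ fun y : Eu 2 => u y + c * Real.log (‖y‖ ^ 2)) y = (Δ u) y := by
      have h7 : (Δ fun y : Eu 2 => c • Real.log (‖y‖ ^ 2)) y = 0 := h4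
      rw [h7, add_zero] at h3
      exact h3
    linarith
  obtain ⟨z, hz, hmin⟩ := (isCompact_sphere (0 : Eu 2) 1).exists_isMinOn (f := u)
    (NormedSpace.sphere_nonempty.2 zero_le_one) fun y hy =>
      (hC y (by rintro rfl; simp at hy)).continuousAt.continuousWithinAt
  have hz0 : z ≠ 0 := by rintro rfl; simp at hz
  have hz1 : ∀ y : Eu 2, ‖y‖ = 1 → u z ≤ u y := fun y hy => hmin (by simpa using hy)
  have main : ∀ x : Eu 2, x ≠ 0 → ∀ ε : ℝ, 0 < ε → u z ≤ u x + ε * |Real.log (‖x‖ ^ 2)| := by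
    intro x hx ε hε
    have hx0 : 0 < ‖x‖ := norm_pos_iff.2 hx
    have hux := hpos x
    have hlog : ∀ s : ℝ, Real.log ((‖x‖ * Real.exp s) ^ 2) = Real.log (‖x‖ ^ 2) + 2 * s := by
      intro s
      rw [mul_pow, Real.log_mul (by positivity) (by positivity), Real.log_pow (Real.exp s), Real.log_exp]
      norm_num
    rcases le_total 1 ‖x‖ with h1 | h1
    · obtain ⟨y, hy, hle⟩ := ann ε 1 (‖x‖ * Real.exp (u x / (2 * ε))) one_pos x h1
        (le_mul_of_one_le_right hx0.le (Real.one_le_exp (by positivity)))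
      rcases hy with hy | hy
      · have := hz1 y hy
        rw [hy] at hle
        simp only [one_pow, Real.log_one, mul_zero, add_zero] at hle
        nlinarith [le_abs_self (Real.log (‖x‖ ^ 2))]
      · rw [hy, hlog] at hle
        have h2 : ε * (2 * (u x / (2 * ε))) = u x := by field_simp
        nlinarith [hpos y]
    · obtain ⟨y, hy, hle⟩ := ann (-ε) (‖x‖ * Real.exp (-(u x / (2 * ε)))) 1 (by positivity) x
        (mul_le_of_le_one_right hx0.le (Real.exp_le_one_iff.2 (by
          have : 0 < u x / (2 * ε) := by positivity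
          linarith))) h1
      rcases hy with hy | hy
      · rw [hy, hlog] at hle
        have h2 : ε * (2 * (u x / (2 * ε))) = u x := by field_simp
        nlinarith [hpos y]
      · have := hz1 y hy
        rw [hy] at hle
        simp only [one_pow, Real.log_one, mul_zero, add_zero] at hle
        nlinarith [neg_abs_le (Real.log (‖x‖ ^ 2))]
  have main' : ∀ x : Eu 2, x ≠ 0 → u z ≤ u x := by
    intro x hx
    refine le_of_forall_pos_le_add fun δ hδ => ?_
    have h0 := abs_nonneg (Real.log (‖x‖ ^ 2))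
    refine (main x hx (δ / (|Real.log (‖x‖ ^ 2)| + 1)) (by positivity)).trans ?_
    have : δ / (|Real.log (‖x‖ ^ 2)| + 1) * |Real.log (‖x‖ ^ 2)| ≤ δ := by
      rw [div_mul_eq_mul_div, div_le_iff₀ (by positivity)]
      nlinarith
    linarith
  have hloc : IsLocalMin u z := by
    filter_upwards [isOpen_compl_singleton.mem_nhds hz0] with y hy
    exact main' y hy
  exact absurd (lap_nonneg_of_isLocalMin (hC z hz0) hloc) (not_le.2 (hΔ z hz0))

end Crest.Agent.R77
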