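import Crest.Agent.R77.Cells
set_option autoImplicit false
set_option linter.unusedSectionVars false

noncomputable section

namespace Crest.Agent.R77

open MeasureTheory Set Filter Topology
open scoped ENNReal

variable {S : Type} [MetricSpace S] [CompactSpace S] [MeasurableSpace S] [BorelSpace S] [Nonempty S]
  {ν : Measure S} [IsFiniteMeasure ν] [ν.IsOpenPosMeasure] {d : Dat S}

instance sfinite_mX : SFinite (mX ν) := by unfold mX; infer_instance

theorem Half.cont_f (h : Half d ν) : Continuous d.f :=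
  h.cont.rpow_const fun x => Or.inl (h.pos x).ne'

theorem Half.f_pos (h : Half d ν) (x : ℝ × S) : 0 < d.f x := Real.rpow_pos_of_pos (h.pos x) _

theorem Com.measurable_k (h : Com d ν) : Measurable fun z : (ℝ × S) × (ℝ × S) => d.k z.1 z.2 := by
  have hl : Measurable fun z : (ℝ × S) × (ℝ × S) => d.l z.1.2 z.2.2 :=
    (h.lcont.comp (f := fun z : (ℝ × S) × (ℝ × S) => (z.1.2, z.2.2)) (by fun_prop)).measurable
  unfold Dat.k KK Kz Dz
  fun_prop

theorem Com.measurable_kd (h : Com d ν) : Measurable fun z : (ℝ × S) × (ℝ × S) => d.kd z.1 z.2 := by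
  have hl : Measurable fun z : (ℝ × S) × (ℝ × S) => d.l z.1.2 z.2.2 :=
    (h.lcont.comp (f := fun z : (ℝ × S) × (ℝ × S) => (z.1.2, z.2.2)) (by fun_prop)).measurable
  unfold Dat.kd KD Kz Dz
  fun_prop

theorem Dat.continuous_kb (d : Dat S) : Continuous fun z : (ℝ × S) × (ℝ × S) => d.kb z.1 z.2 := by
  unfold Dat.kb Kb
  fun_prop

theorem lay_measurable_pt : Measurable (pt : Xs S → ℝ × S) := by unfold pt; fun_prop

theorem lay_measurableSet_sub {F : ℝ × S → ℝ} (hF : Continuous F) : MeasurableSet (sub F) :=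
  (measurableSet_lt measurable_const measurable_fst.snd).inter
    (measurableSet_lt measurable_fst.snd (hF.measurable.comp lay_measurable_pt))

theorem lay_sect {A B : Type} [MeasurableSpace A] [MeasurableSpace B] {μ₁ : Measure A} {μ₂ : Measure B}
    [SFinite μ₁] [SFinite μ₂] {s : Set (A × B)} (hs : MeasurableSet s) {H : A × B → ℝ}
    (hH : Integrable H ((μ₁.prod μ₂).restrict s)) :
    (∫ z, H z ∂((μ₁.prod μ₂).restrict s) = ∫ a, (∫ b in Prod.mk a ⁻¹' s, H (a, b) ∂μ₂) ∂μ₁) ∧
      ∀ᵐ a ∂μ₁, IntegrableOn (fun b => H (a, b)) (Prod.mk a ⁻¹' s) μ₂ := by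
  have h1 : Integrable (s.indicator H) (μ₁.prod μ₂) := (integrable_indicator_iff hs).2 hH
  have h2 : ∀ a, (fun b => s.indicator H (a, b)) = (Prod.mk a ⁻¹' s).indicator fun b => H (a, b) :=
    fun a => rfl
  constructor
  · rw [← integral_indicator hs, integral_prod _ h1]
    refine integral_congr_ae (Eventually.of_forall fun a => ?_)
    simp only
    rw [h2, integral_indicator (measurable_prodMk_left hs)]
  · filter_upwards [h1.prod_right_ae] with a ha
    rwa [h2, integrable_indicator_iff (measurable_prodMk_left hs)] at ha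

theorem lay_rearr {A B C D : Type} [MeasurableSpace A] [MeasurableSpace B] [MeasurableSpace C]
    [MeasurableSpace D] (μa : Measure A) (μb : Measure B) (μc : Measure C) (μd : Measure D)
    [SFinite μa] [SFinite μb] [SFinite μc] [SFinite μd] :
    ∃ e : (A × C) × (B × D) ≃ᵐ (A × B) × (C × D),
      MeasurePreserving e ((μa.prod μc).prod (μb.prod μd)) ((μa.prod μb).prod (μc.prod μd)) ∧
      ∀ z, e z = ((z.1.1, z.2.1), (z.1.2, z.2.2)) := by
  let e : (A × C) × (B × D) ≃ᵐ (A × B) × (C × D) :=
    { toEquiv := Equiv.prodProdProdComm A C B D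
      measurable_toFun := by
        change Measurable fun z : (A × C) × (B × D) => ((z.1.1, z.2.1), (z.1.2, z.2.2))
        fun_prop
      measurable_invFun := by
        change Measurable fun z : (A × B) × (C × D) => ((z.1.1, z.2.1), (z.1.2, z.2.2))
        fun_prop }
  refine ⟨e, ?_, fun z => rfl⟩
  have h1 := measurePreserving_prodAssoc μa μc (μb.prod μd)
  have h2 := (MeasurePreserving.id μa).prod ((measurePreserving_prodAssoc μc μb μd).symm _)
  have h3 := (MeasurePreserving.id μa).prod
    ((Measure.measurePreserving_swap (μ := μc) (ν := μb)).prod (MeasurePreserving.id μd))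
  have h4 := (MeasurePreserving.id μa).prod (measurePreserving_prodAssoc μb μc μd)
  have h5 := (measurePreserving_prodAssoc μa μb (μc.prod μd)).symm _
  exact h5.comp (h4.comp (h3.comp (h2.comp h1)))

/-- layer cake -/
theorem map_pt {F : ℝ × S → ℝ} (hF : Continuous F) :
    Measure.map pt ((mX ν).restrict (sub F)) = (volume.prod ν).withDensity fun x => ENNReal.ofReal (F x) := by
  refine Measure.ext_of_lintegral _ fun φ hφ => ?_
  have hs := lay_measurableSet_sub hF
  have hm : Measurable ((sub F).indicator fun ξ : Xs S => φ (pt ξ)) :=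
    (hφ.comp lay_measurable_pt).indicator hs
  rw [lintegral_map hφ lay_measurable_pt, ← lintegral_indicator hs,
    lintegral_withDensity_eq_lintegral_mul _ hF.measurable.ennreal_ofReal hφ, mX,
    lintegral_prod_symm' _ hm,
    lintegral_prod _ (hF.measurable.ennreal_ofReal.mul hφ).aemeasurable]
  refine lintegral_congr fun t => ?_
  refine (lintegral_prod _ (hm.comp measurable_prodMk_right).aemeasurable).trans ?_
  refine lintegral_congr fun ω => ?_
  have : (fun r : ℝ => (sub F).indicator (fun ξ : Xs S => φ (pt ξ)) ((ω, r), t)) =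
      (Ioo 0 (F (t, ω))).indicator fun _ => φ (t, ω) := rfl
  simp only [Function.comp_apply]
  rw [this, lintegral_indicator_const measurableSet_Ioo, Real.volume_Ioo, sub_zero, mul_comm]
  rfl

theorem integral_lift₁ {F : ℝ × S → ℝ} (hF : Continuous F) (h0 : ∀ x, 0 ≤ F x) {H : ℝ × S → ℝ} (hH : Measurable H) :
    ∫ ξ, H (pt ξ) ∂((mX ν).restrict (sub F)) = ∫ x, H x * F x ∂(volume.prod ν) := by
  rw [← integral_map lay_measurable_pt.aemeasurable hH.aestronglyMeasurable, map_pt hF,
    integral_withDensity_eq_integral_toReal_smul hF.measurable.ennreal_ofReal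
      (Eventually.of_forall fun x => ENNReal.ofReal_lt_top)]
  refine integral_congr_ae (Eventually.of_forall fun x => ?_)
  simp only [smul_eq_mul]
  rw [ENNReal.toReal_ofReal (h0 x), mul_comm]

theorem integrable_lift (h : Ok d ν) {H : (ℝ × S) × (ℝ × S) → ℝ} (hH : Measurable H)
    (hi : Integrable (fun z => H z * (d.f z.1 * d.g z.2)) ((volume.prod ν).prod (volume.prod ν))) :
    Integrable (fun z : Xs S × Xs S => H (pt z.1, pt z.2)) (MM d ν) := by
  have hf := h.hV.cont_f
  have hg : Continuous d.g := h.hU.cont_f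
  have hm : Measurable (Prod.map pt pt : Xs S × Xs S → _) := lay_measurable_pt.prodMap lay_measurable_pt
  have hd : Measurable fun z : (ℝ × S) × (ℝ × S) => ENNReal.ofReal (d.f z.1) * ENNReal.ofReal (d.g z.2) :=
    (hf.measurable.ennreal_ofReal.comp measurable_fst).mul
      (hg.measurable.ennreal_ofReal.comp measurable_snd)
  change Integrable (H ∘ Prod.map pt pt) _
  rw [← integrable_map_measure hH.aestronglyMeasurable hm.aemeasurable, MM,
    ← Measure.map_prod_map _ _ lay_measurable_pt lay_measurable_pt, map_pt hf, map_pt hg,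
    prod_withDensity hf.measurable.ennreal_ofReal hg.measurable.ennreal_ofReal,
    integrable_withDensity_iff_integrable_smul' hd
      (Eventually.of_forall fun x => ENNReal.mul_lt_top ENNReal.ofReal_lt_top ENNReal.ofReal_lt_top)]
  refine hi.congr (Eventually.of_forall fun z => ?_)
  simp only [smul_eq_mul, ENNReal.toReal_mul, Pi.mul_apply, Function.comp_apply]
  rw [ENNReal.toReal_ofReal (h.hV.f_pos _).le, ENNReal.toReal_ofReal (r := d.g z.2) (h.hU.f_pos _).le,
    mul_comm]

theorem integral_MM_swap (H : Xs S × Xs S → ℝ) : ∫ z, H z ∂(MM d.swap ν) = ∫ z, H z.swap ∂(MM d ν) := by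
  exact (integral_prod_swap H).symm

/-- Integrate over the two rays first. (Rearrange `(A × B) × (C × D) ≃ (A × C) × (B × D)` with `measurePreserving_prodAssoc` and
`Measure.measurePreserving_swap`, write the restrictions as indicators, `integral_prod`, `Integrable.prod_right_ae`.) -/
theorem integral_MM_nonneg (h : Ok d ν) {H : Xs S × Xs S → ℝ} (hH : Integrable H (MM d ν))
    (h0 : ∀ (α β : S × ℝ), d.l α.1 β.1 < 1 → 0 < α.2 → 0 < β.2 →
      IntegrableOn (fun z : ℝ × ℝ => H ((α, z.1), (β, z.2)))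
        ({t | α.2 < d.f (t, α.1)} ×ˢ {s | β.2 < d.g (s, β.1)}) →
      0 ≤ ∫ z in {t | α.2 < d.f (t, α.1)} ×ˢ {s | β.2 < d.g (s, β.1)}, H ((α, z.1), (β, z.2))) :
    0 ≤ ∫ z, H z ∂(MM d ν) := by
  have hf := lay_measurableSet_sub h.hV.cont_f
  have hg : MeasurableSet (sub d.g) := lay_measurableSet_sub h.hU.cont_f
  obtain ⟨e, he, hev⟩ := lay_rearr (ν.prod (volume : Measure ℝ)) (volume : Measure ℝ)
    (ν.prod (volume : Measure ℝ)) (volume : Measure ℝ)
  have hs := hf.prod hg
  have he' := he.restrict_preimage hs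
  rw [MM, Measure.prod_restrict, mX] at hH ⊢
  rw [← he'.integral_comp e.measurableEmbedding]
  obtain ⟨h1, h2⟩ := lay_sect (e.measurable hs) ((he'.integrable_comp_emb e.measurableEmbedding).2 hH)
  refine le_of_le_of_eq (integral_nonneg_of_ae ?_) h1.symm
  have h3 : ∀ᵐ z : (S × ℝ) × (S × ℝ) ∂((ν.prod volume).prod (ν.prod volume)), d.l z.1.1 z.2.1 < 1 := by
    have hl : Measurable fun z : (S × ℝ) × (S × ℝ) => d.l z.1.1 z.2.1 :=
      (h.com.lcont.comp (f := fun z : (S × ℝ) × (S × ℝ) => (z.1.1, z.2.1)) (by fun_prop)).measurable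
    rw [Measure.ae_prod_iff_ae_ae (measurableSet_lt hl measurable_const)]
    exact Eventually.of_forall fun α =>
      Measure.quasiMeasurePreserving_fst.ae (h.com.llt α.1)
  filter_upwards [h2, h3] with z hz hl
  obtain ⟨α, β⟩ := z
  simp only [Pi.zero_apply, Function.comp_apply, hev] at hz ⊢
  by_cases hαβ : 0 < α.2 ∧ 0 < β.2
  · have : Prod.mk (α, β) ⁻¹' (e ⁻¹' sub d.f ×ˢ sub d.g) =
        {t | α.2 < d.f (t, α.1)} ×ˢ {s | β.2 < d.g (s, β.1)} := by
      ext z
      simp [hev, sub, pt, hαβ.1, hαβ.2]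
    rw [this] at hz ⊢
    exact h0 α β hl hαβ.1 hαβ.2 hz
  · have : Prod.mk (α, β) ⁻¹' (e ⁻¹' sub d.f ×ˢ sub d.g) = ∅ := by
      ext z
      simp only [mem_preimage, hev, mem_prod, sub, mem_setOf_eq, mem_empty_iff_false, iff_false]
      exact fun hh => hαβ ⟨hh.1.1, hh.2.1⟩
    rw [this]
    simp

/-- Integrate over the ray first. -/
theorem integral_sub_eq_zero {F : ℝ × S → ℝ} (hF : Continuous F) {H : Xs S → ℝ}
    (hH : Integrable H ((mX ν).restrict (sub F)))
    (h0 : ∀ α : S × ℝ, 0 < α.2 → IntegrableOn (fun t => H (α, t)) {t | α.2 < F (t, α.1)} →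
      ∫ t in {t | α.2 < F (t, α.1)}, H (α, t) = 0) :
    ∫ ξ, H ξ ∂((mX ν).restrict (sub F)) = 0 := by
  obtain ⟨h1, h2⟩ := lay_sect (lay_measurableSet_sub hF) hH
  refine h1.trans (integral_eq_zero_of_ae ?_)
  filter_upwards [h2] with α hα
  by_cases h : 0 < α.2
  · have : Prod.mk α ⁻¹' sub F = {t | α.2 < F (t, α.1)} := by
      ext t
      simp [sub, pt, h]
    rw [this] at hα ⊢
    exact h0 α h hα
  · have : Prod.mk α ⁻¹' sub F = ∅ := by
      ext t
      simp [sub, h]
    rw [this]
    simp

end Crest.Agent.R77
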