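import Crest.Agent.R77.Pair
import Crest.Agent.R77.Layer
set_option autoImplicit false

noncomputable section

namespace Crest.Agent.R77

open MeasureTheory Set Filter Topology
open scoped ENNReal

variable {S : Type} [MetricSpace S] [CompactSpace S] [MeasurableSpace S] [BorelSpace S] [Nonempty S]
  {ν : Measure S} [IsFiniteMeasure ν] [ν.IsOpenPosMeasure] {d : Dat S}

theorem nu_pos (ν : Measure S) [IsFiniteMeasure ν] [ν.IsOpenPosMeasure] : 0 < ν.real univ := by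
  have h1 : ν univ ≠ 0 := isOpen_univ.measure_ne_zero ν univ_nonempty
  exact ENNReal.toReal_pos h1 (measure_ne_top ν _)

theorem low_bound {F : ℝ × S → ℝ} {m α β : ℝ} (hm : 0 ≤ m) (hαβ : α ≤ β)
    (hF : ∀ x : ℝ × S, x.1 ∈ Ioo α β → m ≤ F x) :
    ENNReal.ofReal (m * (β - α) * ν.real univ) ≤ ∫⁻ x in Iic β ×ˢ univ, ENNReal.ofReal (F x) ∂(volume.prod ν) := by
  have hms : MeasurableSet (Ioo α β ×ˢ (univ : Set S)) := measurableSet_Ioo.prod MeasurableSet.univ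
  calc ENNReal.ofReal (m * (β - α) * ν.real univ)
      = ∫⁻ _ in Ioo α β ×ˢ (univ : Set S), ENNReal.ofReal m ∂(volume.prod ν) := by
        rw [setLIntegral_const, Measure.prod_prod, Real.volume_Ioo, ENNReal.ofReal_mul (mul_nonneg hm (by linarith)),
          ENNReal.ofReal_mul hm, ofReal_measureReal, mul_assoc]
    _ ≤ ∫⁻ x in Ioo α β ×ˢ (univ : Set S), ENNReal.ofReal (F x) ∂(volume.prod ν) :=
        setLIntegral_mono' hms fun x hx => ENNReal.ofReal_le_ofReal (hF x hx.1)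
    _ ≤ _ := lintegral_mono_set (prod_mono (fun t ht => ht.2.le) subset_rfl)

theorem mass_arith {p q a b μ C c₁ c₂ : ℝ} (hp : 0 < p) (hq : 0 < q) (hμ : 0 < μ) (hδ : 0 < a + b)
    (hα : 2 * μ < (p + 1) * (a + μ)) (hβ : 2 * μ < (q + 1) * (b + μ)) :
    ∃ K γ : ℝ, 0 < γ ∧ ∀ T x y : ℝ, 0 ≤ T → x ≤ C → y ≤ C → c₁ + ((q + 1) * (b + μ) - 2 * μ) * T + q * x ≤ y →
      c₂ + ((p + 1) * (a + μ) - 2 * μ) * T + p * y ≤ x → x + y + 4 * μ * T ≤ K + (2 * μ - γ) * T := by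
  set α₀ := (p + 1) * (a + μ) - 2 * μ with hα₀
  set β₀ := (q + 1) * (b + μ) - 2 * μ with hβ₀
  have hα' : 0 < α₀ := by linarith
  have hβ' : 0 < β₀ := by linarith
  rcases le_or_gt (p * q) 1 with hpq | hpq
  · have hD : 0 < α₀ + p * β₀ := by positivity
    refine ⟨2 * C + (2 * μ + 1) * (((1 - p * q) * C - c₂ - p * c₁) / (α₀ + p * β₀)), 1, one_pos, ?_⟩
    intro T x y hT hx hy h1 h2
    have h3 : p * (c₁ + β₀ * T + q * x) ≤ p * y := mul_le_mul_of_nonneg_left h1 hp.le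
    have h4 : (1 - p * q) * x ≤ (1 - p * q) * C := mul_le_mul_of_nonneg_left hx (by linarith)
    have h5 : T ≤ ((1 - p * q) * C - c₂ - p * c₁) / (α₀ + p * β₀) := by
      rw [le_div_iff₀ hD]; nlinarith
    have h6 := mul_le_mul_of_nonneg_left h5 (show 0 ≤ 2 * μ + 1 by linarith)
    nlinarith
  · have hD : 0 < p * q - 1 := by linarith
    refine ⟨-((c₂ + p * c₁) + (c₁ + q * c₂)) / (p * q - 1), (p + 1) * (q + 1) * (a + b) / (p * q - 1), by positivity, ?_⟩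
    intro T x y hT hx hy h1 h2
    have h3 : p * (c₁ + β₀ * T + q * x) ≤ p * y := mul_le_mul_of_nonneg_left h1 hp.le
    have h4 : q * (c₂ + α₀ * T + p * y) ≤ q * x := mul_le_mul_of_nonneg_left h2 hq.le
    have h5 : (x + y + 2 * μ * T) * (p * q - 1) ≤
        -((c₂ + p * c₁) + (c₁ + q * c₂)) - (p + 1) * (q + 1) * (a + b) * T := by
      have e : (q + 1) * α₀ + (p + 1) * β₀ = (p + 1) * (q + 1) * (a + b) + 2 * μ * (p * q - 1) := by
        rw [hα₀, hβ₀]; ring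
      have e2 : ((q + 1) * α₀ + (p + 1) * β₀) * T = ((p + 1) * (q + 1) * (a + b) + 2 * μ * (p * q - 1)) * T := by
        rw [e]
      nlinarith
    have h6 : x + y + 2 * μ * T ≤
        (-((c₂ + p * c₁) + (c₁ + q * c₂)) - (p + 1) * (q + 1) * (a + b) * T) / (p * q - 1) := by
      rw [le_div_iff₀ hD]; exact h5
    have e3 : (-((c₂ + p * c₁) + (c₁ + q * c₂)) - (p + 1) * (q + 1) * (a + b) * T) / (p * q - 1) =
        -((c₂ + p * c₁) + (c₁ + q * c₂)) / (p * q - 1) - (p + 1) * (q + 1) * (a + b) / (p * q - 1) * T := by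
      field_simp
    rw [e3] at h6
    linarith

/-- the mass of `f` up to time `T` -/
def mass (d : Dat S) (ν : Measure S) (T : ℝ) : ℝ≥0∞ :=
  ∫⁻ x in Iic T ×ˢ univ, ENNReal.ofReal (Real.exp ((d.a + d.μ) * x.1) * d.f x) ∂(volume.prod ν)

/-- lower bound for `U` through `k_ge` (valid for `ν`-a.e. direction) -/
theorem Ok.kb_le (h : Ok d ν) (y : ℝ × S) :
    ∫⁻ x, ENNReal.ofReal ((4 : ℝ) ^ (-d.μ) * (d.kb x y * d.f x)) ∂(volume.prod ν) ≤ ENNReal.ofReal (d.c * d.U y) := by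
  have h1 := h.hU.sup y
  refine le_trans (lintegral_mono_ae ?_) h1
  have h2 : ∀ᵐ x ∂((volume : Measure ℝ).prod ν), d.l y.2 x.2 < 1 :=
    Measure.quasiMeasurePreserving_snd.ae (h.com.llt y.2)
  filter_upwards [h2] with x hx
  apply ENNReal.ofReal_le_ofReal
  rw [h.com.swap_k, Dat.swap_g, ← mul_assoc]
  refine mul_le_mul_of_nonneg_right ?_ (h.hV.f_pos x).le
  exact k_ge _ _ _ _ h.com.μpos (h.com.lge _ _) (by rw [h.com.lsymm]; exact hx)

theorem Ok.kb_low (h : Ok d ν) (y : ℝ × S) {m α β : ℝ} (hm : 0 ≤ m) (hαβ : α ≤ β)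
    (hF : ∀ x : ℝ × S, x.1 ∈ Ioo α β → m ≤ d.kb x y * d.f x) :
    (4 : ℝ) ^ (-d.μ) * m * (β - α) * ν.real univ ≤ d.c * d.U y := by
  have h4 : (0 : ℝ) < (4 : ℝ) ^ (-d.μ) := by positivity
  have h1 := low_bound (ν := ν) (F := fun x => (4 : ℝ) ^ (-d.μ) * (d.kb x y * d.f x)) (m := (4 : ℝ) ^ (-d.μ) * m)
    (by positivity) hαβ fun x hx => mul_le_mul_of_nonneg_left (hF x hx) h4.le
  have h2 := h1.trans ((setLIntegral_le_lintegral _ _).trans (h.kb_le y))
  have h3 : 0 ≤ d.c * d.U y := mul_nonneg h.com.cpos.le (h.hU.pos y).le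
  exact (ENNReal.ofReal_le_ofReal_iff h3).1 h2

theorem rpow_low {κ θ t v p : ℝ} (hκ : 0 < κ) (hp : 0 < p) (h : κ * Real.exp (θ * t) ≤ v) :
    κ ^ p * Real.exp (p * θ * t) ≤ v ^ p := by
  have h1 := Real.rpow_le_rpow (by positivity) h hp.le
  rwa [Real.mul_rpow hκ.le (Real.exp_pos _).le, ← Real.exp_mul, show θ * t * p = p * θ * t by ring] at h1

/-- (`A > -2`.) For `s < t < 0`: `kb = e^{(b+μ)s} e^{(a-μ)t}`, `f ≥ κ^p e^{p(a+μ)t}`, `U ≤ C e^{(b+μ)s}`, so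
`∫_s^0 e^{((p+1)(a+μ) - 2μ) t} dt` stays bounded as `s → -∞`. -/
theorem Ok.exp_pos (h : Ok d ν) : 2 * d.μ < (d.p + 1) * (d.a + d.μ) := by
  by_contra hcon
  push Not at hcon
  obtain ⟨κ, hκ, hlo⟩ := h.hV.lo
  obtain ⟨C, hC⟩ := h.hU.up 0
  obtain ⟨ω⟩ := ‹Nonempty S›
  have hN := nu_pos ν
  have h4 : (0 : ℝ) < (4 : ℝ) ^ (-d.μ) := by positivity
  have hκp : 0 < κ ^ d.p := Real.rpow_pos_of_pos hκ _
  have key : ∀ R : ℝ, 0 ≤ R → (4 : ℝ) ^ (-d.μ) * κ ^ d.p * ν.real univ * R ≤ d.c * C := by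
    intro R hR
    have hE := Real.exp_pos ((d.b + d.μ) * (-R))
    have h1 := h.kb_low (-R, ω) (m := κ ^ d.p * Real.exp ((d.b + d.μ) * (-R))) (α := -R) (β := 0) (by positivity)
      (by linarith) (fun x hx => by
        have h2 := rpow_low hκ h.hV.ppos (hlo x hx.2.le)
        have h3 : Real.exp ((d.b + d.μ) * (-R)) ≤ d.kb x (-R, ω) * Real.exp (d.p * (d.a + d.μ) * x.1) := by
          simp only [Dat.kb, Kb]
          rw [← Real.exp_add, abs_of_pos (by linarith [hx.1])]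
          apply Real.exp_le_exp.2
          have := mul_nonneg_of_nonpos_of_nonpos (show (d.p + 1) * (d.a + d.μ) - 2 * d.μ ≤ 0 by linarith) hx.2.le
          nlinarith
        have h5 : 0 < d.kb x (-R, ω) := Kb_pos _ _ _ _ _
        calc κ ^ d.p * Real.exp ((d.b + d.μ) * (-R))
            ≤ κ ^ d.p * (d.kb x (-R, ω) * Real.exp (d.p * (d.a + d.μ) * x.1)) := by gcongr
          _ = d.kb x (-R, ω) * (κ ^ d.p * Real.exp (d.p * (d.a + d.μ) * x.1)) := by ring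
          _ ≤ d.kb x (-R, ω) * d.f x := mul_le_mul_of_nonneg_left h2 h5.le)
    have h6 : d.U (-R, ω) ≤ C * Real.exp ((d.b + d.μ) * (-R)) := hC (-R, ω) (by simpa using hR)
    have h7 := h1.trans (mul_le_mul_of_nonneg_left h6 h.com.cpos.le)
    have h8 : ((4 : ℝ) ^ (-d.μ) * κ ^ d.p * ν.real univ * R) * Real.exp ((d.b + d.μ) * (-R)) ≤
        (d.c * C) * Real.exp ((d.b + d.μ) * (-R)) := by
      calc _ = (4 : ℝ) ^ (-d.μ) * (κ ^ d.p * Real.exp ((d.b + d.μ) * (-R))) * (0 - -R) * ν.real univ := by ring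
        _ ≤ _ := h7
        _ = _ := by ring
    exact le_of_mul_le_mul_right h8 hE
  have hD : 0 < (4 : ℝ) ^ (-d.μ) * κ ^ d.p * ν.real univ := by positivity
  have h9 := key ((|d.c * C| + 1) / ((4 : ℝ) ^ (-d.μ) * κ ^ d.p * ν.real univ)) (by positivity)
  rw [mul_div_cancel₀ _ hD.ne'] at h9
  linarith [le_abs_self (d.c * C)]

/-- as in `exp_pos`, now `∫_0^R e^{((p+1)(a+μ) - 2μ) t} dt ≥ R` stays bounded as `R → ∞` (take `s = 0`) -/
theorem Ok.no_lower (h : Ok d ν) {κ : ℝ} (hκ : 0 < κ) (hV : ∀ x : ℝ × S, κ * Real.exp ((d.a + d.μ) * x.1) ≤ d.V x) :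
    False := by
  obtain ⟨ω⟩ := ‹Nonempty S›
  have hN := nu_pos ν
  have hex := h.exp_pos
  have h4 : (0 : ℝ) < (4 : ℝ) ^ (-d.μ) := by positivity
  have hκp : 0 < κ ^ d.p := Real.rpow_pos_of_pos hκ _
  have key : ∀ R : ℝ, 0 ≤ R → (4 : ℝ) ^ (-d.μ) * κ ^ d.p * ν.real univ * R ≤ d.c * d.U (0, ω) := by
    intro R hR
    have h1 := h.kb_low (0, ω) (m := κ ^ d.p) (α := 0) (β := R) hκp.le hR (fun x hx => by
        have h2 := rpow_low hκ h.hV.ppos (hV x)
        have h3 : 1 ≤ d.kb x (0, ω) * Real.exp (d.p * (d.a + d.μ) * x.1) := by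
          simp only [Dat.kb, Kb]
          rw [← Real.exp_add, abs_of_pos (by linarith [hx.1])]
          apply Real.one_le_exp
          have := mul_nonneg (show 0 ≤ (d.p + 1) * (d.a + d.μ) - 2 * d.μ by linarith) hx.1.le
          nlinarith
        have h5 : 0 < d.kb x (0, ω) := Kb_pos _ _ _ _ _
        calc κ ^ d.p = κ ^ d.p * 1 := (mul_one _).symm
          _ ≤ κ ^ d.p * (d.kb x (0, ω) * Real.exp (d.p * (d.a + d.μ) * x.1)) := by gcongr
          _ = d.kb x (0, ω) * (κ ^ d.p * Real.exp (d.p * (d.a + d.μ) * x.1)) := by ring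
          _ ≤ d.kb x (0, ω) * d.f x := mul_le_mul_of_nonneg_left h2 h5.le)
    calc _ = (4 : ℝ) ^ (-d.μ) * κ ^ d.p * (R - 0) * ν.real univ := by ring
      _ ≤ _ := h1
  have hD : 0 < (4 : ℝ) ^ (-d.μ) * κ ^ d.p * ν.real univ := by positivity
  have h9 := key ((|d.c * d.U (0, ω)| + 1) / ((4 : ℝ) ^ (-d.μ) * κ ^ d.p * ν.real univ)) (by positivity)
  rw [mul_div_cancel₀ _ hD.ne'] at h9
  linarith [le_abs_self (d.c * d.U (0, ω))]

theorem Ok.mass_le_left (h : Ok d ν) (T₀ : ℝ) : ∃ C : ℝ, ∀ T ≤ T₀,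
    mass d ν T ≤ ENNReal.ofReal (C * Real.exp ((d.p + 1) * (d.a + d.μ) * T)) := by
  obtain ⟨C, hC⟩ := h.hV.up T₀
  have hex := h.exp_pos
  have hθ : 0 < (d.p + 1) * (d.a + d.μ) := by linarith [h.com.μpos]
  set θ := (d.p + 1) * (d.a + d.μ) with hθd
  have hN := nu_pos ν
  have hCp : 0 ≤ |C| ^ d.p := Real.rpow_nonneg (abs_nonneg _) _
  refine ⟨|C| ^ d.p * ν.real univ / θ, fun T hT => ?_⟩
  have hms : MeasurableSet (Iic T ×ˢ (univ : Set S)) := measurableSet_Iic.prod MeasurableSet.univ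
  calc mass d ν T ≤ ∫⁻ x in Iic T ×ˢ (univ : Set S), ENNReal.ofReal (|C| ^ d.p * Real.exp (θ * x.1)) * 1
        ∂(volume.prod ν) := by
        refine setLIntegral_mono' hms fun x hx => ?_
        rw [mul_one]
        apply ENNReal.ofReal_le_ofReal
        have h1 : d.V x ≤ |C| * Real.exp ((d.a + d.μ) * x.1) :=
          (hC x (le_trans hx.1 hT)).trans (mul_le_mul_of_nonneg_right (le_abs_self C) (Real.exp_pos _).le)
        have h2 := Real.rpow_le_rpow (h.hV.pos x).le h1 h.hV.ppos.le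
        rw [Real.mul_rpow (abs_nonneg C) (Real.exp_pos _).le, ← Real.exp_mul] at h2
        calc Real.exp ((d.a + d.μ) * x.1) * d.f x
            ≤ Real.exp ((d.a + d.μ) * x.1) * (|C| ^ d.p * Real.exp ((d.a + d.μ) * x.1 * d.p)) :=
              mul_le_mul_of_nonneg_left h2 (Real.exp_pos _).le
          _ = |C| ^ d.p * Real.exp (θ * x.1) := by
              rw [mul_left_comm, ← Real.exp_add, hθd]; congr 2; ring
    _ = (∫⁻ t in Iic T, ENNReal.ofReal (|C| ^ d.p * Real.exp (θ * t))) * ∫⁻ _ in (univ : Set S), 1 ∂ν := by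
        rw [← Measure.prod_restrict]
        exact lintegral_prod_mul (f := fun t => ENNReal.ofReal (|C| ^ d.p * Real.exp (θ * t))) (g := fun _ => 1)
          (by fun_prop) (by fun_prop)
    _ = _ := by
        rw [← ofReal_integral_eq_lintegral_ofReal ((integrableOn_exp_mul_Iic hθ T).const_mul _)
          (ae_of_all _ fun t => by positivity), integral_const_mul, integral_exp_mul_Iic hθ, setLIntegral_const, one_mul,
          ← ofReal_measureReal (μ := ν) (s := univ), ← ENNReal.ofReal_mul (by positivity)]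
        congr 1
        ring

theorem Ok.mass_ne_top (h : Ok d ν) (T : ℝ) : mass d ν T ≠ ⊤ := by
  obtain ⟨C, hC⟩ := h.mass_le_left T
  exact ne_top_of_le_ne_top ENNReal.ofReal_ne_top (hC T le_rfl)

theorem Ok.mass_key (h : Ok d ν) {T : ℝ} (y : ℝ × S) (hy : y.1 ≤ T) :
    (4 : ℝ) ^ (-d.μ) * Real.exp ((d.b + d.μ) * y.1 - 2 * d.μ * T) * (mass d ν T).toReal ≤ d.c * d.U y := by
  have h4 : (0 : ℝ) < (4 : ℝ) ^ (-d.μ) := by positivity
  have hms : MeasurableSet (Iic T ×ˢ (univ : Set S)) := measurableSet_Iic.prod MeasurableSet.univ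
  have h3 : 0 ≤ d.c * d.U y := mul_nonneg h.com.cpos.le (h.hU.pos y).le
  rw [← ENNReal.ofReal_le_ofReal_iff h3, ENNReal.ofReal_mul (by positivity), ENNReal.ofReal_toReal (h.mass_ne_top T)]
  refine le_trans ?_ ((setLIntegral_le_lintegral (Iic T ×ˢ (univ : Set S)) _).trans (h.kb_le y))
  rw [mass, ← lintegral_const_mul' _ _ ENNReal.ofReal_ne_top]
  refine setLIntegral_mono' hms fun x hx => ?_
  rw [← ENNReal.ofReal_mul (by positivity)]
  apply ENNReal.ofReal_le_ofReal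
  rw [mul_assoc, ← mul_assoc (Real.exp _), ← Real.exp_add]
  refine mul_le_mul_of_nonneg_left (mul_le_mul_of_nonneg_right ?_ (h.hV.f_pos x).le) h4.le
  simp only [Dat.kb, Kb]
  apply Real.exp_le_exp.2
  have hx1 : x.1 ≤ T := hx.1
  have h5 : |x.1 - y.1| ≤ 2 * T - x.1 - y.1 := abs_le.2 ⟨by linarith, by linarith⟩
  have := mul_le_mul_of_nonneg_left h5 h.com.μpos.le
  nlinarith

theorem Ok.mass_log_le (h : Ok d ν) : ∃ C : ℝ, ∀ T : ℝ, 0 ≤ T → 0 < (mass d ν T).toReal →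
    Real.log (mass d ν T).toReal - 2 * d.μ * T ≤ C := by
  obtain ⟨ω⟩ := ‹Nonempty S›
  have h4 : (0 : ℝ) < (4 : ℝ) ^ (-d.μ) := by positivity
  refine ⟨Real.log (d.c * d.U (0, ω)) - Real.log ((4 : ℝ) ^ (-d.μ)), fun T hT hM => ?_⟩
  have h1 := h.mass_key (0, ω) hT
  have h2 := Real.log_le_log (by positivity) h1
  rw [Real.log_mul (by positivity) hM.ne', Real.log_mul h4.ne' (Real.exp_pos _).ne', Real.log_exp] at h2
  simp only [mul_zero] at h2
  linarith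

theorem Ok.mass_log_ge (h : Ok d ν) : ∃ c₁ : ℝ, ∀ T : ℝ, 0 < (mass d ν T).toReal →
    c₁ + ((d.q + 1) * (d.b + d.μ) - 2 * d.μ) * T + d.q * (Real.log (mass d ν T).toReal - 2 * d.μ * T) ≤
      Real.log (mass d.swap ν T).toReal - 2 * d.μ * T := by
  have h4 : (0 : ℝ) < (4 : ℝ) ^ (-d.μ) := by positivity
  have hc := h.com.cpos
  have hN := nu_pos ν
  have hq : 0 < d.q := h.hU.ppos
  have hex : 2 * d.μ < (d.q + 1) * (d.b + d.μ) := h.swap.exp_pos
  have hθ : 0 < (d.q + 1) * (d.b + d.μ) := by linarith [h.com.μpos]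
  set k₀ := (4 : ℝ) ^ (-d.μ) / d.c with hk₀
  have hk : 0 < k₀ := by positivity
  refine ⟨d.q * Real.log k₀ - (d.q + 1) * (d.b + d.μ) + Real.log (ν.real univ), fun T hM => ?_⟩
  set M := (mass d ν T).toReal with hMd
  set E := d.q * Real.log k₀ + d.q * Real.log M + (d.q + 1) * (d.b + d.μ) * (T - 1) - 2 * d.μ * d.q * T with hE
  have h1 := low_bound (ν := ν) (F := fun y => Real.exp ((d.swap.a + d.swap.μ) * y.1) * d.swap.f y) (m := Real.exp E)
    (α := T - 1) (β := T) (Real.exp_pos _).le (by linarith) (fun y hy => by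
      have h2 := h.mass_key y hy.2.le
      have hU : 0 < d.U y := h.hU.pos y
      have h3 : k₀ * Real.exp ((d.b + d.μ) * y.1 - 2 * d.μ * T) * M ≤ d.U y := by
        rw [hk₀, div_mul_eq_mul_div, div_mul_eq_mul_div, div_le_iff₀ hc]
        linarith
      have h5 := Real.log_le_log (by positivity) h3
      rw [Real.log_mul (by positivity) hM.ne', Real.log_mul hk.ne' (Real.exp_pos _).ne', Real.log_exp] at h5
      show Real.exp E ≤ Real.exp ((d.b + d.μ) * y.1) * d.U y ^ d.q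
      rw [Real.rpow_def_of_pos hU, ← Real.exp_add]
      apply Real.exp_le_exp.2
      have h6 := mul_le_mul_of_nonneg_left h5 hq.le
      have h7 := mul_le_mul_of_nonneg_left hy.1.le hθ.le
      rw [hE]
      nlinarith)
  have h8 : Real.exp E * (T - (T - 1)) * ν.real univ ≤ (mass d.swap ν T).toReal :=
    (ENNReal.ofReal_le_iff_le_toReal (h.swap.mass_ne_top T)).1 h1
  rw [show T - (T - 1) = 1 by ring, mul_one] at h8
  have h9 := Real.log_le_log (by positivity) h8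
  rw [Real.log_mul (Real.exp_pos _).ne' hN.ne', Real.log_exp, hE] at h9
  nlinarith

/-- Put `A T = e^{-2μT} mass d T`, `B T = e^{-2μT} mass d.swap T` (finite, positive). For `s, t ≤ T`:
`kb ≥ e^{(a+μ)t + (b+μ)s - 2μT}`, so `c U (s, ω) ≥ 4^{-μ} e^{(b+μ)s} A T`. Hence `A T ≤ C` for `T ≥ 0` (take `s = 0`) and, integrating over
`s ∈ [T-1, T]`, `B T ≥ c₁ e^{β₀ T} (A T)^q`, `β₀ = (q+1)(b+μ) - 2μ > 0`; symmetrically `A ≥ c₂ e^{α₀ T} B^p`. So
`A ≥ c₃ e^{(α₀ + pβ₀)T} A^{pq}`: impossible for large `T` if `pq ≤ 1`; if `pq > 1`, `A ≤ C e^{-αT}`, `α = (α₀ + pβ₀)/(pq-1)`,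
`B ≤ C e^{-βT}`, `β = (β₀ + qα₀)/(pq-1)`, and `α + β - 2μ = (p+1)(q+1)(a+b)/(pq-1) > 0`. -/
theorem Ok.mass_mul_le (h : Ok d ν) : ∃ C γ : ℝ, 0 < γ ∧ ∀ T : ℝ, 0 ≤ T →
    mass d ν T * mass d.swap ν T ≤ ENNReal.ofReal (C * Real.exp ((2 * d.μ - γ) * T)) := by
  obtain ⟨C₁, hC₁⟩ := h.mass_log_le
  obtain ⟨C₂, hC₂⟩ := h.swap.mass_log_le
  obtain ⟨c₁, hc₁⟩ := h.mass_log_ge
  obtain ⟨c₂, hc₂⟩ := h.swap.mass_log_ge
  obtain ⟨K, γ, hγ, hK⟩ := mass_arith (C := max C₁ C₂) (c₁ := c₁) (c₂ := c₂) h.hV.ppos (show 0 < d.q from h.hU.ppos)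
    h.com.μpos h.com.δpos h.exp_pos h.swap.exp_pos
  refine ⟨Real.exp K, γ, hγ, fun T hT => ?_⟩
  rw [← ENNReal.ofReal_toReal (h.mass_ne_top T), ← ENNReal.ofReal_toReal (h.swap.mass_ne_top T),
    ← ENNReal.ofReal_mul ENNReal.toReal_nonneg]
  apply ENNReal.ofReal_le_ofReal
  rcases (ENNReal.toReal_nonneg (a := mass d ν T)).eq_or_lt with h1 | h1
  · rw [← h1, zero_mul]; positivity
  rcases (ENNReal.toReal_nonneg (a := mass d.swap ν T)).eq_or_lt with h2 | h2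
  · rw [← h2, mul_zero]; positivity
  have h3 := hK T _ _ hT ((hC₁ T hT h1).trans (le_max_left _ _)) ((hC₂ T hT h2).trans (le_max_right _ _))
    (hc₁ T h1) (hc₂ T h2)
  rw [← Real.exp_add, ← Real.exp_log h1, ← Real.exp_log h2, ← Real.exp_add]
  apply Real.exp_le_exp.2
  have e : d.swap.μ = d.μ := rfl
  rw [e] at h3
  linarith

end Crest.Agent.R77
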