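import Crest.Agent.R77.Defs
set_option autoImplicit false

noncomputable section

namespace Crest.Agent.R77

open MeasureTheory Set Filter Topology
open scoped ENNReal

namespace NearAux

/-- the weighted kernel -/
def kk (K : ℝ → ℝ) (b z : ℝ) : ℝ := Real.exp (-b * z) * K z

/-- primitive -/
def PP (g : ℝ → ℝ) (x : ℝ) : ℝ := ∫ z in (0 : ℝ)..x, g z

theorem hasDerivAt_PP {g : ℝ → ℝ} (hg : Continuous g) (x : ℝ) : HasDerivAt (PP g) (g x) x :=
  (hg.integral_hasStrictDerivAt 0 x).hasDerivAt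

theorem continuous_PP {g : ℝ → ℝ} (hg : Continuous g) : Continuous (PP g) :=
  continuous_iff_continuousAt.2 fun x => (hasDerivAt_PP hg x).continuousAt

theorem PP_sub {g : ℝ → ℝ} (hg : Continuous g) (α β : ℝ) : PP g β - PP g α = ∫ z in α..β, g z :=
  intervalIntegral.integral_interval_sub_left (hg.intervalIntegrable _ _) (hg.intervalIntegrable _ _)

theorem PP_mono {g : ℝ → ℝ} (hg : Continuous g) (h0 : ∀ z, 0 ≤ g z) {α β : ℝ} (h : α ≤ β) : PP g α ≤ PP g β := by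
  have h1 := PP_sub hg α β
  have h2 : 0 ≤ ∫ z in α..β, g z := intervalIntegral.integral_nonneg h fun z _ => h0 z
  linarith

theorem PP_eq {g : ℝ → ℝ} (hg : Continuous g) {α β : ℝ} (h0 : ∀ z ∈ uIcc α β, g z = 0) : PP g α = PP g β := by
  have h1 := PP_sub hg α β
  rw [intervalIntegral.integral_congr (g := fun _ => (0 : ℝ)) h0] at h1
  simp only [intervalIntegral.integral_zero] at h1
  linarith

theorem PP_neg_even {g : ℝ → ℝ} (he : ∀ z, g (-z) = g z) (x : ℝ) : PP g (-x) = -PP g x := by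
  have h1 := intervalIntegral.integral_comp_neg (f := g) (a := 0) (b := x)
  simp only [he, neg_zero] at h1
  unfold PP
  rw [h1, intervalIntegral.integral_symm]

theorem PP_neg_odd {g : ℝ → ℝ} (he : ∀ z, g (-z) = -g z) (x : ℝ) : PP g (-x) = PP g x := by
  have h1 := intervalIntegral.integral_comp_neg (f := g) (a := 0) (b := x)
  simp only [he, neg_zero, intervalIntegral.integral_neg] at h1
  unfold PP
  rw [intervalIntegral.integral_symm, ← h1, neg_neg]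

variable {K : ℝ → ℝ} {η : ℝ}

theorem cont_kk (hK : NearK K η) (b : ℝ) : Continuous (kk K b) := by
  have := hK.cont
  unfold kk; fun_prop

theorem kk_nonneg (hK : NearK K η) (b z : ℝ) : 0 ≤ kk K b z := mul_nonneg (Real.exp_pos _).le (hK.nonneg z)

theorem kk_zero (hK : NearK K η) (b : ℝ) {z : ℝ} (hz : η ≤ |z|) : kk K b z = 0 := by
  simp [kk, hK.supp z hz]

theorem K_abs (hK : NearK K η) (z : ℝ) : K |z| = K z := by
  rcases abs_choice z with h | h <;> rw [h]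
  exact hK.even z

theorem K_mono (hK : NearK K η) {z w : ℝ} (h : |z| ≤ |w|) : K w ≤ K z := by
  rw [← K_abs hK z, ← K_abs hK w]
  exact hK.anti (abs_nonneg z) (abs_nonneg w) h

theorem mul_le_PP (hK : NearK K η) {α β w : ℝ} (hαβ : α ≤ β) (h : ∀ z ∈ Icc α β, |z| ≤ |w|) :
    (β - α) * K w ≤ PP K β - PP K α := by
  rw [PP_sub hK.cont]
  have := intervalIntegral.integral_mono_on (μ := volume) hαβ (f := fun _ => K w) (g := K) intervalIntegrable_const
    (hK.cont.intervalIntegrable _ _) fun z hz => K_mono hK (h z hz)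
  simpa using this

theorem phi_eq (hK : NearK K η) (a b s₁ s₂ t : ℝ) :
    PhiN K a b s₁ s₂ t = Real.exp ((a + b) * t) * (PP (kk K b) (t - s₁) - PP (kk K b) (t - s₂)) := by
  rw [PP_sub (cont_kk hK b), ← intervalIntegral.integral_comp_sub_left (kk K b) t, ← intervalIntegral.integral_const_mul]
  unfold PhiN kk
  congr 1
  ext s
  rw [← mul_assoc, ← Real.exp_add]
  congr 2
  ring

theorem PP_left (hK : NearK K η) (hη : 0 < η) (b : ℝ) {x : ℝ} (hx : x ≤ -η) : PP (kk K b) x = PP (kk K b) (-η) := by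
  refine PP_eq (cont_kk hK b) fun z hz => kk_zero hK b ?_
  rw [uIcc_of_le hx] at hz
  rw [abs_of_neg (by linarith [hz.2])]
  linarith [hz.2]

theorem PP_right (hK : NearK K η) (hη : 0 < η) (b : ℝ) {x : ℝ} (hx : η ≤ x) : PP (kk K b) x = PP (kk K b) η := by
  refine PP_eq (cont_kk hK b) fun z hz => kk_zero hK b ?_
  rw [uIcc_of_ge hx] at hz
  rw [abs_of_pos (by linarith [hz.1])]
  exact hz.1

theorem PP_ge (hK : NearK K η) (hη : 0 < η) (b x : ℝ) : PP (kk K b) (-η) ≤ PP (kk K b) x := by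
  rcases le_total x (-η) with h | h
  · exact (PP_left hK hη b h).ge
  · exact PP_mono (cont_kk hK b) (kk_nonneg hK b) h

theorem PP_le (hK : NearK K η) (hη : 0 < η) (b x : ℝ) : PP (kk K b) x ≤ PP (kk K b) η := by
  rcases le_total η x with h | h
  · exact (PP_right hK hη b h).le
  · exact PP_mono (cont_kk hK b) (kk_nonneg hK b) h

theorem F_nonneg (hK : NearK K η) (b : ℝ) {s₁ s₂ : ℝ} (hs : s₁ ≤ s₂) (t : ℝ) :
    0 ≤ PP (kk K b) (t - s₁) - PP (kk K b) (t - s₂) :=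
  sub_nonneg.2 (PP_mono (cont_kk hK b) (kk_nonneg hK b) (by linarith))

theorem phi_nonneg (hK : NearK K η) (a b : ℝ) {s₁ s₂ : ℝ} (hs : s₁ ≤ s₂) (t : ℝ) : 0 ≤ PhiN K a b s₁ s₂ t := by
  rw [phi_eq hK]
  exact mul_nonneg (Real.exp_pos _).le (F_nonneg hK b hs t)

theorem cont_phi (hK : NearK K η) (a b s₁ s₂ : ℝ) : Continuous (PhiN K a b s₁ s₂) := by
  have h : PhiN K a b s₁ s₂ = fun t => Real.exp ((a + b) * t) * (PP (kk K b) (t - s₁) - PP (kk K b) (t - s₂)) :=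
    funext (phi_eq hK a b s₁ s₂)
  have := continuous_PP (cont_kk hK b)
  rw [h]; fun_prop

theorem exp_lip (b : ℝ) {z w : ℝ} (hw : |w| ≤ 1) :
    -(|b| * Real.exp |b| * |z - w|) ≤ Real.exp (-b * z) - Real.exp (-b * w) := by
  have h1 : Real.exp (-b * z) = Real.exp (-b * w) * Real.exp (-b * (z - w)) := by
    rw [← Real.exp_add]; congr 1; ring
  have h2 := Real.add_one_le_exp (-b * (z - w))
  have h3 : -(|b| * |z - w|) ≤ -b * (z - w) := by
    rw [← abs_mul]; linarith [le_abs_self (b * (z - w))]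
  have h4 : Real.exp (-b * w) ≤ Real.exp |b| := by
    apply Real.exp_le_exp.2
    have h5 : |b * w| ≤ |b| := by
      rw [abs_mul]; exact mul_le_of_le_one_right (abs_nonneg b) hw
    linarith [neg_abs_le (b * w)]
  have h6 := Real.exp_pos (-b * w)
  have h7 : 0 ≤ |b| * |z - w| := by positivity
  have h8 := mul_le_mul_of_nonneg_right h4 h7
  have h9 := mul_le_mul_of_nonneg_left (show 1 - |b| * |z - w| ≤ Real.exp (-b * (z - w)) by linarith) h6.le
  rw [h1]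
  nlinarith

theorem K_le_kk (hK : NearK K η) (hη : η ≤ 1) (b z : ℝ) : K z ≤ Real.exp |b| * kk K b z := by
  rcases le_or_gt η |z| with h | h
  · rw [kk_zero hK b h, hK.supp z h, mul_zero]
  · unfold kk
    rw [← mul_assoc, ← Real.exp_add]
    refine le_mul_of_one_le_left (hK.nonneg z) (Real.one_le_exp ?_)
    have h5 : |b * z| ≤ |b| := by
      rw [abs_mul]; exact mul_le_of_le_one_right (abs_nonneg b) (by linarith)
    linarith [le_abs_self (b * z)]

/-- the monotone quantity -/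
def Ps (K : ℝ → ℝ) (b s₁ s₂ t : ℝ) : ℝ :=
  PP (kk K b) (t - s₁) - PP (kk K b) (t - s₂) + |b| * Real.exp |b| * (PP (PP K) (t - s₁) - PP (PP K) (t - s₂))

theorem Ps_mono (hK : NearK K η) (hη : η ≤ 1) (b : ℝ) {s₁ s₂ : ℝ} (hs : s₁ ≤ s₂) :
    MonotoneOn (Ps K b s₁ s₂) (Iic ((s₁ + s₂) / 2)) := by
  have hd : ∀ t, HasDerivAt (Ps K b s₁ s₂)
      (kk K b (t - s₁) - kk K b (t - s₂) + |b| * Real.exp |b| * (PP K (t - s₁) - PP K (t - s₂))) t := by
    intro t
    have h1 := (hasDerivAt_PP (cont_kk hK b) (t - s₁)).comp_sub_const t s₁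
    have h2 := (hasDerivAt_PP (cont_kk hK b) (t - s₂)).comp_sub_const t s₂
    have h3 := (hasDerivAt_PP (continuous_PP hK.cont) (t - s₁)).comp_sub_const t s₁
    have h4 := (hasDerivAt_PP (continuous_PP hK.cont) (t - s₂)).comp_sub_const t s₂
    exact (h1.sub h2).add ((h3.sub h4).const_mul _)
  refine monotoneOn_of_deriv_nonneg (convex_Iic _) (fun t _ => (hd t).continuousAt.continuousWithinAt)
    (fun t _ => (hd t).differentiableAt.differentiableWithinAt) fun t ht => ?_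
  rw [(hd t).deriv]
  have ht' : t ≤ (s₁ + s₂) / 2 := mem_Iic.1 (interior_subset ht)
  have hC : 0 ≤ |b| * Real.exp |b| := by positivity
  have habs : ∀ z ∈ Icc (t - s₂) (t - s₁), |z| ≤ |t - s₂| := fun z hz => by
    rw [abs_of_nonpos (show t - s₂ ≤ 0 by linarith)]
    exact abs_le.2 ⟨by linarith [hz.1], by linarith [hz.2]⟩
  have h5 := mul_le_PP hK (show t - s₂ ≤ t - s₁ by linarith) habs
  have h6 := mul_le_mul_of_nonneg_left h5 hC
  rcases le_or_gt η |t - s₂| with h | h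
  · rw [kk_zero hK b h]
    have := kk_nonneg hK b (t - s₁)
    rw [hK.supp _ h] at h6
    linarith
  · have h7 := exp_lip b (z := t - s₁) (w := t - s₂) (by linarith)
    rw [show t - s₁ - (t - s₂) = s₂ - s₁ by ring, abs_of_nonneg (show 0 ≤ s₂ - s₁ by linarith)] at h7
    have h8 : K (t - s₂) ≤ K (t - s₁) := K_mono hK (habs _ ⟨by linarith, le_rfl⟩)
    have h9 := mul_le_mul_of_nonneg_left h8 (Real.exp_pos (-b * (t - s₁))).le
    have h10 := mul_le_mul_of_nonneg_right h7 (hK.nonneg (t - s₂))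
    unfold kk
    nlinarith

/-- the even part -/
def Ev (K : ℝ → ℝ) (b x : ℝ) : ℝ := PP (kk K b) x + PP (kk K b) (-x) + 2 * (|b| * Real.exp |b|) * PP (PP K) x

theorem Ev_neg (hK : NearK K η) (b x : ℝ) : Ev K b (-x) = Ev K b x := by
  unfold Ev
  rw [neg_neg, PP_neg_odd (PP_neg_even hK.even)]
  ring

theorem Ev_mono (hK : NearK K η) (hη : η ≤ 1) (b : ℝ) : MonotoneOn (Ev K b) (Ici 0) := by
  have hd : ∀ x, HasDerivAt (Ev K b) (kk K b x - kk K b (-x) + 2 * (|b| * Real.exp |b|) * PP K x) x := by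
    intro x
    have h1 := hasDerivAt_PP (cont_kk hK b) x
    have h2 := (hasDerivAt_PP (cont_kk hK b) (-x)).comp x (hasDerivAt_neg x)
    have h3 := hasDerivAt_PP (continuous_PP hK.cont) x
    refine HasDerivAt.congr_deriv ((h1.add h2).add (h3.const_mul _)) ?_
    ring
  refine monotoneOn_of_deriv_nonneg (convex_Ici _) (fun t _ => (hd t).continuousAt.continuousWithinAt)
    (fun t _ => (hd t).differentiableAt.differentiableWithinAt) fun x hx => ?_
  rw [(hd x).deriv]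
  have hx' : 0 ≤ x := mem_Ici.1 (interior_subset hx)
  have hC : 0 ≤ |b| * Real.exp |b| := by positivity
  have h5 := mul_le_PP hK (w := x) hx' fun z hz => by
    rw [abs_of_nonneg hz.1, abs_of_nonneg hx']; exact hz.2
  have h0 : PP K 0 = 0 := by simp [PP]
  rw [h0, sub_zero, sub_zero] at h5
  have h6 := mul_le_mul_of_nonneg_left h5 hC
  rcases le_or_gt η |x| with h | h
  · rw [kk_zero hK b h, kk_zero hK b (z := -x) (by rwa [abs_neg])]
    rw [hK.supp _ h] at h6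
    linarith
  · have h7 := exp_lip b (z := x) (w := -x) (by rw [abs_neg]; linarith)
    rw [show x - -x = 2 * x by ring, abs_of_nonneg (show 0 ≤ 2 * x by linarith)] at h7
    have h10 := mul_le_mul_of_nonneg_right h7 (hK.nonneg x)
    unfold kk
    rw [hK.even]
    nlinarith

theorem Ps_sym (hK : NearK K η) (hη : η ≤ 1) (b : ℝ) {s₁ s₂ t : ℝ} (hs : s₁ ≤ s₂) (ht : (s₁ + s₂) / 2 ≤ t) :
    Ps K b s₁ s₂ (s₁ + s₂ - t) ≤ Ps K b s₁ s₂ t := by
  have h1 : Ev K b (t - s₂) ≤ Ev K b (t - s₁) := by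
    have h2 : Ev K b |t - s₂| = Ev K b (t - s₂) := by
      rcases abs_choice (t - s₂) with h | h <;> rw [h]
      exact Ev_neg hK b _
    rw [← h2]
    exact Ev_mono hK hη b (mem_Ici.2 (abs_nonneg _)) (mem_Ici.2 (show 0 ≤ t - s₁ by linarith)) (abs_le.2 ⟨by linarith, by linarith⟩)
  unfold Ev at h1
  unfold Ps
  rw [show s₁ + s₂ - t - s₁ = -(t - s₂) by ring, show s₁ + s₂ - t - s₂ = -(t - s₁) by ring,
    PP_neg_odd (PP_neg_even hK.even), PP_neg_odd (PP_neg_even hK.even)]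
  linarith

theorem Ps_le (hK : NearK K η) (hη : η ≤ 1) (b : ℝ) {s₁ s₂ t₁ t₂ : ℝ} (hs : s₁ ≤ s₂) (ht : t₁ ≤ t₂)
    (h : t₁ + t₂ ≤ s₁ + s₂) : Ps K b s₁ s₂ t₁ ≤ Ps K b s₁ s₂ t₂ := by
  rcases le_total t₂ ((s₁ + s₂) / 2) with h1 | h1
  · exact Ps_mono hK hη b hs (show t₁ ≤ _ by linarith) h1 ht
  · exact (Ps_mono hK hη b hs (show t₁ ≤ _ by linarith) (show s₁ + s₂ - t₂ ≤ _ by linarith) (by linarith)).trans
      (Ps_sym hK hη b hs h1)

end NearAux

open NearAux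

/-- Substituting `z = t - s`: `PhiN t = e^{(a+b)t} F t`, `F t = ∫_{t-s₂}^{t-s₁} k`, `k z = e^{-bz} K z`. For `t ≤ s₂ - η` the lower
limit can be replaced by `-η` (or `min`), so `F` is monotone there. -/
theorem near_end {K : ℝ → ℝ} {η a b t₁ t₂ s₁ s₂ : ℝ} (hK : NearK K η) (hη : 0 < η) (hδ : 0 < a + b) (ht : t₁ < t₂)
    (hs : s₁ < s₂) (h : t₂ ≤ s₂ - η) : PhiN K a b s₁ s₂ t₁ ≤ PhiN K a b s₁ s₂ t₂ := by
  rw [phi_eq hK, phi_eq hK, PP_left hK hη b (x := t₂ - s₂) (by linarith), PP_left hK hη b (x := t₁ - s₂) (by linarith)]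
  refine mul_le_mul (Real.exp_le_exp.2 (by nlinarith)) ?_ (sub_nonneg.2 (PP_ge hK hη b _)) (Real.exp_pos _).le
  exact sub_le_sub_right (PP_mono (cont_kk hK b) (kk_nonneg hK b) (by linarith)) _

/-- Midpoint lemma. It suffices to show `F t₂ - F t₁ ≥ -C ∫_{t₁}^{t₂} F` (`e^{(a+b)t}` is increasing, `F ≥ 0`), and `F ≥ e^{-|b|} F₀`,
`F₀ t = ∫_{s₁}^{s₂} K (t - s) ds`. Let `m = (s₁+s₂)/2`, `L = (s₂-s₁)/2`, `t₀ = min t₂ (2m - t₂) ≥ t₁`.
On `[t₁, t₀] ⊆ (-∞, m]`: `F' t = k (t-s₁) - k (t-s₂) ≥ K (t-s₂) (e^{-b(t-s₁)} - e^{-b(t-s₂)}) ≥ -C (s₂-s₁) K (t-s₂) ≥ -C F₀ t`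
(`|t-s| ≤ s₂-t` for `s ∈ [s₁,s₂]`; if `K (t-s₂) ≠ 0` all arguments are in `[-1,1]`).
On `[m-ℓ, m+ℓ]` (`t₂ = m+ℓ`, `ℓ > 0`): `F (m+ℓ) - F (m-ℓ) = ∫_{ℓ-L}^{ℓ+L} o`, `o z = k z - k (-z)` odd, `|o z| ≤ C |z| K z ≤ C ∫_0^{|z|} K`.
If `ℓ ≥ L` this is `∫_{s₁}^{s₂} o (t₂ - s) ds` with `(t₂-s) K (t₂-s) ≤ ∫_s^{t₂} K (t-s) dt`; if `ℓ < L` it is (oddness)
`∫_{L-ℓ}^{L+ℓ} o = ∫_{m-ℓ}^{m+ℓ} o (t - s₁) dt` with `(t-s₁) K (t-s₁) ≤ ∫_{s₁}^t K (t-s) ds ≤ F₀ t`. -/
theorem near_mid (a b : ℝ) (hδ : 0 < a + b) : ∃ C : ℝ, 0 ≤ C ∧ ∀ (K : ℝ → ℝ) (η t₁ t₂ s₁ s₂ : ℝ), NearK K η → 0 < η →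
    η ≤ 1 → t₁ < t₂ → s₁ < s₂ → t₁ + t₂ ≤ s₁ + s₂ →
    0 ≤ PhiN K a b s₁ s₂ t₂ - PhiN K a b s₁ s₂ t₁ + C * ∫ t in t₁..t₂, PhiN K a b s₁ s₂ t := by
  refine ⟨|b| * Real.exp |b| * Real.exp |b|, by positivity, fun K η t₁ t₂ s₁ s₂ hK hη hη1 ht hs h => ?_⟩
  have h1 := Ps_le hK hη1 b hs.le ht.le h
  have hC : 0 ≤ |b| * Real.exp |b| := by positivity
  have hc0 := continuous_PP hK.cont
  have h2 : ∫ t in t₁..t₂, (PP K (t - s₁) - PP K (t - s₂)) =
      (PP (PP K) (t₂ - s₁) - PP (PP K) (t₂ - s₂)) - (PP (PP K) (t₁ - s₁) - PP (PP K) (t₁ - s₂)) := by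
    refine intervalIntegral.integral_eq_sub_of_hasDerivAt (f := fun t => PP (PP K) (t - s₁) - PP (PP K) (t - s₂))
      (fun t _ => ?_) (Continuous.intervalIntegrable (by fun_prop) _ _)
    exact ((hasDerivAt_PP hc0 (t - s₁)).comp_sub_const t s₁).sub ((hasDerivAt_PP hc0 (t - s₂)).comp_sub_const t s₂)
  have h3 : ∫ t in t₁..t₂, Real.exp ((a + b) * t₁) * (PP K (t - s₁) - PP K (t - s₂)) ≤
      ∫ t in t₁..t₂, Real.exp |b| * PhiN K a b s₁ s₂ t := by
    have := cont_phi hK a b s₁ s₂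
    refine intervalIntegral.integral_mono_on ht.le (Continuous.intervalIntegrable (by fun_prop) _ _)
      (Continuous.intervalIntegrable (by fun_prop) _ _) fun t htt => ?_
    have h4 : PP K (t - s₁) - PP K (t - s₂) ≤ Real.exp |b| * (PP (kk K b) (t - s₁) - PP (kk K b) (t - s₂)) := by
      rw [PP_sub hK.cont, PP_sub (cont_kk hK b), ← intervalIntegral.integral_const_mul]
      have := cont_kk hK b
      exact intervalIntegral.integral_mono_on (by linarith) (hK.cont.intervalIntegrable _ _)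
        (Continuous.intervalIntegrable (by fun_prop) _ _) fun z _ => K_le_kk hK hη1 b z
    rw [phi_eq hK, mul_left_comm]
    exact mul_le_mul (Real.exp_le_exp.2 (by nlinarith [htt.1])) h4
      (sub_nonneg.2 (PP_mono hK.cont hK.nonneg (by linarith))) (Real.exp_pos _).le
  rw [intervalIntegral.integral_const_mul, intervalIntegral.integral_const_mul, h2] at h3
  have h5 : Real.exp ((a + b) * t₁) * (PP (kk K b) (t₂ - s₁) - PP (kk K b) (t₂ - s₂)) ≤ PhiN K a b s₁ s₂ t₂ := by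
    rw [phi_eq hK]
    exact mul_le_mul_of_nonneg_right (Real.exp_le_exp.2 (by nlinarith)) (F_nonneg hK b hs.le _)
  have h6 := mul_le_mul_of_nonneg_left h1 (Real.exp_pos ((a + b) * t₁)).le
  have h7 := mul_le_mul_of_nonneg_left h3 hC
  rw [phi_eq hK a b s₁ s₂ t₁]
  unfold Ps at h6
  nlinarith

/-- `s₂ ≥ T + 2`. If `s₁ ≥ T`, `mid T s₁ s₂` is the true midpoint and `mid T t₁ t₂ ≥ (t₁+t₂)/2`: use `near_mid`, and if the gap is
`≥ η` either `near_end` applies or `t₁ < s₁ - η` and `PhiN t₁ = 0`. If `s₁ < T` then `s₂ ≥ T + 4`: either `near_end` applies, or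
`t₂ > s₂ - η`, the gap is `< η/2`, `t₁ < T + η`, and for `t ∈ [T+1, T+2] ⊆ [t₁, t₂]`:
`PhiN t = e^{(a+b)t} ∫_{-η}^{η} k ≥ PhiN t₁` (take `C ≥ 1`). -/
theorem near (a b : ℝ) (hδ : 0 < a + b) : ∃ C : ℝ, 0 ≤ C ∧ ∀ (K : ℝ → ℝ) (η T t₁ t₂ s₁ s₂ : ℝ), NearK K η → 0 < η →
    η ≤ 1 → t₁ < t₂ → s₁ < s₂ → mid T t₁ t₂ < mid T s₁ s₂ → T + 2 ≤ mid T s₁ s₂ →
    0 ≤ PhiN K a b s₁ s₂ t₂ - PhiN K a b s₁ s₂ t₁ +
      (if mid T s₁ s₂ - mid T t₁ t₂ < η then C else 0) * ∫ t in t₁..t₂, PhiN K a b s₁ s₂ t := by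
  obtain ⟨C, hC, hmid⟩ := near_mid a b hδ
  refine ⟨C + 1, by linarith, fun K η T t₁ t₂ s₁ s₂ hK hη hη1 ht hs h1 h2 => ?_⟩
  have hI : 0 ≤ ∫ t in t₁..t₂, PhiN K a b s₁ s₂ t :=
    intervalIntegral.integral_nonneg ht.le fun t _ => phi_nonneg hK a b hs.le t
  have hI2 : 0 ≤ (if mid T s₁ s₂ - mid T t₁ t₂ < η then C + 1 else 0) * ∫ t in t₁..t₂, PhiN K a b s₁ s₂ t := by
    refine mul_nonneg ?_ hI
    split_ifs <;> linarith
  rcases le_or_gt t₂ (s₂ - η) with h3 | h3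
  · linarith [near_end hK hη hδ ht hs h3 (a := a) (b := b)]
  have m1 := le_max_left t₁ T
  have m2 := le_max_left t₂ T
  have m3 := le_max_right t₁ T
  have hp2 := phi_nonneg hK a b hs.le t₂
  rcases le_or_gt T s₁ with h4 | h4
  · have e : mid T s₁ s₂ = (s₁ + s₂) / 2 := by
      unfold mid; rw [max_eq_left h4, max_eq_left (by linarith)]
    have e2 : (t₁ + t₂) / 2 ≤ mid T t₁ t₂ := by unfold mid; linarith
    split_ifs with h5
    · have := hmid K η t₁ t₂ s₁ s₂ hK hη hη1 ht hs (by linarith)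
      linarith
    · have h6 : PhiN K a b s₁ s₂ t₁ = 0 := by
        rw [phi_eq hK, PP_left hK hη b (x := t₁ - s₁) (by linarith), PP_left hK hη b (x := t₁ - s₂) (by linarith),
          sub_self, mul_zero]
      rw [h6]; linarith
  · have h5 : T + 4 ≤ s₂ := by
      unfold mid at h2
      rw [max_eq_right h4.le] at h2
      rcases max_cases s₂ T with h | h <;> linarith [h.1]
    have e : mid T s₁ s₂ = (T + s₂) / 2 := by
      unfold mid; rw [max_eq_right h4.le, max_eq_left (by linarith)]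
    have e2 : mid T t₁ t₂ = (max t₁ T + t₂) / 2 := by
      unfold mid; rw [max_eq_left (show T ≤ t₂ by linarith)]
    rw [if_pos (by linarith)]
    have hc := cont_phi hK a b s₁ s₂
    have h6 : ∫ t in (T + 1)..(T + 2), PhiN K a b s₁ s₂ t ≤ ∫ t in t₁..t₂, PhiN K a b s₁ s₂ t :=
      intervalIntegral.integral_mono_interval (by linarith) (by linarith) (by linarith)
        (ae_of_all _ fun t => phi_nonneg hK a b hs.le t) (hc.intervalIntegrable _ _)
    have h7 : ∫ _ in (T + 1)..(T + 2), PhiN K a b s₁ s₂ t₁ ≤ ∫ t in (T + 1)..(T + 2), PhiN K a b s₁ s₂ t := by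
      refine intervalIntegral.integral_mono_on (by linarith) intervalIntegrable_const (hc.intervalIntegrable _ _)
        fun t htt => ?_
      rw [phi_eq hK, phi_eq hK, PP_right hK hη b (x := t - s₁) (by linarith [htt.1]),
        PP_left hK hη b (x := t - s₂) (by linarith [htt.2])]
      refine mul_le_mul (Real.exp_le_exp.2 (by nlinarith [htt.1])) ?_ (F_nonneg hK b hs.le _) (Real.exp_pos _).le
      linarith [PP_le hK hη b (t₁ - s₁), PP_ge hK hη b (t₁ - s₂)]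
    rw [intervalIntegral.integral_const, show T + 2 - (T + 1) = 1 by ring, one_smul] at h7
    nlinarith

end Crest.Agent.R77
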