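import Crest.Agent.R77.Near
import Crest.Agent.R77.Far
set_option autoImplicit false

noncomputable section

namespace Crest.Agent.R77

open MeasureTheory Set Filter Topology
open scoped ENNReal

theorem pr_cosh (z : ℝ) : 2 * Real.cosh z = Real.exp |z| + Real.exp (-|z|) := by
  rw [← Real.cosh_abs, Real.cosh_eq]
  ring

theorem pr_sinh (z : ℝ) : |2 * Real.sinh z| ≤ Real.exp |z| := by
  rw [abs_mul, abs_two, Real.abs_sinh, Real.sinh_eq]
  have := Real.exp_pos (-|z|)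
  linarith

/-- `Dz l z ≤ 4 e^{|z|}` -/
theorem k_ge {μ l : ℝ} (a b t s : ℝ) (hμ : 0 < μ) (h1 : -1 ≤ l) (h2 : l < 1) :
    (4 : ℝ) ^ (-μ) * Kb μ a b t s ≤ KK μ a b l t s := by
  have h3 : Dz l (t - s) ≤ 4 * Real.exp |t - s| := by
    have h4 := pr_cosh (t - s)
    have h5 : Real.exp (-|t - s|) ≤ Real.exp |t - s| :=
      Real.exp_le_exp.mpr (by linarith [abs_nonneg (t - s)])
    have h6 : 1 ≤ Real.exp |t - s| := Real.one_le_exp (abs_nonneg _)
    unfold Dz
    linarith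
  have h4 := Real.rpow_le_rpow_of_nonpos (Dz_pos h2 _) h3 (neg_nonpos.mpr hμ.le)
  rw [Real.mul_rpow (by norm_num) (Real.exp_pos _).le, ← Real.exp_mul] at h4
  unfold Kb KK Kz
  rw [sub_eq_add_neg (a * t + b * s), Real.exp_add, mul_left_comm]
  refine mul_le_mul_of_nonneg_left (le_of_eq_of_le ?_ h4) (Real.exp_pos _).le
  congr 2
  ring

/-- for `|z| ≥ 1`: `e^{|z|} / 8 ≤ Dz l z`, `2 |sinh z| ≤ e^{|z|}` -/
theorem kd_far (μ a b : ℝ) (hμ : 0 < μ) : ∃ C : ℝ, 0 ≤ C ∧ ∀ l t s : ℝ, l ≤ 1 → 1 ≤ |t - s| →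
    |KD μ a b l t s| ≤ C * Kb μ a b t s ∧ |KD μ a b l t s| ≤ C * KK μ a b l t s := by
  have h8 : (1 : ℝ) ≤ 8 ^ μ := Real.one_le_rpow (by norm_num) hμ.le
  refine ⟨(|a| + 8 * μ) * 8 ^ μ, by positivity, fun l t s hl hz => ?_⟩
  have hE : 0 < Real.exp |t - s| := Real.exp_pos _
  have h1 : Real.exp |t - s| / 8 ≤ Dz l (t - s) := by
    have h4 := pr_cosh (t - s)
    have h5 := Real.exp_pos (-|t - s|)
    have h6 : Real.exp 1 ≤ Real.exp |t - s| := Real.exp_le_exp.mpr hz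
    have h7 := Real.exp_one_gt_d9
    unfold Dz
    linarith
  have hD : 0 < Dz l (t - s) := lt_of_lt_of_le (by positivity) h1
  have hK : 0 < Kz μ l (t - s) := Real.rpow_pos_of_pos hD _
  have h2 : |KD μ a b l t s| ≤ (|a| + 8 * μ) * KK μ a b l t s := by
    unfold KD KK
    rw [abs_mul, abs_of_pos (Real.exp_pos _), mul_left_comm (|a| + 8 * μ)]
    refine mul_le_mul_of_nonneg_left ((abs_sub _ _).trans ?_) (Real.exp_pos _).le
    have h3 : Dz l (t - s) ^ (-μ - 1) = Kz μ l (t - s) / Dz l (t - s) := Real.rpow_sub_one hD.ne' _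
    rw [h3, abs_mul, abs_mul, abs_mul μ, abs_of_pos hK, abs_of_pos hμ, abs_of_pos (div_pos hK hD)]
    have h4 : |2 * Real.sinh (t - s)| * (Kz μ l (t - s) / Dz l (t - s)) ≤ 8 * Kz μ l (t - s) := by
      rw [← mul_div_assoc, div_le_iff₀ hD]
      have := pr_sinh (t - s)
      nlinarith
    nlinarith
  have h3 : KK μ a b l t s ≤ 8 ^ μ * Kb μ a b t s := by
    have h4 := Real.rpow_le_rpow_of_nonpos (by positivity) h1 (neg_nonpos.mpr hμ.le)
    rw [Real.div_rpow hE.le (by norm_num), ← Real.exp_mul, Real.rpow_neg (x := 8) (by norm_num),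
      div_inv_eq_mul] at h4
    unfold Kb KK Kz
    rw [sub_eq_add_neg (a * t + b * s), Real.exp_add (a * t + b * s), mul_left_comm]
    refine mul_le_mul_of_nonneg_left (h4.trans (le_of_eq ?_)) (Real.exp_pos _).le
    rw [mul_comm]
    congr 2
    ring
  have h4 : 0 ≤ KK μ a b l t s := KK_nonneg μ a b hl t s
  have h5 : 0 ≤ |a| + 8 * μ := by positivity
  constructor
  · rw [mul_assoc]
    exact h2.trans (mul_le_mul_of_nonneg_left h3 h5)
  · refine h2.trans ?_
    rw [mul_assoc]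
    exact mul_le_mul_of_nonneg_left (le_mul_of_one_le_left h4 h8) h5

theorem continuous_Dz (l : ℝ) : Continuous (Dz l) := by
  unfold Dz
  fun_prop

theorem continuous_Dz_rpow {l : ℝ} (hl : l < 1) (p : ℝ) : Continuous fun z => Dz l z ^ p :=
  (continuous_Dz l).rpow_const fun z => Or.inl (Dz_pos hl z).ne'

theorem Kz_le_zero {μ l : ℝ} (hμ : 0 < μ) (hl : l < 1) (z : ℝ) : Kz μ l z ≤ Kz μ l 0 := by
  refine Real.rpow_le_rpow_of_nonpos (Dz_pos hl 0) ?_ (neg_nonpos.mpr hμ.le)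
  have := Real.one_le_cosh z
  simp only [Dz, Real.cosh_zero]
  linarith

/-- `Kz` is even and decreasing on `[0, ∞)`, so its total variation is at most `2 Kz μ l 0` -/
theorem kd_near (μ a b : ℝ) (hμ : 0 < μ) : ∃ C : ℝ, 0 ≤ C ∧ ∀ l t : ℝ, l < 1 →
    ∫⁻ s in Ioo (t - 1) (t + 1), ENNReal.ofReal |KD μ a b l t s| ≤
      ENNReal.ofReal (C * Real.exp ((a + b) * t) * Kz μ l 0) := by
  refine ⟨Real.exp |b| * (2 * |a| + 2), by positivity, fun l t hl => ?_⟩
  set h : ℝ → ℝ := fun s => μ * (2 * Real.sinh (t - s)) * Dz l (t - s) ^ (-μ - 1) with hh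
  have hc : Continuous h := by
    have := (continuous_Dz_rpow hl (-μ - 1)).comp (continuous_const.sub continuous_id : Continuous fun s => t - s)
    exact (by fun_prop : Continuous fun s => μ * (2 * Real.sinh (t - s))).mul this
  have hd : ∀ s, HasDerivAt (fun s => Kz μ l (t - s)) (h s) s := by
    intro s
    have h2 : HasDerivAt (fun s => Dz l (t - s)) (-(2 * Real.sinh (t - s))) s := by
      simpa [Dz] using ((((hasDerivAt_id s).const_sub t).cosh).const_mul 2).sub_const (2 * l)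
    refine (h2.rpow_const (p := -μ) (Or.inl (Dz_pos hl (t - s)).ne')).congr_deriv ?_
    simp only [hh]
    ring
  have hK0 : 0 ≤ Kz μ l 0 := Kz_nonneg μ hl.le 0
  have i1 : ∫ s in (t - 1)..t, |h s| ≤ Kz μ l 0 := by
    rw [intervalIntegral.integral_congr (g := h) (fun s hs => by
      rw [uIcc_of_le (by linarith)] at hs
      have h1 : 0 ≤ Real.sinh (t - s) := Real.sinh_nonneg_iff.mpr (by linarith [hs.2])
      have h2 := (Real.rpow_pos_of_pos (Dz_pos hl (t - s)) (-μ - 1)).le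
      exact abs_of_nonneg (by simp only [hh]; positivity)),
      intervalIntegral.integral_eq_sub_of_hasDerivAt (fun s _ => hd s) (hc.intervalIntegrable _ _),
      sub_self]
    linarith [Kz_nonneg μ hl.le (t - (t - 1))]
  have i2 : ∫ s in t..(t + 1), |h s| ≤ Kz μ l 0 := by
    rw [intervalIntegral.integral_congr (g := fun s => -h s) (fun s hs => by
      rw [uIcc_of_le (by linarith)] at hs
      have h1 : 0 ≤ -Real.sinh (t - s) :=
        neg_nonneg.mpr (Real.sinh_nonpos_iff.mpr (by linarith [hs.1]))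
      have h2 := (Real.rpow_pos_of_pos (Dz_pos hl (t - s)) (-μ - 1)).le
      have h3 : 0 ≤ μ * (2 * -Real.sinh (t - s)) * Dz l (t - s) ^ (-μ - 1) := by positivity
      exact abs_of_nonpos (by simp only [hh]; linarith)),
      intervalIntegral.integral_neg,
      intervalIntegral.integral_eq_sub_of_hasDerivAt (fun s _ => hd s) (hc.intervalIntegrable _ _),
      sub_self]
    linarith [Kz_nonneg μ hl.le (t - (t + 1))]
  set E : ℝ := Real.exp |b| * Real.exp ((a + b) * t) with hE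
  have hE0 : 0 < E := by positivity
  have hc2 : Continuous fun s => E * (|a| * Kz μ l 0 + |h s|) := by fun_prop
  calc _ ≤ ∫⁻ s in Ioo (t - 1) (t + 1), ENNReal.ofReal (E * (|a| * Kz μ l 0 + |h s|)) := by
        refine setLIntegral_mono' measurableSet_Ioo fun s hs => ENNReal.ofReal_le_ofReal ?_
        unfold KD
        rw [abs_mul, abs_of_pos (Real.exp_pos _)]
        refine mul_le_mul ?_ ((abs_sub _ _).trans ?_) (abs_nonneg _) hE0.le
        · rw [hE, ← Real.exp_add]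
          refine Real.exp_le_exp.mpr ?_
          have h1 : |s - t| ≤ 1 := abs_le.mpr ⟨by linarith [hs.1], by linarith [hs.2]⟩
          have h2 : b * (s - t) ≤ |b| * |s - t| := by rw [← abs_mul]; exact le_abs_self _
          have h3 := abs_nonneg b
          nlinarith
        · rw [abs_mul a, abs_of_nonneg (Kz_nonneg μ hl.le _)]
          gcongr
          exact Kz_le_zero hμ hl _
    _ = ENNReal.ofReal (∫ s in (t - 1)..(t + 1), E * (|a| * Kz μ l 0 + |h s|)) := by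
        rw [intervalIntegral.integral_of_le (by linarith), integral_Ioc_eq_integral_Ioo,
          ofReal_integral_eq_lintegral_ofReal
            (hc2.integrableOn_Icc.mono_set Ioo_subset_Icc_self)
            (Eventually.of_forall fun s => by positivity)]
    _ ≤ _ := by
        refine ENNReal.ofReal_le_ofReal ?_
        rw [intervalIntegral.integral_const_mul,
          intervalIntegral.integral_add intervalIntegrable_const (hc.abs.intervalIntegrable _ _),
          ← intervalIntegral.integral_add_adjacent_intervals (b := t) (hc.abs.intervalIntegrable _ _)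
            (hc.abs.intervalIntegrable _ _), intervalIntegral.integral_const, smul_eq_mul]
        calc _ ≤ E * ((t + 1 - (t - 1)) * (|a| * Kz μ l 0) + (Kz μ l 0 + Kz μ l 0)) := by gcongr
          _ = _ := by rw [hE]; ring

theorem continuous_KK (μ a b : ℝ) {l : ℝ} (hl : l < 1) : Continuous fun z : ℝ × ℝ => KK μ a b l z.1 z.2 := by
  have h := (continuous_Dz_rpow hl (-μ)).comp (continuous_fst.sub continuous_snd :
    Continuous fun z : ℝ × ℝ => z.1 - z.2)
  exact (by fun_prop : Continuous fun z : ℝ × ℝ => Real.exp (a * z.1 + b * z.2)).mul h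

theorem continuous_KD (μ a b : ℝ) {l : ℝ} (hl : l < 1) : Continuous fun z : ℝ × ℝ => KD μ a b l z.1 z.2 := by
  have h := (continuous_Dz_rpow hl (-μ)).comp (continuous_fst.sub continuous_snd :
    Continuous fun z : ℝ × ℝ => z.1 - z.2)
  have h' := (continuous_Dz_rpow hl (-μ - 1)).comp (continuous_fst.sub continuous_snd :
    Continuous fun z : ℝ × ℝ => z.1 - z.2)
  exact (by fun_prop : Continuous fun z : ℝ × ℝ => Real.exp (a * z.1 + b * z.2)).mul
    ((continuous_const.mul h).sub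
      ((by fun_prop : Continuous fun z : ℝ × ℝ => μ * (2 * Real.sinh (z.1 - z.2))).mul h'))

theorem pr_box_int {F : ℝ × ℝ → ℝ} (hF : Continuous F) (t₁ t₂ s₁ s₂ : ℝ) :
    IntegrableOn F (Ioo t₁ t₂ ×ˢ Ioo s₁ s₂) :=
  (hF.continuousOn.integrableOn_compact (isCompact_Icc.prod isCompact_Icc)).mono_set
    (prod_mono Ioo_subset_Icc_self Ioo_subset_Icc_self)

theorem pr_box {F : ℝ × ℝ → ℝ} {t₁ t₂ s₁ s₂ : ℝ} (ht : t₁ ≤ t₂) (hs : s₁ ≤ s₂)
    (hF : IntegrableOn F (Ioo t₁ t₂ ×ˢ Ioo s₁ s₂)) :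
    ∫ z in Ioo t₁ t₂ ×ˢ Ioo s₁ s₂, F z = ∫ t in t₁..t₂, ∫ s in s₁..s₂, F (t, s) := by
  simp only [intervalIntegral.integral_of_le ht, intervalIntegral.integral_of_le hs,
    integral_Ioc_eq_integral_Ioo]
  exact setIntegral_prod F hF

theorem pr_box' {F : ℝ × ℝ → ℝ} {t₁ t₂ s₁ s₂ : ℝ} (ht : t₁ ≤ t₂) (hs : s₁ ≤ s₂)
    (hF : IntegrableOn F (Ioo t₁ t₂ ×ˢ Ioo s₁ s₂)) :
    ∫ z in Ioo t₁ t₂ ×ˢ Ioo s₁ s₂, F z = ∫ s in s₁..s₂, ∫ t in t₁..t₂, F (t, s) := by
  simp only [intervalIntegral.integral_of_le ht, intervalIntegral.integral_of_le hs,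
    integral_Ioc_eq_integral_Ioo]
  rw [IntegrableOn, Measure.volume_eq_prod, ← Measure.prod_restrict] at hF
  rw [Measure.volume_eq_prod, ← Measure.prod_restrict]
  exact integral_prod_symm F hF

/-- The interaction of two intervals. Fubini and `hasDerivAt_KK` turn the integral of `KD` into
`PhiN (Kz μ l) t₂ - PhiN (Kz μ l) t₁`; apply `split`, `near` (and `K ≤ Kz`), `far` (`s₂ ≥ T + 2`). -/
theorem pair (μ a b : ℝ) (hμ : 0 < μ) (hδ : 0 < a + b) : ∃ C₁ C₂ : ℝ, 0 ≤ C₁ ∧ 0 ≤ C₂ ∧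
    ∀ l η T t₁ t₂ s₁ s₂ : ℝ, -1 ≤ l → l < 1 → 0 < η → η ≤ 1 → t₁ < t₂ → s₁ < s₂ →
      mid T t₁ t₂ < mid T s₁ s₂ → T + 2 ≤ mid T s₁ s₂ →
      0 ≤ ∫ z in Ioo t₁ t₂ ×ˢ Ioo s₁ s₂, (KD μ a b l z.1 z.2 +
        (if mid T s₁ s₂ - mid T t₁ t₂ < η then C₁ else 0) * KK μ a b l z.1 z.2 +
        C₂ * η ^ (-(2 * μ + 2)) * (if T ≤ max z.1 z.2 then Kb μ a b z.1 z.2 else 0)) := by
  obtain ⟨C₁, hC₁, hn⟩ := near a b hδ
  obtain ⟨C₂, hC₂, hf⟩ := far μ a b hμ hδ
  obtain ⟨C₃, hC₃, hs⟩ := split μ hμ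
  refine ⟨C₁, C₂ * C₃, hC₁, by positivity, fun l η T t₁ t₂ s₁ s₂ hl hl' hη hη1 ht hs' hm hT => ?_⟩
  obtain ⟨K, G, G', hK, hG, hKG⟩ := hs l η hl hl' hη hη1
  have hs₂ : T + 1 ≤ s₂ := by
    unfold mid at hT
    have h1 : max s₁ T ≤ max s₂ T := max_le_max_right T hs'.le
    have h2 : T + 2 ≤ max s₂ T := by linarith
    rcases le_max_iff.mp h2 with h3 | h3 <;> linarith
  have h1 := hn K η T t₁ t₂ s₁ s₂ hK hη hη1 ht hs' hm hT
  have h2 := hf G G' _ T t₁ t₂ s₁ s₂ hG ht hs' hs₂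
  set c : ℝ := if mid T s₁ s₂ - mid T t₁ t₂ < η then C₁ else 0 with hc
  have hc0 : 0 ≤ c := by rw [hc]; split_ifs <;> simp [hC₁]
  have hGc : Continuous G := continuous_iff_continuousAt.mpr fun z => (hG.der z).continuousAt
  have hKc := hK.cont
  have j1 := pr_box_int (continuous_KD μ a b hl') t₁ t₂ s₁ s₂
  have j2 := pr_box_int (continuous_KK μ a b hl') t₁ t₂ s₁ s₂
  have j3 : IntegrableOn (fun z : ℝ × ℝ => if T ≤ max z.1 z.2 then Kb μ a b z.1 z.2 else 0)
      (Ioo t₁ t₂ ×ˢ Ioo s₁ s₂) := by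
    have h3 : Continuous fun z : ℝ × ℝ => Kb μ a b z.1 z.2 := by unfold Kb; fun_prop
    have h4 : MeasurableSet {z : ℝ × ℝ | T ≤ max z.1 z.2} :=
      measurableSet_le measurable_const (measurable_fst.max measurable_snd)
    exact (pr_box_int h3 t₁ t₂ s₁ s₂).indicator h4
  have j4 := pr_box_int (F := fun z : ℝ × ℝ => Real.exp (a * z.1 + b * z.2) * K (z.1 - z.2))
    (by fun_prop) t₁ t₂ s₁ s₂
  have e0 : ∀ t, ∫ s in s₁..s₂, KK μ a b l t s = PhiN K a b s₁ s₂ t + PhiN G a b s₁ s₂ t := by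
    intro t
    unfold PhiN
    rw [← intervalIntegral.integral_add (Continuous.intervalIntegrable (by fun_prop) _ _)
      (Continuous.intervalIntegrable (by fun_prop) _ _)]
    congr 1
    funext s
    rw [KK, hKG, mul_add]
  have hKKs : ∀ t, Continuous fun s => KK μ a b l t s := fun t =>
    (continuous_KK μ a b hl').comp (Continuous.prodMk_right t)
  have e1 : ∫ z in Ioo t₁ t₂ ×ˢ Ioo s₁ s₂, KD μ a b l z.1 z.2 =
      (PhiN K a b s₁ s₂ t₂ + PhiN G a b s₁ s₂ t₂) - (PhiN K a b s₁ s₂ t₁ + PhiN G a b s₁ s₂ t₁) := by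
    rw [pr_box' ht.le hs'.le j1, ← e0, ← e0, ← intervalIntegral.integral_sub
      ((hKKs t₂).intervalIntegrable _ _) ((hKKs t₁).intervalIntegrable _ _)]
    congr 1
    funext s
    exact intervalIntegral.integral_eq_sub_of_hasDerivAt (fun t _ => hasDerivAt_KK μ a b hl' t s)
      (((continuous_KD μ a b hl').comp (Continuous.prodMk_left s)).intervalIntegrable _ _)
  have e2 : ∫ t in t₁..t₂, PhiN K a b s₁ s₂ t ≤ ∫ z in Ioo t₁ t₂ ×ˢ Ioo s₁ s₂, KK μ a b l z.1 z.2 := by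
    refine le_of_eq_of_le (pr_box ht.le hs'.le j4).symm (setIntegral_mono j4 j2 fun z => ?_)
    have := hG.nonneg (z.1 - z.2)
    simp only [KK, hKG]
    gcongr
    linarith
  have j5 : IntegrableOn (fun z : ℝ × ℝ => KD μ a b l z.1 z.2 + c * KK μ a b l z.1 z.2)
      (Ioo t₁ t₂ ×ˢ Ioo s₁ s₂) := j1.add (j2.const_mul c)
  rw [integral_add j5 (j3.const_mul _), integral_add j1 (j2.const_mul c),
    integral_const_mul, integral_const_mul, e1, pr_box ht.le hs'.le j3]
  have e3 := mul_le_mul_of_nonneg_left e2 hc0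
  simp only [mul_assoc] at h2 ⊢
  linarith

end Crest.Agent.R77
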