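import Crest.Agent.R77.Defs
set_option autoImplicit false

noncomputable section

namespace Crest.Agent.R77

open MeasureTheory Set Filter Topology
open scoped ENNReal

variable {n : ℕ}

instance : IsFiniteMeasure (sg n) := by unfold sg; infer_instance

instance : (sg n).IsOpenPosMeasure := by unfold sg; infer_instance

theorem lintegral_volumeIoiPow_exp (hn : 1 ≤ n) {G : ℝ → ℝ≥0∞} (hG : Measurable G) :
    ∫⁻ r : Ioi (0 : ℝ), G r ∂(Measure.volumeIoiPow (n - 1)) =
      ∫⁻ t : ℝ, ENNReal.ofReal (Real.exp (n * t)) * G (Real.exp t) := by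
  have hm : Measurable fun r : Ioi (0 : ℝ) => ENNReal.ofReal (r.1 ^ (n - 1)) :=
    (measurable_subtype_coe.pow_const _).ennreal_ofReal
  rw [Measure.volumeIoiPow, lintegral_withDensity_eq_lintegral_mul _ hm
    (g := fun r : Ioi (0 : ℝ) => G r) (hG.comp measurable_subtype_coe)]
  have h1 := lintegral_subtype_comap (μ := (volume : Measure ℝ)) (measurableSet_Ioi (a := (0 : ℝ)))
    (fun r => ENNReal.ofReal (r ^ (n - 1)) * G r)
  simp only [Pi.mul_apply]
  rw [h1, ← Real.range_exp, ← image_univ,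
    lintegral_image_eq_lintegral_abs_deriv_mul MeasurableSet.univ
      (fun t _ => (Real.hasDerivAt_exp t).hasDerivWithinAt) Real.exp_injective.injOn, Measure.restrict_univ]
  refine lintegral_congr fun t => ?_
  rw [← mul_assoc, ← ENNReal.ofReal_mul (abs_nonneg _), abs_of_pos (Real.exp_pos t), ← pow_succ',
    Nat.sub_add_cancel hn, ← Real.exp_nat_mul]

/-- log-polar coordinates (`Measure.measurePreserving_homeomorphUnitSphereProd`, then `r = e^t`) -/
theorem lintegral_polar (hn : 1 ≤ n) {F : Eu n → ℝ≥0∞} (hF : Measurable F) :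
    ∫⁻ y, F y = ∫⁻ x : ℝ × Sp n, ENNReal.ofReal (Real.exp (n * x.1)) * F (Real.exp x.1 • (x.2 : Eu n))
      ∂(volume.prod (sg n)) := by
  have : Nontrivial (Eu n) := by
    apply Module.nontrivial_of_finrank_pos (R := ℝ)
    simp; omega
  have hd : Module.finrank ℝ (Eu n) = n := by simp
  have hmp := (volume : Measure (Eu n)).measurePreserving_homeomorphUnitSphereProd
  rw [hd] at hmp
  have hH : Measurable fun p : Sp n × Ioi (0 : ℝ) => F ((p.2 : ℝ) • (p.1 : Eu n)) := by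
    refine hF.comp ?_
    fun_prop
  have h1 := hmp.lintegral_comp hH
  have h2 : ∫⁻ y, F y = ∫⁻ y : ({(0 : Eu n)}ᶜ : Set (Eu n)), F y ∂((volume : Measure (Eu n)).comap (↑)) := by
    rw [lintegral_subtype_comap (measurableSet_singleton _).compl F, restrict_compl_singleton]
  have h3 : ∀ y : ({(0 : Eu n)}ᶜ : Set (Eu n)),
      ((homeomorphUnitSphereProd (Eu n) y).2 : ℝ) • ((homeomorphUnitSphereProd (Eu n) y).1 : Eu n) = y := by
    intro y
    have hy : ‖(y : Eu n)‖ ≠ 0 := norm_ne_zero_iff.2 y.2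
    simp [smul_smul, hy]
  simp only [h3] at h1
  have hK : Measurable fun x : ℝ × Sp n =>
      ENNReal.ofReal (Real.exp (n * x.1)) * F (Real.exp x.1 • (x.2 : Eu n)) := by
    refine Measurable.mul (by fun_prop) (hF.comp ?_)
    fun_prop
  rw [h2, h1, lintegral_prod _ hH.aemeasurable, lintegral_prod_symm _ hK.aemeasurable]
  refine lintegral_congr fun ω => ?_
  exact lintegral_volumeIoiPow_exp hn (G := fun r => F (r • (ω : Eu n))) (hF.comp (by fun_prop))

theorem norm_sub_sq_polar (t s : ℝ) (ω ω' : Sp n) :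
    ‖Real.exp t • (ω : Eu n) - Real.exp s • (ω' : Eu n)‖ ^ 2 =
      Real.exp (t + s) * Dz (inner ℝ (ω : Eu n) (ω' : Eu n)) (t - s) := by
  have h1 : ‖(ω : Eu n)‖ = 1 := by simp
  have h2 : ‖(ω' : Eu n)‖ = 1 := by simp
  rw [norm_sub_sq_real, norm_smul, norm_smul, h1, h2, real_inner_smul_left, real_inner_smul_right, Dz,
    Real.cosh_eq, Real.norm_eq_abs, Real.norm_eq_abs, abs_of_pos (Real.exp_pos _), abs_of_pos (Real.exp_pos _)]
  have e1 : Real.exp (t + s) * Real.exp (t - s) = Real.exp t ^ 2 := by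
    rw [← Real.exp_add, sq, ← Real.exp_add]; congr 1; ring
  have e2 : Real.exp (t + s) * Real.exp (-(t - s)) = Real.exp s ^ 2 := by
    rw [← Real.exp_add, sq, ← Real.exp_add]; congr 1; ring
  have e3 := Real.exp_add t s
  linear_combination (-1 : ℝ) * e1 - e2 + 2 * (inner ℝ (ω : Eu n) (ω' : Eu n)) * e3

/-- `⟨ω, ω'⟩ = 1` only for `ω' = ω`, and a line has measure zero (`Measure.toSphere_apply'`, `Measure.addHaar_submodule`) -/
theorem sphere_ae_lt (hn : 2 ≤ n) (ω : Sp n) : ∀ᵐ ω' : Sp n ∂(sg n), inner ℝ (ω : Eu n) (ω' : Eu n) < 1 := by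
  have h1 : ‖(ω : Eu n)‖ = 1 := by simp
  have hz : sg n {ω} = 0 := by
    unfold sg
    rw [Measure.toSphere_apply' _ (measurableSet_singleton ω)]
    have hs : (Submodule.span ℝ {(ω : Eu n)}) ≠ ⊤ := by
      intro h
      have h3 : Module.finrank ℝ (Submodule.span ℝ {(ω : Eu n)}) ≤ 1 := by
        simpa using finrank_span_le_card (R := ℝ) ({(ω : Eu n)} : Set (Eu n))
      rw [h] at h3
      simp at h3
      omega
    have h4 := Measure.addHaar_submodule (volume : Measure (Eu n)) _ hs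
    rw [measure_mono_null ?_ h4, mul_zero]
    rintro _ ⟨r, -, _, ⟨_, rfl, rfl⟩, rfl⟩
    exact Submodule.smul_mem _ _ (Submodule.mem_span_singleton_self _)
  have h5 : ∀ᵐ ω' : Sp n ∂(sg n), ω' ≠ ω := by
    rw [ae_iff]
    simpa using hz
  filter_upwards [h5] with ω' h
  have h2 : ‖(ω' : Eu n)‖ = 1 := by simp
  exact (inner_lt_one_iff_real_of_norm_eq_one h1 h2).2 fun h' => h (Subtype.ext h'.symm)

/-- `C = ∫_{‖z‖<9} ‖z‖^{1-n} dz < ∞` (`integrableOn_ball_of_norm_le_rpow`) bounds `∫_{‖y-ω‖<9} ‖y-ω‖^{1-n} dy` for every `ω`. In log-polar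
coordinates, with `δ = ‖ω-ω'‖ ≤ 2` (`Dz ⟨ω,ω'⟩ 0 = δ²`) and `s ∈ [0, δ/2]`: `‖e^s ω' - ω‖ ≤ δ + e^s - 1 ≤ 2δ`, so the `s`-integral is at least
`(δ/2) (2δ)^{1-n}`. -/
theorem sphere_sing (hn : 3 ≤ n) : ∃ C : ℝ≥0∞, C < ⊤ ∧ ∀ ω : Sp n,
    ∫⁻ ω' : Sp n, ENNReal.ofReal (Kz (((n : ℝ) - 2) / 2) (inner ℝ (ω : Eu n) (ω' : Eu n)) 0) ∂(sg n) ≤ C := by
  have hd : Module.finrank ℝ (Eu n) = n := by simp
  have hn' : (3 : ℝ) ≤ n := by exact_mod_cast hn
  set G : Eu n → ℝ≥0∞ := fun z => (Metric.ball (0 : Eu n) 9).indicator (fun z => ENNReal.ofReal (‖z‖ ^ (1 - (n : ℝ)))) z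
    with hG
  have hGm : Measurable G := Measurable.indicator (by fun_prop) Metric.isOpen_ball.measurableSet
  have hfin : ∫⁻ z, G z < ⊤ := by
    have hi : IntegrableOn (fun z : Eu n => ‖z‖ ^ (1 - (n : ℝ))) (Metric.ball 0 9) volume := by
      refine integrableOn_ball_of_norm_le_rpow (C := 1) (α := (n : ℝ) - 1) (by rw [hd]; omega)
        (by rw [hd]; linarith) (ae_of_all _ fun z => ?_) (Measurable.aestronglyMeasurable (by fun_prop))
      rw [Real.norm_of_nonneg (Real.rpow_nonneg (norm_nonneg _) _), one_mul, neg_sub]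
    rw [hG, lintegral_indicator Metric.isOpen_ball.measurableSet]
    exact hi.lintegral_lt_top
  refine ⟨ENNReal.ofReal (2 ^ (n : ℝ)) * ∫⁻ z, G z, ENNReal.mul_lt_top ENNReal.ofReal_lt_top hfin, fun ω => ?_⟩
  have h1 : ‖(ω : Eu n)‖ = 1 := by simp
  have hGω : Measurable fun y : Eu n => G (y - ω) := hGm.comp (by fun_prop)
  have hK : Measurable fun x : ℝ × Sp n =>
      ENNReal.ofReal (Real.exp (n * x.1)) * G (Real.exp x.1 • (x.2 : Eu n) - ω) := by
    refine Measurable.mul (by fun_prop) (hGm.comp ?_)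
    fun_prop
  rw [← lintegral_sub_right_eq_self G (ω : Eu n), lintegral_polar (by omega) hGω,
    lintegral_prod_symm _ hK.aemeasurable, ← lintegral_const_mul' _ _ ENNReal.ofReal_ne_top]
  refine lintegral_mono fun ω' => ?_
  have h2 : ‖(ω' : Eu n)‖ = 1 := by simp
  set δ : ℝ := ‖(ω' : Eu n) - ω‖ with hδ
  have hδ0 : 0 ≤ δ := norm_nonneg _
  have hδ2 : δ ≤ 2 := by
    have := norm_sub_le (ω' : Eu n) ω
    linarith
  have hD : Dz (inner ℝ (ω : Eu n) (ω' : Eu n)) 0 = δ ^ 2 := by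
    rw [hδ, norm_sub_sq_real, h1, h2, Dz, Real.cosh_zero, real_inner_comm]
    ring
  have hKz : Kz (((n : ℝ) - 2) / 2) (inner ℝ (ω : Eu n) (ω' : Eu n)) 0 = δ ^ (2 - (n : ℝ)) := by
    rw [Kz, hD, ← Real.rpow_natCast, ← Real.rpow_mul hδ0]
    congr 1
    push_cast
    ring
  rw [hKz]
  rcases hδ0.eq_or_lt with h0 | hpos
  · rw [← h0, Real.zero_rpow (by linarith)]
    simp
  have hlow : ∀ s ∈ Icc (0 : ℝ) (δ / 2), ENNReal.ofReal ((2 * δ) ^ (1 - (n : ℝ))) ≤
      ENNReal.ofReal (Real.exp (n * s)) * G (Real.exp s • (ω' : Eu n) - ω) := by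
    intro s hs
    have he : |Real.exp s - 1| ≤ 2 * |s| := Real.abs_exp_sub_one_le (by rw [abs_of_nonneg hs.1]; linarith [hs.2])
    rw [abs_of_nonneg hs.1] at he
    have hup : ‖Real.exp s • (ω' : Eu n) - ω‖ ≤ 2 * δ := by
      have e : Real.exp s • (ω' : Eu n) - ω = (Real.exp s - 1) • (ω' : Eu n) + ((ω' : Eu n) - ω) := by
        rw [sub_smul, one_smul]; abel
      rw [e]
      refine (norm_add_le _ _).trans ?_
      rw [norm_smul, h2, Real.norm_eq_abs]
      linarith [hs.2]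
    have hne : 0 < ‖Real.exp s • (ω' : Eu n) - ω‖ := by
      rw [norm_pos_iff, sub_ne_zero]
      intro h
      have h3 : Real.exp s = 1 := by
        have := congrArg norm h
        rwa [norm_smul, h1, h2, mul_one, Real.norm_eq_abs, abs_of_pos (Real.exp_pos _)] at this
      rw [h3, one_smul] at h
      rw [hδ, h, sub_self, norm_zero] at hpos
      exact lt_irrefl _ hpos
    have hmem : Real.exp s • (ω' : Eu n) - ω ∈ Metric.ball (0 : Eu n) 9 := by
      rw [mem_ball_zero_iff]; linarith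
    have hge : (1 : ℝ≥0∞) ≤ ENNReal.ofReal (Real.exp (n * s)) := by
      rw [ENNReal.one_le_ofReal]
      exact Real.one_le_exp (mul_nonneg (by linarith) hs.1)
    rw [hG]
    simp only [indicator_of_mem hmem]
    refine le_trans ?_ (le_mul_of_one_le_left' hge)
    exact ENNReal.ofReal_le_ofReal (Real.rpow_le_rpow_of_nonpos hne hup (by linarith))
  calc ENNReal.ofReal (δ ^ (2 - (n : ℝ)))
      = ENNReal.ofReal (2 ^ (n : ℝ)) * (ENNReal.ofReal ((2 * δ) ^ (1 - (n : ℝ))) * ENNReal.ofReal (δ / 2 - 0)) := by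
        rw [← ENNReal.ofReal_mul (by positivity), ← ENNReal.ofReal_mul (by positivity)]
        congr 1
        rw [Real.mul_rpow (by norm_num) hδ0, Real.rpow_sub (by norm_num : (0 : ℝ) < 2), Real.rpow_one,
          show (2 : ℝ) - n = (1 - n) + 1 by ring, Real.rpow_add_one hpos.ne']
        have : (2 : ℝ) ^ (n : ℝ) ≠ 0 := by positivity
        field_simp
        ring
    _ ≤ _ := by
        gcongr
        rw [← Real.volume_Icc, ← setLIntegral_const]
        refine le_trans (setLIntegral_mono' measurableSet_Icc hlow) ?_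
        exact setLIntegral_le_lintegral _ _

end Crest.Agent.R77
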