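import Crest.Agent.R77.Green
set_option autoImplicit false

noncomputable section

namespace Crest.Agent.R77

open MeasureTheory Set Filter Topology
open scoped ENNReal
open Laplacian InnerProductSpace

namespace RepA

/-- admissible weights -/
structure Wt (w : ℝ → ℝ) : Prop where
  cont : Continuous w
  nonneg : ∀ r, 0 ≤ w r
  lo : ∀ r, r ≤ 1 / 2 → w r = 0
  hi : ∀ r, 9 / 2 ≤ r → w r = 0
  pos : 0 < w (5 / 2)

def BB (μ : ℝ) (w : ℝ → ℝ) (ρ : ℝ) : ℝ := ∫ r in (0 : ℝ)..ρ, r ^ μ * w r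

def QQ (μ : ℝ) (w : ℝ → ℝ) (ρ : ℝ) : ℝ := -(ρ ^ (-μ - 1) * BB μ w ρ)

def PP (μ : ℝ) (w : ℝ → ℝ) (ρ : ℝ) : ℝ := BB μ w 5 / μ * 5 ^ (-μ) + ∫ r in (5 : ℝ)..ρ, QQ μ w r

variable {μ : ℝ} {w : ℝ → ℝ}

theorem cont_int (hμ : 0 < μ) (hw : Wt w) : Continuous fun r : ℝ => r ^ μ * w r :=
  (Real.continuous_rpow_const hμ.le).mul hw.cont

theorem int_nonneg (hw : Wt w) (r : ℝ) : 0 ≤ r ^ μ * w r := by
  rcases le_total r (1 / 2) with h | h
  · rw [hw.lo r h, mul_zero]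
  · exact mul_nonneg (Real.rpow_nonneg (by linarith) _) (hw.nonneg r)

theorem hasDerivAt_BB (hμ : 0 < μ) (hw : Wt w) (ρ : ℝ) : HasDerivAt (BB μ w) (ρ ^ μ * w ρ) ρ :=
  ((cont_int hμ hw).integral_hasStrictDerivAt 0 ρ).hasDerivAt

theorem contDiff_BB (hμ : 0 < μ) (hw : Wt w) : ContDiff ℝ 1 (BB μ w) := by
  rw [contDiff_one_iff_deriv]
  refine ⟨fun ρ => (hasDerivAt_BB hμ hw ρ).differentiableAt, ?_⟩
  have : deriv (BB μ w) = fun ρ => ρ ^ μ * w ρ := funext fun ρ => (hasDerivAt_BB hμ hw ρ).deriv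
  rw [this]; exact cont_int hμ hw

theorem mono_BB (hμ : 0 < μ) (hw : Wt w) : Monotone (BB μ w) :=
  monotone_of_deriv_nonneg (fun ρ => (hasDerivAt_BB hμ hw ρ).differentiableAt) fun ρ => by
    rw [(hasDerivAt_BB hμ hw ρ).deriv]; exact int_nonneg hw ρ

theorem BB_lo (hw : Wt w) {ρ : ℝ} (h : ρ ≤ 1 / 2) : BB μ w ρ = 0 := by
  unfold BB
  rw [intervalIntegral.integral_congr (g := fun _ => 0), intervalIntegral.integral_zero]
  intro r hr
  have : r ≤ 1 / 2 := hr.2.trans (max_le (by norm_num) h)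
  simp [hw.lo r this]

theorem BB_hi (hμ : 0 < μ) (hw : Wt w) {ρ : ℝ} (h : 5 ≤ ρ) : BB μ w ρ = BB μ w 5 := by
  unfold BB
  rw [← intervalIntegral.integral_add_adjacent_intervals (b := 5)
    ((cont_int hμ hw).intervalIntegrable _ _) ((cont_int hμ hw).intervalIntegrable _ _),
    intervalIntegral.integral_congr (a := 5) (g := fun _ => 0), intervalIntegral.integral_zero,
    add_zero]
  intro r hr
  have : 5 ≤ r := (le_min le_rfl h).trans hr.1
  simp [hw.hi r (by linarith)]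

theorem BB_pos (hμ : 0 < μ) (hw : Wt w) : 0 < BB μ w 5 := by
  unfold BB
  refine intervalIntegral.integral_pos (by norm_num) (cont_int hμ hw).continuousOn
    (fun r _ => int_nonneg hw r) ⟨5 / 2, ⟨by norm_num, by norm_num⟩, ?_⟩
  exact mul_pos (Real.rpow_pos_of_pos (by norm_num) _) hw.pos

theorem QQ_ev (hw : Wt w) {ρ : ℝ} (h : ρ < 1 / 2) : QQ μ w =ᶠ[𝓝 ρ] fun _ => 0 := by
  filter_upwards [Iio_mem_nhds h] with r hr
  simp [QQ, BB_lo hw (le_of_lt hr)]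

theorem contDiff_QQ (hμ : 0 < μ) (hw : Wt w) : ContDiff ℝ 1 (QQ μ w) := by
  rw [contDiff_iff_contDiffAt]
  intro ρ
  rcases lt_or_ge ρ (1 / 2) with h | h
  · exact contDiffAt_const.congr_of_eventuallyEq (QQ_ev hw h)
  · exact ((contDiffAt_id.rpow_const_of_ne (by simp; linarith)).mul
      (contDiff_BB hμ hw).contDiffAt).neg

theorem hasDerivAt_PP (hμ : 0 < μ) (hw : Wt w) (ρ : ℝ) : HasDerivAt (PP μ w) (QQ μ w ρ) ρ :=
  (((contDiff_QQ hμ hw).continuous.integral_hasStrictDerivAt 5 ρ).hasDerivAt).const_add _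

theorem contDiff_PP (hμ : 0 < μ) (hw : Wt w) : ContDiff ℝ 2 (PP μ w) := by
  rw [show (2 : WithTop ℕ∞) = 1 + 1 from rfl, contDiff_succ_iff_deriv]
  refine ⟨fun ρ => (hasDerivAt_PP hμ hw ρ).differentiableAt, by simp, ?_⟩
  have : deriv (PP μ w) = QQ μ w := funext fun ρ => (hasDerivAt_PP hμ hw ρ).deriv
  rw [this]; exact contDiff_QQ hμ hw

theorem QQ_ode (hμ : 0 < μ) (hw : Wt w) (ρ : ℝ) :
    ρ * deriv (QQ μ w) ρ + (μ + 1) * QQ μ w ρ = -w ρ := by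
  rcases lt_or_ge ρ (1 / 2) with h | h
  · rw [(QQ_ev hw h).deriv_eq, (QQ_ev hw h).self_of_nhds, hw.lo ρ h.le]
    simp
  · have hρ : 0 < ρ := by linarith
    have h1 : HasDerivAt (QQ μ w) (-((-μ - 1) * ρ ^ (-μ - 1 - 1) * BB μ w ρ +
        ρ ^ (-μ - 1) * (ρ ^ μ * w ρ))) ρ :=
      ((Real.hasDerivAt_rpow_const (Or.inl hρ.ne')).mul (hasDerivAt_BB hμ hw ρ)).neg
    rw [h1.deriv, QQ]
    have e1 : ρ * ρ ^ (-μ - 1 - 1) = ρ ^ (-μ - 1) := by
      rw [Real.rpow_sub_one hρ.ne' (-μ - 1)]; field_simp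
    have e2 : ρ * (ρ ^ (-μ - 1) * ρ ^ μ) = 1 := by
      rw [← Real.rpow_add hρ, show -μ - 1 + μ = -1 by ring, Real.rpow_neg_one]; field_simp
    linear_combination (-(-μ - 1) * BB μ w ρ) * e1 - w ρ * e2

theorem PP_hi (hμ : 0 < μ) (hw : Wt w) {ρ : ℝ} (h : 5 ≤ ρ) :
    PP μ w ρ = BB μ w 5 / μ * ρ ^ (-μ) := by
  unfold PP
  have : ∫ r in (5 : ℝ)..ρ, QQ μ w r = BB μ w 5 / μ * ρ ^ (-μ) - BB μ w 5 / μ * 5 ^ (-μ) := by
    refine intervalIntegral.integral_eq_sub_of_hasDerivAt (f := fun r => BB μ w 5 / μ * r ^ (-μ))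
      (fun r hr => ?_) ((contDiff_QQ hμ hw).continuous.intervalIntegrable _ _)
    have h5 : 5 ≤ r := (le_min le_rfl h).trans hr.1
    have := (Real.hasDerivAt_rpow_const (x := r) (p := -μ) (Or.inl (by linarith))).const_mul
      (BB μ w 5 / μ)
    refine this.congr_deriv ?_
    rw [QQ, BB_hi hμ hw h5]
    field_simp
  rw [this]; ring

/-- the rescaled profile -/
def PS (μ : ℝ) (w : ℝ → ℝ) (s ρ : ℝ) : ℝ := s ^ (-μ) * PP μ w (ρ / s)

theorem hasDerivAt_PS (hμ : 0 < μ) (hw : Wt w) (s ρ : ℝ) :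
    HasDerivAt (PS μ w s) (s ^ (-μ) * (QQ μ w (ρ / s) / s)) ρ := by
  have := ((hasDerivAt_PP hμ hw (ρ / s)).comp ρ ((hasDerivAt_id ρ).div_const s)).const_mul
    (s ^ (-μ))
  refine HasDerivAt.congr_deriv this ?_
  ring

theorem contDiff_PS (hμ : 0 < μ) (hw : Wt w) (s : ℝ) : ContDiff ℝ 2 (PS μ w s) :=
  contDiff_const.mul ((contDiff_PP hμ hw).comp (contDiff_id.div_const s))

theorem PS_ode (hμ : 0 < μ) (hw : Wt w) {s : ℝ} (hs : 0 < s) (ρ : ℝ) :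
    4 * ρ * deriv (deriv (PS μ w s)) ρ + 4 * (μ + 1) * deriv (PS μ w s) ρ =
      -(4 * (s ^ (-μ) / s * w (ρ / s))) := by
  have h1 : deriv (PS μ w s) = fun ρ => s ^ (-μ) * (QQ μ w (ρ / s) / s) :=
    funext fun ρ => (hasDerivAt_PS hμ hw s ρ).deriv
  have h2 : HasDerivAt (fun ρ => s ^ (-μ) * (QQ μ w (ρ / s) / s))
      (s ^ (-μ) * (deriv (QQ μ w) (ρ / s) * (1 / s) / s)) ρ :=
    (((((contDiff_QQ hμ hw).differentiable (by simp)) (ρ / s)).hasDerivAt.comp ρ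
      ((hasDerivAt_id ρ).div_const s)).div_const s).const_mul _
  rw [h1, h2.deriv]
  have := QQ_ode hμ hw (ρ / s)
  have e : 4 * ρ * (s ^ (-μ) * (deriv (QQ μ w) (ρ / s) * (1 / s) / s)) =
      4 * (s ^ (-μ) / s) * (ρ / s * deriv (QQ μ w) (ρ / s)) := by field_simp
  rw [e]
  linear_combination 4 * (s ^ (-μ) / s) * this

theorem PS_hi (hμ : 0 < μ) (hw : Wt w) {s ρ : ℝ} (hs : 0 < s) (h : 5 * s ≤ ρ) :
    PS μ w s ρ = BB μ w 5 / μ * ρ ^ (-μ) := by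
  unfold PS
  rw [PP_hi hμ hw ((le_div_iff₀ hs).2 h), Real.div_rpow (by linarith) hs.le]
  have := (Real.rpow_pos_of_pos hs (-μ)).ne'
  field_simp

theorem PS_anti (hμ : 0 < μ) (hw : Wt w) {s s' ρ : ℝ} (hs : 0 < s) (hss : s ≤ s') (hρ : 0 ≤ ρ) :
    PS μ w s' ρ ≤ PS μ w s ρ := by
  have hs' : 0 < s' := hs.trans_le hss
  have hz : ∀ ρ, 5 * s' ≤ ρ → PS μ w s ρ - PS μ w s' ρ = 0 := fun ρ h => by
    rw [PS_hi hμ hw hs (by linarith), PS_hi hμ hw hs' h, sub_self]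
  have hd : ∀ t ρ : ℝ, 0 < t → 0 < ρ →
      t ^ (-μ) * (QQ μ w (ρ / t) / t) = -(ρ ^ (-μ - 1) * BB μ w (ρ / t)) := fun t ρ ht hρ => by
    rw [QQ, Real.div_rpow hρ.le ht.le, Real.rpow_sub_one ht.ne' (-μ)]
    have := (Real.rpow_pos_of_pos ht (-μ)).ne'
    field_simp
  have hanti : AntitoneOn (fun ρ => PS μ w s ρ - PS μ w s' ρ) (Ici 0) := by
    refine antitoneOn_of_deriv_nonpos (convex_Ici 0)
      ((contDiff_PS hμ hw s).continuous.sub (contDiff_PS hμ hw s').continuous).continuousOn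
      (fun ρ _ => ((hasDerivAt_PS hμ hw s ρ).sub
        (hasDerivAt_PS hμ hw s' ρ)).differentiableAt.differentiableWithinAt) fun ρ hρ => ?_
    rw [interior_Ici] at hρ
    rw [((hasDerivAt_PS hμ hw s ρ).fun_sub (hasDerivAt_PS hμ hw s' ρ)).deriv, hd s ρ hs hρ,
      hd s' ρ hs' hρ]
    have h1 : BB μ w (ρ / s') ≤ BB μ w (ρ / s) :=
      mono_BB hμ hw (div_le_div_of_nonneg_left (le_of_lt hρ) hs hss)
    have h2 := mul_le_mul_of_nonneg_left h1 (Real.rpow_pos_of_pos hρ (-μ - 1)).le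
    linarith
  rcases le_total ρ (5 * s') with h | h
  · have := hanti hρ (show (0 : ℝ) ≤ 5 * s' by positivity) h
    simp only [hz _ le_rfl] at this
    linarith
  · linarith [hz ρ h]

theorem PS_tendsto (hμ : 0 < μ) (hw : Wt w) (ρ : ℝ) :
    Tendsto (fun s => PS μ w s ρ) atTop (𝓝 0) := by
  have h1 := tendsto_rpow_neg_atTop hμ
  have h2 : Tendsto (fun s : ℝ => PP μ w (ρ / s)) atTop (𝓝 (PP μ w 0)) :=
    ((contDiff_PP hμ hw).continuous.tendsto 0).comp (tendsto_const_nhds.div_atTop tendsto_id)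
  simpa [PS] using h1.mul h2

variable {n : ℕ}

/-- the weighted average of `v` on the scale `r` around `x` -/
def AA (w : ℝ → ℝ) (v : Eu n → ℝ) (x : Eu n) (r : ℝ) : ℝ := ∫ z : Eu n, v (x + r • z) * w (‖z‖ ^ 2)

def CC (n : ℕ) (w : ℝ → ℝ) : ℝ := ∫ z : Eu n, w (‖z‖ ^ 2)

theorem w_zero (hw : Wt w) {z : Eu n} (hz : z ∉ Metric.closedBall (0 : Eu n) 3) : w (‖z‖ ^ 2) = 0 := by
  rw [mem_closedBall_zero_iff, not_le] at hz
  exact hw.hi _ (by nlinarith)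

theorem w_cont (hw : Wt w) : Continuous fun z : Eu n => w (‖z‖ ^ 2) := hw.cont.comp (by fun_prop)

theorem w_supp (hw : Wt w) : HasCompactSupport fun z : Eu n => w (‖z‖ ^ 2) :=
  HasCompactSupport.intro (isCompact_closedBall 0 3) fun _ hz => w_zero hw hz

theorem CC_pos (hn : 1 ≤ n) (hw : Wt w) : 0 < CC n w := by
  refine (w_cont hw).integral_pos_of_hasCompactSupport_nonneg_nonzero (w_supp hw)
    (fun z => hw.nonneg _) (x := EuclideanSpace.single ⟨0, hn⟩ (√(5 / 2))) ?_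
  rw [PiLp.norm_single, Real.norm_eq_abs, sq_abs, Real.sq_sqrt (by norm_num)]
  exact hw.pos.ne'

theorem AA_cont (hw : Wt w) {v : Eu n → ℝ} (hv : Continuous v) (x : Eu n) :
    Continuous (AA w v x) := by
  have h := continuous_parametric_integral_of_continuous (μ := (volume : Measure (Eu n)))
    (f := fun (r : ℝ) (z : Eu n) => v (x + r • z) * w (‖z‖ ^ 2))
    (by have := hw.cont; fun_prop) (isCompact_closedBall (0 : Eu n) 3)
  refine h.congr fun r => ?_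
  exact setIntegral_eq_integral_of_forall_compl_eq_zero fun z hz => by rw [w_zero hw hz, mul_zero]

theorem AA_zero (v : Eu n → ℝ) (x : Eu n) : AA w v x 0 = CC n w * v x := by
  simp [AA, CC, integral_const_mul, mul_comm]

theorem AA_nonneg (hw : Wt w) {v : Eu n → ℝ} (hv : ∀ y, 0 < v y) (x : Eu n) (r : ℝ) :
    0 ≤ AA w v x r := integral_nonneg fun _ => mul_nonneg (hv _).le (hw.nonneg _)

theorem AA_eq (v : Eu n → ℝ) (x : Eu n) {r : ℝ} (hr : 0 < r) :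
    ∫ y, v y * ((r ^ n)⁻¹ * w (‖y - x‖ ^ 2 / r ^ 2)) = AA w v x r := by
  set F : Eu n → ℝ := fun y => v (x + y) * w (‖y‖ ^ 2 / r ^ 2) with hF
  have h1 : AA w v x r = ∫ z, F (r • z) := by
    refine integral_congr_ae (Eventually.of_forall fun z => ?_)
    simp only [hF, norm_smul, Real.norm_eq_abs, mul_pow, sq_abs]
    rw [mul_div_cancel_left₀ _ (pow_pos hr 2).ne']
  rw [h1, Measure.integral_comp_smul, finrank_euclideanSpace_fin, abs_of_pos (by positivity),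
    smul_eq_mul, ← integral_sub_right_eq_self F x, ← integral_const_mul]
  refine integral_congr_ae (Eventually.of_forall fun y => ?_)
  simp only [hF, add_sub_cancel]
  ring

theorem integrable_w (hw : Wt w) {v : Eu n → ℝ} (hv : Continuous v) (x : Eu n) {r : ℝ} (hr : 0 < r) :
    Integrable fun y => v y * ((r ^ n)⁻¹ * w (‖y - x‖ ^ 2 / r ^ 2)) := by
  refine Continuous.integrable_of_hasCompactSupport (by have := hw.cont; fun_prop) ?_
  refine HasCompactSupport.intro (isCompact_closedBall x (3 * r)) fun y hy => ?_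
  rw [Metric.mem_closedBall, dist_eq_norm, not_le] at hy
  rw [hw.hi, mul_zero, mul_zero]
  rw [le_div_iff₀ (by positivity)]
  nlinarith

/-- the test function -/
def TT (μ : ℝ) (w : ℝ → ℝ) (x : Eu n) (r R : ℝ) (y : Eu n) : ℝ :=
  PS μ w (r ^ 2) (‖y - x‖ ^ 2) - PS μ w (R ^ 2) (‖y - x‖ ^ 2)

theorem lap_PS (hn : 3 ≤ n) (hw : Wt w) (x y : Eu n) {r : ℝ} (hr : 0 < r) :
    (Δ fun y : Eu n => PS (((n : ℝ) - 2) / 2) w (r ^ 2) (‖y - x‖ ^ 2)) y =
      -(4 * ((r ^ n)⁻¹ * w (‖y - x‖ ^ 2 / r ^ 2))) := by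
  have hn' : (3 : ℝ) ≤ n := by exact_mod_cast hn
  have hμ : 0 < ((n : ℝ) - 2) / 2 := by linarith
  rw [lap_radial x y (contDiff_PS hμ hw _).contDiffAt]
  have h := PS_ode hμ hw (pow_pos hr 2) (‖y - x‖ ^ 2)
  have e : (r ^ 2) ^ (-(((n : ℝ) - 2) / 2)) / r ^ 2 = (r ^ n)⁻¹ := by
    rw [← Real.rpow_sub_one (pow_pos hr 2).ne', ← Real.rpow_natCast r 2, ← Real.rpow_mul hr.le,
      ← Real.rpow_natCast r n, ← Real.rpow_neg hr.le]
    congr 1
    push_cast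
    ring
  rw [e] at h
  linear_combination h

theorem green_TT (hn : 3 ≤ n) (hw : Wt w) {v : Eu n → ℝ} (hv0 : Continuous v)
    (hv : ContDiffOn ℝ 2 v {0}ᶜ) (hΔ : ∀ y, y ≠ 0 → (Δ v) y ≤ 0) (x : Eu n) {r R : ℝ} (hr : 0 < r)
    (hrR : r ≤ R) :
    Integrable (fun y => TT (((n : ℝ) - 2) / 2) w x r R y * (-(Δ v) y)) ∧
      ∫ y, TT (((n : ℝ) - 2) / 2) w x r R y * (-(Δ v) y) = 4 * (AA w v x r - AA w v x R) := by
  have hn' : (3 : ℝ) ≤ n := by exact_mod_cast hn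
  have hμ : 0 < ((n : ℝ) - 2) / 2 := by linarith
  have hR : 0 < R := hr.trans_le hrR
  have hsq : r ^ 2 ≤ R ^ 2 := pow_le_pow_left₀ hr.le hrR 2
  have hs : ∀ s, ContDiff ℝ 2 fun y : Eu n => PS (((n : ℝ) - 2) / 2) w s (‖y - x‖ ^ 2) := fun s =>
    (contDiff_PS hμ hw s).comp ((contDiff_norm_sq ℝ).comp (contDiff_id.sub contDiff_const))
  have hc : HasCompactSupport (TT (((n : ℝ) - 2) / 2) w x r R) := by
    refine HasCompactSupport.intro (isCompact_closedBall x (3 * R)) fun y hy => ?_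
    rw [Metric.mem_closedBall, dist_eq_norm, not_le] at hy
    have h : 5 * R ^ 2 ≤ ‖y - x‖ ^ 2 := by nlinarith
    rw [TT, PS_hi hμ hw (pow_pos hr 2) (by linarith), PS_hi hμ hw (pow_pos hR 2) h, sub_self]
  obtain ⟨h1, h2⟩ := green hn hv0 hv hΔ (ψ := TT (((n : ℝ) - 2) / 2) w x r R)
    ((hs _).sub (hs _)) hc
    fun y => sub_nonneg.2 (PS_anti hμ hw (pow_pos hr 2) hsq (by positivity))
  refine ⟨h1, ?_⟩
  rw [h2, ← AA_eq v x hr, ← AA_eq v x hR,
    ← integral_sub (integrable_w hw hv0 x hr) (integrable_w hw hv0 x hR), ← integral_const_mul]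
  refine integral_congr_ae (Eventually.of_forall fun y => ?_)
  have h3 : (Δ (TT (((n : ℝ) - 2) / 2) w x r R)) y =
      (Δ fun y : Eu n => PS (((n : ℝ) - 2) / 2) w (r ^ 2) (‖y - x‖ ^ 2)) y -
      (Δ fun y : Eu n => PS (((n : ℝ) - 2) / 2) w (R ^ 2) (‖y - x‖ ^ 2)) y :=
    ((hs _).contDiffAt).laplacian_sub (hs _).contDiffAt
  simp only
  rw [h3, lap_PS hn hw x y hr, lap_PS hn hw x y hR]
  ring

theorem ae_ne (hn : 3 ≤ n) (x : Eu n) : ∀ᵐ y : Eu n, y ≠ x := by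
  have : Nontrivial (Eu n) := Module.nontrivial_of_finrank_pos (R := ℝ)
    (by rw [finrank_euclideanSpace_fin]; omega)
  simp [ae_iff]

theorem TT_nonneg (hn : 3 ≤ n) (hw : Wt w) (x : Eu n) {r R : ℝ} (hr : 0 < r) (hrR : r ≤ R)
    (y : Eu n) : 0 ≤ TT (((n : ℝ) - 2) / 2) w x r R y := by
  have hn' : (3 : ℝ) ≤ n := by exact_mod_cast hn
  exact sub_nonneg.2 (PS_anti (by linarith) hw (pow_pos hr 2) (pow_le_pow_left₀ hr.le hrR 2)
    (by positivity))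

theorem AA_anti (hn : 3 ≤ n) (hw : Wt w) {v : Eu n → ℝ} (hv0 : Continuous v)
    (hv : ContDiffOn ℝ 2 v {0}ᶜ) (hΔ : ∀ y, y ≠ 0 → (Δ v) y ≤ 0) (x : Eu n) {r R : ℝ} (hr : 0 < r)
    (hrR : r ≤ R) : AA w v x R ≤ AA w v x r := by
  have h := (green_TT hn hw hv0 hv hΔ x hr hrR).2
  have h0 : 0 ≤ ∫ y, TT (((n : ℝ) - 2) / 2) w x r R y * (-(Δ v) y) := by
    refine integral_nonneg_of_ae ?_
    filter_upwards [ae_ne hn 0] with y hy
    exact mul_nonneg (TT_nonneg hn hw x hr hrR y) (neg_nonneg.2 (hΔ y hy))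
  linarith

theorem AA_le (hn : 3 ≤ n) (hw : Wt w) {v : Eu n → ℝ} (hv0 : Continuous v)
    (hv : ContDiffOn ℝ 2 v {0}ᶜ) (hΔ : ∀ y, y ≠ 0 → (Δ v) y ≤ 0) (x : Eu n) {R : ℝ} (hR : 0 < R) :
    AA w v x R ≤ CC n w * v x := by
  rw [← AA_zero]
  refine ge_of_tendsto (((AA_cont hw hv0 x).tendsto 0).mono_left (nhdsWithin_le_nhds (s := Ioi 0))) ?_
  filter_upwards [Ioo_mem_nhdsGT hR] with r hr
  exact AA_anti hn hw hv0 hv hΔ x hr.1 hr.2.le

/-- the mean of `v` at infinity -/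
def LL (w : ℝ → ℝ) (v : Eu n → ℝ) (x : Eu n) : ℝ := ⨅ k : ℕ, AA w v x (k + 1)

theorem main (hn : 3 ≤ n) (hw : Wt w) {v g : Eu n → ℝ} (hv0 : Continuous v)
    (hv : ContDiffOn ℝ 2 v {0}ᶜ) (hpos : ∀ y, 0 < v y) (hg : ∀ y, y ≠ 0 → -(Δ v) y = g y)
    (hg0 : ∀ y, 0 ≤ g y) (x : Eu n) :
    ∫⁻ y, ENNReal.ofReal ((‖x - y‖ ^ 2) ^ (-(((n : ℝ) - 2) / 2)) * g y) =
      ENNReal.ofReal ((BB (((n : ℝ) - 2) / 2) w 5 / (((n : ℝ) - 2) / 2))⁻¹ *
        (4 * (CC n w * v x - LL w v x))) := by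
  have hn' : (3 : ℝ) ≤ n := by exact_mod_cast hn
  set μ : ℝ := ((n : ℝ) - 2) / 2 with hμdef
  have hμ : 0 < μ := by rw [hμdef]; linarith
  have hΔ : ∀ y, y ≠ 0 → (Δ v) y ≤ 0 := fun y hy => by linarith [hg y hy, hg0 y]
  set b : ℝ := BB μ w 5 / μ with hb
  have hb0 : 0 < b := div_pos (BB_pos hμ hw) hμ
  have hk : ∀ k : ℕ, (0 : ℝ) < k + 1 := fun k => by positivity
  have hk1 : ∀ k : ℕ, (1 : ℝ) / (k + 1) ≤ k + 1 := fun k => by
    rw [div_le_iff₀ (hk k)]; nlinarith [(Nat.cast_nonneg k : (0 : ℝ) ≤ k)]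
  set F : ℕ → Eu n → ℝ := fun k y => TT μ w x (1 / (k + 1)) (k + 1) y * (-(Δ v) y) with hF
  have hG := fun k : ℕ => green_TT hn hw hv0 hv hΔ x (one_div_pos.2 (hk k)) (hk1 k)
  have h1 : Tendsto (fun k => ∫⁻ y, ENNReal.ofReal (F k y)) atTop
      (𝓝 (∫⁻ y, ENNReal.ofReal (b * ((‖x - y‖ ^ 2) ^ (-μ) * g y)))) := by
    refine lintegral_tendsto_of_tendsto_of_monotone
      (fun k => (hG k).1.aemeasurable.ennreal_ofReal) ?_ ?_
    · filter_upwards [ae_ne hn 0] with y hy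
      intro k k' hkk
      have hkk' : (k : ℝ) + 1 ≤ k' + 1 := by exact_mod_cast Nat.succ_le_succ hkk
      refine ENNReal.ofReal_le_ofReal (mul_le_mul_of_nonneg_right ?_ (neg_nonneg.2 (hΔ y hy)))
      refine sub_le_sub (PS_anti hμ hw (by positivity) ?_ (by positivity))
        (PS_anti hμ hw (by positivity) ?_ (by positivity))
      · exact pow_le_pow_left₀ (by positivity) (one_div_le_one_div_of_le (hk k) hkk') 2
      · exact pow_le_pow_left₀ (by positivity) hkk' 2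
    · filter_upwards [ae_ne hn 0, ae_ne hn x] with y hy hyx
      refine ENNReal.tendsto_ofReal ?_
      have hρ : 0 < ‖y - x‖ ^ 2 := pow_pos (norm_pos_iff.2 (sub_ne_zero.2 hyx)) 2
      have t1 : Tendsto (fun k : ℕ => PS μ w ((1 / ((k : ℝ) + 1)) ^ 2) (‖y - x‖ ^ 2)) atTop
          (𝓝 (b * (‖y - x‖ ^ 2) ^ (-μ))) := by
        have t0 : Tendsto (fun k : ℕ => 5 * (1 / ((k : ℝ) + 1)) ^ 2) atTop (𝓝 0) := by
          simpa using ((tendsto_one_div_add_atTop_nhds_zero_nat (𝕜 := ℝ)).pow 2).const_mul 5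
        refine tendsto_const_nhds.congr' ?_
        filter_upwards [t0.eventually (ge_mem_nhds hρ)] with k hk'
        rw [PS_hi hμ hw (by positivity) hk']
      have t2 : Tendsto (fun k : ℕ => PS μ w (((k : ℝ) + 1) ^ 2) (‖y - x‖ ^ 2)) atTop (𝓝 0) :=
        (PS_tendsto hμ hw _).comp ((tendsto_pow_atTop two_ne_zero).comp
          (tendsto_natCast_atTop_atTop.atTop_add tendsto_const_nhds))
      have t3 := (t1.sub t2).mul_const (-(Δ v) y)
      rw [sub_zero, hg y hy, mul_assoc, norm_sub_rev] at t3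
      simpa only [hF, TT, hg y hy, norm_sub_rev x y] using t3
  have h2 : Tendsto (fun k => ∫⁻ y, ENNReal.ofReal (F k y)) atTop
      (𝓝 (ENNReal.ofReal (4 * (CC n w * v x - LL w v x)))) := by
    have e : ∀ k : ℕ, ∫⁻ y, ENNReal.ofReal (F k y) =
        ENNReal.ofReal (4 * (AA w v x (1 / (k + 1)) - AA w v x (k + 1))) := fun k => by
      rw [← (hG k).2, ofReal_integral_eq_lintegral_ofReal (hG k).1]
      filter_upwards [ae_ne hn 0] with y hy
      exact mul_nonneg (TT_nonneg hn hw x (one_div_pos.2 (hk k)) (hk1 k) y)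
        (neg_nonneg.2 (hΔ y hy))
    simp only [e]
    refine ENNReal.tendsto_ofReal (Tendsto.const_mul 4 (Tendsto.sub ?_ ?_))
    · rw [← AA_zero]
      exact ((AA_cont hw hv0 x).tendsto 0).comp tendsto_one_div_add_atTop_nhds_zero_nat
    · refine tendsto_atTop_ciInf (fun k k' hkk => ?_) ⟨0, ?_⟩
      · exact AA_anti hn hw hv0 hv hΔ x (hk k) (by exact_mod_cast Nat.succ_le_succ hkk)
      · rintro _ ⟨k, rfl⟩; exact AA_nonneg hw hpos x _
  have h3 := tendsto_nhds_unique h1 h2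
  rw [ENNReal.ofReal_mul (inv_nonneg.2 hb0.le), ← h3,
    ← lintegral_const_mul' _ _ ENNReal.ofReal_ne_top]
  refine lintegral_congr fun y => ?_
  rw [← ENNReal.ofReal_mul (inv_nonneg.2 hb0.le), inv_mul_cancel_left₀ hb0.ne']

/-- tent weights -/
def tent (a r : ℝ) : ℝ := max 0 (a - |2 * r - 5|)

theorem wt_tent {a : ℝ} (h0 : 0 < a) (h4 : a ≤ 4) : Wt (tent a) where
  cont := by unfold tent; fun_prop
  nonneg _ := le_max_left _ _
  lo r hr := max_eq_left (by linarith [neg_le_abs (2 * r - 5)])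
  hi r hr := max_eq_left (by linarith [le_abs_self (2 * r - 5)])
  pos := by simp [tent, h0, show (2 : ℝ) * (5 / 2) - 5 = 0 by norm_num]

theorem tent_le {z e : Eu n} (he : ‖e‖ ≤ 1 / 4) : tent 1 (‖z‖ ^ 2) ≤ tent 4 (‖z + e‖ ^ 2) := by
  rcases le_or_gt 1 |2 * ‖z‖ ^ 2 - 5| with h | h
  · rw [tent, max_eq_left (by linarith)]; exact le_max_left _ _
  · have h1 := abs_lt.1 h
    have hz := norm_nonneg z
    have h2 : ‖z‖ ≤ 7 / 4 := by nlinarith
    have h3 : 5 / 4 ≤ ‖z‖ := by nlinarith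
    have h4 : ‖z + e‖ ≤ 2 := (norm_add_le _ _).trans (by linarith)
    have h5 : 1 ≤ ‖z + e‖ := by
      have := norm_sub_le (z + e) e
      rw [add_sub_cancel_right] at this
      linarith
    have h6 : |2 * ‖z + e‖ ^ 2 - 5| ≤ 3 := by
      rw [abs_le]; constructor <;> nlinarith
    refine (max_le zero_le_one (by linarith [abs_nonneg (2 * ‖z‖ ^ 2 - 5)])).trans
      (le_max_of_le_right (by linarith))

theorem AA_cmp {v : Eu n → ℝ} (hv0 : Continuous v) (hpos : ∀ y, 0 < v y) (x x' : Eu n) {R : ℝ}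
    (hR : 0 < R) (h : 4 * ‖x' - x‖ ≤ R) : AA (tent 1) v x' R ≤ AA (tent 4) v x R := by
  set e : Eu n := R⁻¹ • (x' - x) with he
  have hen : ‖e‖ ≤ 1 / 4 := by
    rw [he, norm_smul, Real.norm_eq_abs, abs_of_pos (inv_pos.2 hR), inv_mul_le_iff₀ hR]
    linarith
  have hi : ∀ {w : ℝ → ℝ} (_ : Wt w) (x : Eu n),
      Integrable fun z : Eu n => v (x + R • z) * w (‖z‖ ^ 2) := fun hw x =>
    Continuous.integrable_of_hasCompactSupport (by have := hw.cont; fun_prop) (w_supp hw).mul_left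
  unfold AA
  rw [← integral_add_right_eq_self (fun z : Eu n => v (x + R • z) * tent 4 (‖z‖ ^ 2)) e]
  refine integral_mono (hi (wt_tent one_pos (by norm_num)) x')
    ((hi (wt_tent four_pos le_rfl) x).comp_add_right e) fun z => ?_
  have : x + R • (z + e) = x' + R • z := by
    rw [smul_add, he, smul_inv_smul₀ hR.ne']; abel
  simp only [this]
  exact mul_le_mul_of_nonneg_left (tent_le hen) (hpos _).le

end RepA

open RepA

variable {n : ℕ}

/-- Newton potential representation, `μ = (n-2)/2`.  For a weight `w ≥ 0` supported in `[1/2, 9/2]` let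
`P' = -ρ^{-μ-1} ∫_0^ρ r^μ w`, `P = b ρ^{-μ}` for large `ρ`; then `-Δ P(‖y‖²) = 4 w(‖y‖²)`.  Test the equation with
differences of two rescalings of `P`; monotone convergence gives `b ∫ N g = 4 (c₀ v x - L x)`, where `L x` is the mean
of `v` at infinity.  If `L x' > 0`, a wider weight gives a uniform lower bound for `v`. -/
theorem rep (hn : 3 ≤ n) : ∃ c : ℝ, 0 < c ∧ ∀ v g : Eu n → ℝ, Continuous v → ContDiffOn ℝ 2 v {0}ᶜ → (∀ y, 0 < v y) →
    (∀ y, y ≠ 0 → -(Δ v) y = g y) → (∀ y, 0 ≤ g y) →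
    (∀ x, ∫⁻ y, ENNReal.ofReal ((‖x - y‖ ^ 2) ^ (-(((n : ℝ) - 2) / 2)) * g y) ≤ ENNReal.ofReal (c * v x)) ∧
    ((∀ x, ∫⁻ y, ENNReal.ofReal ((‖x - y‖ ^ 2) ^ (-(((n : ℝ) - 2) / 2)) * g y) = ENNReal.ofReal (c * v x)) ∨
      ∃ κ : ℝ, 0 < κ ∧ ∀ x, κ ≤ v x) := by
  have hn' : (3 : ℝ) ≤ n := by exact_mod_cast hn
  have hμ : 0 < ((n : ℝ) - 2) / 2 := by linarith
  have w1 : Wt (tent 1) := wt_tent one_pos (by norm_num)
  have w4 : Wt (tent 4) := wt_tent four_pos le_rfl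
  set b : ℝ := (BB (((n : ℝ) - 2) / 2) (tent 1) 5 / (((n : ℝ) - 2) / 2))⁻¹ with hb
  have hb0 : 0 < b := inv_pos.2 (div_pos (BB_pos hμ w1) hμ)
  have hc1 := CC_pos (n := n) (by omega) w1
  have hc4 := CC_pos (n := n) (by omega) w4
  refine ⟨b * (4 * CC n (tent 1)), by positivity, fun v g hv0 hv hpos hg hg0 => ?_⟩
  have hΔ : ∀ y, y ≠ 0 → (Δ v) y ≤ 0 := fun y hy => by linarith [hg y hy, hg0 y]
  have hm := main hn w1 hv0 hv hpos hg hg0
  rw [← hb] at hm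
  have hL0 : ∀ x, 0 ≤ LL (tent 1) v x := fun x => le_ciInf fun k => AA_nonneg w1 hpos x _
  refine ⟨fun x => ?_, ?_⟩
  · rw [hm x]
    refine ENNReal.ofReal_le_ofReal ?_
    have := mul_nonneg hb0.le (hL0 x)
    nlinarith
  · by_cases h : ∀ x, LL (tent 1) v x = 0
    · left
      intro x
      rw [hm x, h x]
      congr 1
      ring
    · right
      push Not at h
      obtain ⟨x', hx'⟩ := h
      have hL : 0 < LL (tent 1) v x' := lt_of_le_of_ne (hL0 x') hx'.symm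
      refine ⟨LL (tent 1) v x' / CC n (tent 4), div_pos hL hc4, fun x => ?_⟩
      obtain ⟨k, hk⟩ := exists_nat_ge (4 * ‖x' - x‖)
      have hk0 : (0 : ℝ) < k + 1 := by positivity
      have h1 : LL (tent 1) v x' ≤ AA (tent 1) v x' (k + 1) :=
        ciInf_le ⟨0, by rintro _ ⟨k, rfl⟩; exact AA_nonneg w1 hpos x' _⟩ k
      have h2 := AA_cmp hv0 hpos x x' hk0 (by linarith)
      have h3 := AA_le hn w4 hv0 hv hΔ x hk0
      rw [div_le_iff₀' hc4]
      linarith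

end Crest.Agent.R77
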