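import Crest.Agent.R77.Rep
import Crest.Agent.R77.Polar
set_option autoImplicit false

noncomputable section

namespace Crest.Agent.R77

open MeasureTheory Set Filter Topology
open scoped ENNReal
open Laplacian InnerProductSpace

variable {n : ℕ}

/-- the data on the cylinder -/
def dat (n : ℕ) (c p q A B : ℝ) (u v : Eu n → ℝ) : Dat (Sp n) where
  μ := ((n : ℝ) - 2) / 2
  a := ((n : ℝ) + A) / (p + 1) - ((n : ℝ) - 2) / 2
  b := ((n : ℝ) + B) / (q + 1) - ((n : ℝ) - 2) / 2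
  c := c
  p := p
  q := q
  l := fun ω ω' => inner ℝ (ω : Eu n) (ω' : Eu n)
  V := fun x => Real.exp (((n : ℝ) + A) / (p + 1) * x.1) * v (Real.exp x.1 • (x.2 : Eu n))
  U := fun x => Real.exp (((n : ℝ) + B) / (q + 1) * x.1) * u (Real.exp x.1 • (x.2 : Eu n))

theorem dat_swap (c p q A B : ℝ) (u v : Eu n → ℝ) : (dat n c p q A B u v).swap = dat n c q p B A v u := rfl

theorem tr_inner_le (ω ω' : Sp n) : inner ℝ (ω : Eu n) (ω' : Eu n) ≤ 1 := by
  have := real_inner_le_norm (ω : Eu n) (ω' : Eu n)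
  rwa [norm_eq_of_mem_sphere, norm_eq_of_mem_sphere, mul_one] at this

theorem tr_norm (y : ℝ × Sp n) : ‖Real.exp y.1 • (y.2 : Eu n)‖ = Real.exp y.1 := by
  rw [norm_smul, norm_eq_of_mem_sphere, mul_one, Real.norm_eq_abs, abs_of_pos (Real.exp_pos _)]

/-- `lintegral_polar`, `norm_sub_sq_polar`; `(q+1)(b+μ) = n + B` -/
theorem dat_pot (hn : 3 ≤ n) (c p A B : ℝ) {q : ℝ} (hq : 0 < q) {u : Eu n → ℝ} (v : Eu n → ℝ) (hu : Continuous u)
    (hpos : ∀ y, 0 < u y) (x : ℝ × Sp n) :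
    (dat n c p q A B u v).pot (sg n) x = ENNReal.ofReal (Real.exp (((n : ℝ) + A) / (p + 1) * x.1)) *
      ∫⁻ y, ENNReal.ofReal ((‖Real.exp x.1 • (x.2 : Eu n) - y‖ ^ 2) ^ (-(((n : ℝ) - 2) / 2)) * (‖y‖ ^ B * u y ^ q)) := by
  have hm : Measurable fun y : Eu n => ENNReal.ofReal
      ((‖Real.exp x.1 • (x.2 : Eu n) - y‖ ^ 2) ^ (-(((n : ℝ) - 2) / 2)) * (‖y‖ ^ B * u y ^ q)) := by
    have := hu.measurable
    refine ENNReal.measurable_ofReal.comp ?_
    refine Measurable.mul (Measurable.pow_const ?_ _) (Measurable.mul (Measurable.pow_const ?_ _)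
      (Measurable.pow_const this _))
    · exact (by fun_prop : Continuous fun y : Eu n => ‖Real.exp x.1 • (x.2 : Eu n) - y‖ ^ 2).measurable
    · exact measurable_norm
  rw [lintegral_polar (by omega) hm, ← lintegral_const_mul' _ _ ENNReal.ofReal_ne_top, Dat.pot]
  refine lintegral_congr fun y => ?_
  rw [← ENNReal.ofReal_mul (Real.exp_pos _).le, ← ENNReal.ofReal_mul (Real.exp_pos _).le]
  congr 1
  have hl : inner ℝ (x.2 : Eu n) (y.2 : Eu n) ≤ 1 := tr_inner_le x.2 y.2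
  have hn1 : ‖Real.exp y.1 • (y.2 : Eu n)‖ = Real.exp y.1 := tr_norm y
  simp only [Dat.k, Dat.g, dat, KK, Kz]
  rw [norm_sub_sq_polar, hn1, Real.mul_rpow (Real.exp_pos _).le (Dz_nonneg hl _),
    Real.mul_rpow (Real.exp_pos _).le (hpos _).le, ← Real.exp_mul, ← Real.exp_mul, ← Real.exp_mul]
  have e : Real.exp ((((n : ℝ) + A) / (p + 1) - ((n : ℝ) - 2) / 2) * x.1 +
      (((n : ℝ) + B) / (q + 1) - ((n : ℝ) - 2) / 2) * y.1) * Real.exp (((n : ℝ) + B) / (q + 1) * y.1 * q) =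
      Real.exp (((n : ℝ) + A) / (p + 1) * x.1) * Real.exp (n * y.1) *
        Real.exp ((x.1 + y.1) * -(((n : ℝ) - 2) / 2)) * Real.exp (y.1 * B) := by
    simp only [← Real.exp_add]
    congr 1
    have : (q + 1) ≠ 0 := by positivity
    have h2 : ((n : ℝ) + B) / (q + 1) * y.1 * q + ((n : ℝ) + B) / (q + 1) * y.1 = (n + B) * y.1 := by
      field_simp
    linarith
  linear_combination (Dz (inner ℝ (x.2 : Eu n) (y.2 : Eu n)) (x.1 - y.1) ^ (-(((n : ℝ) - 2) / 2)) *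
    u (Real.exp y.1 • (y.2 : Eu n)) ^ q) * e

theorem dat_com (hn : 3 ≤ n) {c p q A B : ℝ} (hc : 0 < c) (u v : Eu n → ℝ)
    (hsub : (n : ℝ) - 2 < ((n : ℝ) + A) / (p + 1) + ((n : ℝ) + B) / (q + 1)) : Com (dat n c p q A B u v) (sg n) := by
  have h3 : (3 : ℝ) ≤ n := by exact_mod_cast hn
  refine ⟨?_, ?_, hc, ?_, fun ω ω' => real_inner_comm _ _, fun ω ω' => ?_, tr_inner_le,
    sphere_ae_lt (by omega), sphere_sing hn⟩
  · simp only [dat]; linarith
  · simp only [dat]; linarith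
  · simp only [dat]; fun_prop
  · have := abs_real_inner_le_norm (ω : Eu n) (ω' : Eu n)
    rw [norm_eq_of_mem_sphere, norm_eq_of_mem_sphere, mul_one] at this
    exact (abs_le.mp this).1

/-- `v` is bounded above on the ball of radius `e^T` and bounded below on the unit ball -/
theorem dat_half (hn : 3 ≤ n) {c p q : ℝ} (A B : ℝ) (hp : 0 < p) (hq : 0 < q) {u v : Eu n → ℝ} (hu : Continuous u)
    (hv : Continuous v) (hu0 : ∀ y, 0 < u y) (hv0 : ∀ y, 0 < v y)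
    (hs : ∀ x, ∫⁻ y, ENNReal.ofReal ((‖x - y‖ ^ 2) ^ (-(((n : ℝ) - 2) / 2)) * (‖y‖ ^ B * u y ^ q)) ≤
      ENNReal.ofReal (c * v x)) : Half (dat n c p q A B u v) (sg n) := by
  have hμ : (dat n c p q A B u v).a + (dat n c p q A B u v).μ = ((n : ℝ) + A) / (p + 1) := by
    simp only [dat]; ring
  refine ⟨hp, ?_, fun x => mul_pos (Real.exp_pos _) (hv0 _), fun T => ?_, ?_, fun x => ?_⟩
  · simp only [dat]; fun_prop
  · obtain ⟨C, hC⟩ := (isCompact_closedBall (0 : Eu n) (Real.exp T)).bddAbove_image hv.continuousOn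
    refine ⟨C, fun x hx => ?_⟩
    rw [hμ, mul_comm]
    refine mul_le_mul_of_nonneg_left (hC ⟨_, ?_, rfl⟩) (Real.exp_pos _).le
    rw [mem_closedBall_zero_iff, tr_norm]
    exact Real.exp_le_exp.mpr hx
  · obtain ⟨z, -, hz⟩ := (isCompact_closedBall (0 : Eu n) 1).exists_isMinOn
      ⟨0, Metric.mem_closedBall_self zero_le_one⟩ hv.continuousOn
    refine ⟨v z, hv0 z, fun x hx => ?_⟩
    rw [hμ, mul_comm]
    refine mul_le_mul_of_nonneg_left (hz ?_) (Real.exp_pos _).le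
    rw [mem_closedBall_zero_iff, tr_norm]
    exact Real.exp_le_one_iff.mpr hx
  · rw [dat_pot hn c p A B hq v hu hu0]
    refine (mul_le_mul_right (hs _) _).trans (le_of_eq ?_)
    rw [← ENNReal.ofReal_mul (Real.exp_pos _).le]
    congr 1
    simp only [dat]; ring

theorem dat_eqn (hn : 3 ≤ n) (c p A B : ℝ) {q : ℝ} (hq : 0 < q) {u v : Eu n → ℝ} (hu : Continuous u)
    (hu0 : ∀ y, 0 < u y)
    (hs : ∀ x, ∫⁻ y, ENNReal.ofReal ((‖x - y‖ ^ 2) ^ (-(((n : ℝ) - 2) / 2)) * (‖y‖ ^ B * u y ^ q)) =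
      ENNReal.ofReal (c * v x)) : Eqn (dat n c p q A B u v) (sg n) := by
  intro x
  rw [dat_pot hn c p A B hq v hu hu0, hs, ← ENNReal.ofReal_mul (Real.exp_pos _).le]
  congr 1
  simp only [dat]; ring

end Crest.Agent.R77
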