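import Crest.Agent.R77.Hole
set_option autoImplicit false
set_option linter.unusedSectionVars false

noncomputable section

namespace Crest.Agent.R77

open MeasureTheory Set Filter Topology
open scoped ENNReal

variable {S : Type} [MetricSpace S] [CompactSpace S] [MeasurableSpace S] [BorelSpace S] [Nonempty S]
  {ν : Measure S} [IsFiniteMeasure ν] [ν.IsOpenPosMeasure] {d : Dat S}

theorem cut_nonneg (τ ρ m : ℝ) : 0 ≤ cut τ ρ m := le_max_left _ _

theorem cut_le_one (τ ρ m : ℝ) : cut τ ρ m ≤ 1 := max_le zero_le_one (min_le_left _ _)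

theorem cut_eq_zero {τ ρ m : ℝ} (hρ : 0 < ρ) (h : τ + ρ ≤ m) : cut τ ρ m = 0 := by
  unfold cut
  refine max_eq_left ((min_le_right _ _).trans ?_)
  exact div_nonpos_of_nonpos_of_nonneg (by linarith) hρ.le

theorem cut_eq_one {τ ρ m : ℝ} (hρ : 0 < ρ) (h : m ≤ τ) : cut τ ρ m = 1 := by
  unfold cut
  rw [min_eq_left, max_eq_right zero_le_one]
  rw [le_div_iff₀ hρ]
  linarith

theorem continuous_cut (τ ρ : ℝ) : Continuous (cut τ ρ) := by
  unfold cut
  fun_prop

theorem cut_sub_le {τ ρ m m' : ℝ} (hρ : 0 < ρ) (h : m ≤ m') : cut τ ρ m - cut τ ρ m' ≤ (m' - m) / ρ := by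
  have e : (τ + ρ - m) / ρ = (τ + ρ - m') / ρ + (m' - m) / ρ := by field_simp; ring
  have h0 : 0 ≤ (m' - m) / ρ := div_nonneg (by linarith) hρ.le
  unfold cut
  rw [e]
  generalize (τ + ρ - m') / ρ = x
  generalize (m' - m) / ρ = y at h0
  simp only [max_def, min_def]
  split_ifs <;> linarith

theorem cut_anti {τ ρ m m' : ℝ} (hρ : 0 < ρ) (h : m ≤ m') : cut τ ρ m' ≤ cut τ ρ m := by
  unfold cut
  gcongr

theorem Ok.z_a_add_pos (h : Ok d ν) : 0 < d.a + d.μ := by
  have h1 := h.exp_pos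
  have h2 := h.com.μpos
  have h3 := h.hV.ppos
  by_contra hc
  push Not at hc
  nlinarith

theorem Ok.left_exit (h : Ok d ν) (ω : S) {l : ℝ} (hl : 0 < l) (t : ℝ) : ∃ t', t' ≤ t ∧ d.f (t', ω) ≤ l := by
  obtain ⟨C, hC⟩ := h.hV.up t
  have hp := h.hV.ppos
  have h1 : Tendsto (fun s : ℝ => C * Real.exp ((d.a + d.μ) * s)) atBot (𝓝 (C * 0)) :=
    (Real.tendsto_exp_atBot.comp (tendsto_id.const_mul_atBot h.z_a_add_pos)).const_mul C
  rw [mul_zero] at h1
  have h2 : 0 < l ^ d.p⁻¹ := Real.rpow_pos_of_pos hl _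
  obtain ⟨s, hs1, hs2⟩ := ((h1.eventually (gt_mem_nhds h2)).and (eventually_le_atBot t)).exists
  refine ⟨s, hs2, ?_⟩
  have h3 : d.V (s, ω) ≤ l ^ d.p⁻¹ := (hC (s, ω) hs2).trans hs1.le
  calc d.f (s, ω) ≤ (l ^ d.p⁻¹) ^ d.p := Real.rpow_le_rpow (h.hV.pos _).le h3 hp.le
    _ = l := Real.rpow_inv_rpow hl.le hp.ne'

theorem Ok.integrable_cut (h : Ok d ν) {T τ ρ : ℝ} (hρ : 0 < ρ) (hτ : τ + ρ ≤ T + 3) {w : Xs S × Xs S → ℝ}
    (hw : Measurable w) (h0 : ∀ z, 0 ≤ w z) (h1 : ∀ z, w z ≤ cut τ ρ (Pos d.f T z.1)) :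
    Integrable (fun z : Xs S × Xs S => w z * d.kd (pt z.1) (pt z.2)) (MM d ν) := by
  have hm : Measurable fun z : (ℝ × S) × (ℝ × S) => if z.1.1 ≤ T + 10 then d.kd z.1 z.2 else 0 :=
    Measurable.ite (measurableSet_le (measurable_fst.comp measurable_fst) measurable_const) h.com.measurable_kd
      measurable_const
  have hi := integrable_lift h hm (h.integrable_kd (T + 10))
  have hpt : Measurable fun z : Xs S × Xs S => (pt z.1, pt z.2) :=
    (measurable_pt.comp measurable_fst).prodMk (measurable_pt.comp measurable_snd)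
  refine hi.mono (hw.mul (h.com.measurable_kd.comp hpt)).aestronglyMeasurable (ae_of_all _ fun z => ?_)
  dsimp only
  split_ifs with hz
  · rw [norm_mul]
    refine mul_le_of_le_one_left (norm_nonneg _) ?_
    rw [Real.norm_of_nonneg (h0 z)]
    exact (h1 z).trans (cut_le_one _ _ _)
  · have h2 : T + 5 ≤ Pos d.f T z.1 := pos_ge _ _ (le_of_lt (not_le.1 hz))
    have h3 : w z = 0 := le_antisymm ((h1 z).trans (cut_eq_zero hρ (by linarith)).le) (h0 z)
    simp [h3]

theorem Com.z_ae_lt (h : Com d ν) (ω : S) : ∀ᵐ y : ℝ × S ∂(volume.prod ν), d.l ω y.2 < 1 :=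
  Measure.quasiMeasurePreserving_snd.ae (h.llt ω)

theorem Ok.z_cont_g (h : Ok d ν) : Continuous d.g := h.hU.cont_f

theorem Ok.z_g_pos (h : Ok d ν) (y : ℝ × S) : 0 < d.g y := h.hU.f_pos y

theorem Com.z_k_nonneg (h : Com d ν) (x y : ℝ × S) : 0 ≤ d.k x y := KK_nonneg _ _ _ (h.lle _ _) _ _

theorem Ok.z_integral_k (h : Ok d ν) (he : Eqn d ν) (x : ℝ × S) :
    Integrable (fun y => d.k x y * d.g y) (volume.prod ν) ∧ ∫ y, d.k x y * d.g y ∂(volume.prod ν) = d.c * d.V x := by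
  have hm : Measurable fun y => d.k x y * d.g y :=
    (h.com.measurable_k.comp (measurable_const.prodMk measurable_id)).mul h.z_cont_g.measurable
  have h0 : ∀ y, 0 ≤ d.k x y * d.g y := fun y => mul_nonneg (h.com.z_k_nonneg _ _) (h.z_g_pos y).le
  have h1 := he x
  unfold Dat.pot at h1
  constructor
  · refine ⟨hm.aestronglyMeasurable, ?_⟩
    rw [hasFiniteIntegral_iff_ofReal (ae_of_all _ h0), h1]
    exact ENNReal.ofReal_lt_top
  · rw [integral_eq_lintegral_of_nonneg_ae (ae_of_all _ h0) hm.aestronglyMeasurable, h1,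
      ENNReal.toReal_ofReal (mul_pos h.com.cpos (h.hV.pos x)).le]

theorem Ok.integral_ray (h : Ok d ν) (he : Eqn d ν) (ω : S) {t₁ t₂ : ℝ} (ht : t₁ ≤ t₂) :
    ∫ t in Ioo t₁ t₂, ∫ y, d.kd (t, ω) y * d.g y ∂(volume.prod ν) = d.c * d.V (t₂, ω) - d.c * d.V (t₁, ω) := by
  have hm : Measurable fun z : ℝ × (ℝ × S) => d.kd (z.1, ω) z.2 * d.g z.2 :=
    (h.com.measurable_kd.comp ((measurable_fst.prodMk measurable_const).prodMk measurable_snd)).mul
      (h.z_cont_g.measurable.comp measurable_snd)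
  have hi : Integrable (fun z : ℝ × (ℝ × S) => d.kd (z.1, ω) z.2 * d.g z.2)
      ((volume.restrict (Ioo t₁ t₂)).prod (volume.prod ν)) := by
    obtain ⟨C, hC⟩ := h.lintegral_kd_le t₂
    refine ⟨hm.aestronglyMeasurable, ?_⟩
    have hc : Continuous fun t : ℝ =>
        C * (Real.exp ((d.a + d.μ) * t) + Real.exp ((d.a + d.b + d.q * (d.b + d.μ)) * t)) := by fun_prop
    have hI := (hc.integrableOn_Icc (μ := volume) (a := t₁) (b := t₂)).mono_set Ioo_subset_Icc_self
    unfold HasFiniteIntegral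
    rw [lintegral_prod _ hm.enorm.aemeasurable]
    refine lt_of_le_of_lt ?_ hI.lintegral_lt_top
    refine setLIntegral_mono' measurableSet_Ioo fun t htt => ?_
    refine le_trans (le_of_eq ?_) (hC (t, ω) htt.2.le)
    refine lintegral_congr fun y => ?_
    rw [← ofReal_norm, norm_mul, Real.norm_of_nonneg (h.z_g_pos y).le, Real.norm_eq_abs]
  rw [integral_integral_swap hi, ← (h.z_integral_k he _).2, ← (h.z_integral_k he _).2,
    ← integral_sub (h.z_integral_k he _).1 (h.z_integral_k he _).1]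
  refine integral_congr_ae ?_
  filter_upwards [h.com.z_ae_lt ω] with y hy
  rw [integral_mul_const, ← sub_mul]
  congr 1
  rw [← integral_Ioc_eq_integral_Ioo, ← intervalIntegral.integral_of_le ht]
  refine intervalIntegral.integral_eq_sub_of_hasDerivAt (f := fun t => d.k (t, ω) y)
    (fun t _ => hasDerivAt_KK _ _ _ hy t y.1) ?_
  exact ((continuous_KD d.μ d.a d.b hy).comp (continuous_id.prodMk continuous_const)).intervalIntegrable _ _

/-- integrals over a superlevel set, cell by cell -/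
theorem cells_nonneg {F : ℝ → ℝ} (hF : Continuous F) {l T : ℝ} (hl : ∀ t, ∃ t', t' ≤ t ∧ F t' ≤ l) {G : ℝ → ℝ}
    (hG : IntegrableOn G ({t | l < F t} ∩ Iio (T + 10)))
    (h0 : ∀ t, t < T + 10 → l < F t → 0 ≤ ∫ s in Ioo (lef F l t) (rig F l T t), G s) :
    0 ≤ ∫ s in {t | l < F t} ∩ Iio (T + 10), G s := by
  refine setIntegral_nonneg_of_cells volume _ (fun t => Ioo (lef F l t) (rig F l T t)) G
    (fun _ _ => isOpen_Ioo) (fun t ht => ?_) (fun t ht s hs => ?_) (fun t ht s hs => ?_) hG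
    (fun t ht => h0 t ht.2 ht.1)
  · obtain ⟨h1, h2, -⟩ := cell hF (T := T) hl ht.2 ht.1
    exact ⟨h1, h2⟩
  · obtain ⟨-, -, h3, -, -, h6⟩ := cell hF (T := T) hl ht.2 ht.1
    exact ⟨(h6 s hs).1, lt_of_lt_of_le hs.2 h3⟩
  · obtain ⟨-, -, -, -, -, h6⟩ := cell hF (T := T) hl ht.2 ht.1
    rw [(h6 s hs).2.1, (h6 s hs).2.2.1]

theorem Ok.zero (h : Ok d ν) (he : Eqn d ν) {T τ ρ : ℝ} (hρ : 0 < ρ) (hτ : τ + ρ ≤ T + 3) :
    ∫ z, cut τ ρ (Pos d.f T z.1) * d.kd (pt z.1) (pt z.2) ∂(MM d ν) = 0 := by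
  have hf := h.hV.cont_f
  have hw : Measurable fun z : Xs S × Xs S => cut τ ρ (Pos d.f T z.1) :=
    (continuous_cut τ ρ).measurable.comp ((measurable_Pos hf T).comp measurable_fst)
  have hi := h.integrable_cut hρ hτ hw (fun _ => cut_nonneg _ _ _) (fun _ => le_rfl)
  obtain ⟨W, hW⟩ : ∃ W : ℝ × S → ℝ, W = fun x => ∫ y, d.kd x y * d.g y ∂(volume.prod ν) := ⟨_, rfl⟩
  have e : ∀ ξ : Xs S, ∫ ζ, cut τ ρ (Pos d.f T ξ) * d.kd (pt ξ) (pt ζ) ∂((mX ν).restrict (sub d.g)) =
      cut τ ρ (Pos d.f T ξ) * W (pt ξ) := fun ξ => by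
    rw [integral_const_mul, hW]
    congr 1
    exact integral_lift₁ h.z_cont_g (fun y => (h.z_g_pos y).le) (H := fun y => d.kd (pt ξ) y)
      (h.com.measurable_kd.comp (measurable_const.prodMk measurable_id))
  unfold MM at hi ⊢
  have hi2 := hi.integral_prod_left
  rw [integral_prod _ hi]
  simp only [e] at hi2 ⊢
  refine integral_sub_eq_zero hf hi2 fun α hα hG => ?_
  obtain ⟨ω, l⟩ := α
  obtain ⟨F, hF⟩ : ∃ F : ℝ → ℝ, F = fun t => d.f (t, ω) := ⟨_, rfl⟩
  have hFc : Continuous F := by rw [hF]; exact hf.comp (continuous_id.prodMk continuous_const)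
  have hl : ∀ t, ∃ t', t' ≤ t ∧ F t' ≤ l := by rw [hF]; exact h.left_exit ω hα
  obtain ⟨G, hGd⟩ : ∃ G : ℝ → ℝ, G = fun t => cut τ ρ (pos F l T t) * W (t, ω) := ⟨_, rfl⟩
  change IntegrableOn (fun t => cut τ ρ (pos (fun t => d.f (t, ω)) l T t) * W (t, ω)) {t | l < d.f (t, ω)} at hG
  change ∫ t in {t | l < d.f (t, ω)}, cut τ ρ (pos (fun t => d.f (t, ω)) l T t) * W (t, ω) = 0
  have e2 : {t | l < d.f (t, ω)} = {t | l < F t} := by rw [hF]
  rw [e2, ← hF, ← hGd] at hG ⊢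
  have hO : MeasurableSet {t | l < F t} := (isOpen_lt continuous_const hFc).measurableSet
  have e3 : ∫ t in {t | l < F t}, G t = ∫ t in {t | l < F t} ∩ Iio (T + 10), G t := by
    refine setIntegral_eq_of_subset_of_forall_sdiff_eq_zero hO inter_subset_left fun t ht => ?_
    have h1 : T + 10 ≤ t := by
      by_contra hc
      exact ht.2 ⟨ht.1, not_le.1 hc⟩
    have h2 := pos_ge F l h1
    rw [hGd]
    dsimp only
    rw [cut_eq_zero hρ (by linarith), zero_mul]
  have hc : ∀ t, t < T + 10 → l < F t → ∫ s in Ioo (lef F l t) (rig F l T t), G s = 0 := fun t h1 h2 => by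
    obtain ⟨c1, c2, c3, c4, c5, c6⟩ := cell hFc (T := T) hl h1 h2
    have e4 : ∫ s in Ioo (lef F l t) (rig F l T t), G s =
        ∫ s in Ioo (lef F l t) (rig F l T t), cut τ ρ (mid T (lef F l t) (rig F l T t)) * W (s, ω) := by
      refine setIntegral_congr_fun measurableSet_Ioo fun s hs => ?_
      rw [hGd]
      dsimp only
      rw [(c6 s hs).2.2.2]
    rw [e4, integral_const_mul]
    by_cases hm : τ + ρ ≤ mid T (lef F l t) (rig F l T t)
    · rw [cut_eq_zero hρ hm, zero_mul]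
    have h3 : rig F l T t < T + 10 := by
      have h4 := le_max_right (lef F l t) T
      have h5 := le_max_left (rig F l T t) T
      unfold mid at hm
      push Not at hm
      linarith
    have h4 : d.V (rig F l T t, ω) = d.V (lef F l t, ω) := by
      have h5 : d.f (rig F l T t, ω) = d.f (lef F l t, ω) := by
        have h6 := (c5 h3).trans c4.symm
        rwa [hF] at h6 ⊢
      exact (Real.rpow_left_inj (h.hV.pos _).le (h.hV.pos _).le h.hV.ppos.ne').1 h5
    rw [hW]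
    dsimp only
    rw [h.integral_ray he ω (c1.trans c2).le, h4, sub_self, mul_zero]
  rw [e3]
  have hG' := hG.mono_set (inter_subset_left (t := Iio (T + 10)))
  refine le_antisymm ?_ (cells_nonneg hFc hl hG' fun t h1 h2 => (hc t h1 h2).ge)
  have h5 := cells_nonneg hFc hl (G := fun t => -G t) hG'.neg fun t h1 h2 => by
    rw [integral_neg, hc t h1 h2, neg_zero]
  rw [integral_neg] at h5
  linarith

end Crest.Agent.R77
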